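import Vale.Agent.P065.H700.KL

/-!
# P065, package QLAW (helper700), part 2: the auxiliary law

A *column* `k` is a slope scale together with two marked slope blocks. `ρ k` is the fine box of a
flag in the column `k`, `E k` its label (`some false`, `some true` for the two marked blocks,
`none` otherwise) and `f k` a weight function with values in `[0, 1]` (the indicator of the selected
fine boxes, or a multiple of the surprise). The law `Q` on pairs (column, flag): a fine box with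
weight `P (ρ) f (ρ) π (ρ) / J`, `π` the smaller one of the conditional probabilities of the two
labels, then a fair coin for the label, then a flag with the conditional law.
-/

set_option autoImplicit false

open Finset Real

set_option linter.unusedSectionVars false

noncomputable section

namespace Vale.Agent.P065.H700

open Vale.Agent.P065.Ent

variable {Ω : Type*} [Fintype Ω] {κ : Type*} [Fintype κ] {α β γ δ : Type*}

/-! ## The tower property -/

/-- `∑ 1 (X = x) μ g (Z) = ∑ μ P (X = x | Z) g (Z)` -/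
lemma tower {μ : Ω → ℝ} (hμ : IsProb μ) (X : Ω → α) (Z : Ω → β) (x : α) (g : β → ℝ)
    [DecidablePred fun ω => X ω = x] :
    ∑ ω, (if X ω = x then μ ω * g (Z ω) else 0) =
      ∑ ω, μ ω * ((Pr μ (fun ω => (X ω, Z ω)) (x, Z ω) / Pr μ Z (Z ω)) * g (Z ω)) := by
  classical
  have h1 := sum_fiber (fun ω => if X ω = x then μ ω else 0) Z g
  have h2 := sum_fiber μ Z (fun z => (Pr μ (fun ω => (X ω, Z ω)) (x, z) / Pr μ Z z) * g z)
  have h3 : ∀ z, Pr (fun ω => if X ω = x then μ ω else 0) Z z =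
      Pr μ (fun ω => (X ω, Z ω)) (x, z) := by
    intro z
    unfold Pr
    refine sum_congr rfl fun ω _ => ?_
    by_cases hz : Z ω = z
    · by_cases hx : X ω = x <;> simp [hz, hx]
    · simp [hz]
  have h4 : ∑ ω, (if X ω = x then μ ω * g (Z ω) else 0) =
      ∑ ω, (if X ω = x then μ ω else 0) * g (Z ω) := by
    refine sum_congr rfl fun ω _ => ?_
    split_ifs <;> simp
  rw [h4, h1, h2]
  refine sum_congr rfl fun z _ => ?_
  rw [h3]
  rcases eq_or_ne (Pr μ Z z) 0 with h0 | h0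
  · have h5 : Pr μ (fun ω => (X ω, Z ω)) (x, z) ≤ Pr μ Z z := by
      unfold Pr
      refine sum_le_sum fun ω _ => ?_
      by_cases hz : Z ω = z
      · by_cases hx : X ω = x
        · simp [hz, hx]
        · simp [hz, hx, hμ.nonneg ω]
      · simp [hz]
    have h6 : Pr μ (fun ω => (X ω, Z ω)) (x, z) = 0 :=
      le_antisymm (h5.trans h0.le) (Pr_nonneg hμ _ _)
    rw [h6, h0]; simp
  · field_simp

/-! ## Columns -/

/-- columns: fine box, label, weights of the fine boxes (for instance the indicator of a set of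
selected boxes) -/
structure Cols (Ω κ α : Type*) where
  /-- the fine box of a flag -/
  ρ : κ → Ω → α
  /-- the label of a flag -/
  E : κ → Ω → Option Bool
  /-- the weights of the fine boxes -/
  f : κ → α → ℝ
  f0 : ∀ k r, 0 ≤ f k r
  f1 : ∀ k r, f k r ≤ 1

namespace Cols

variable (C : Cols Ω κ α) (μ : Ω → ℝ)

/-- conditional probability of the label `b` in the fine box `r` -/
def c (k : κ) (b : Bool) (r : α) : ℝ :=
  Pr μ (fun ω => (C.E k ω, C.ρ k ω)) (some b, r) / Pr μ (C.ρ k) r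

/-- the smaller one of the two conditional probabilities -/
def pi (k : κ) (r : α) : ℝ := min (C.c μ k false r) (C.c μ k true r)

/-- weight of a fine box -/
def wt (k : κ) (r : α) : ℝ := C.f k r * C.pi μ k r

/-- total weight -/
def J : ℝ := ∑ k, ∑ ω, μ ω * C.wt μ k (C.ρ k ω)

/-- density of one flag in one column -/
def dens (k : κ) (ω : Ω) : ℝ :=
  match C.E k ω with
  | none => 0
  | some b => C.wt μ k (C.ρ k ω) / (2 * C.c μ k b (C.ρ k ω))

/-- the auxiliary law on pairs (column, flag) -/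
def Q (t : κ × Ω) : ℝ := μ t.2 * C.dens μ t.1 t.2 / C.J μ

variable {C μ}

lemma c_nonneg (hμ : IsProb μ) (k : κ) (b : Bool) (r : α) : 0 ≤ C.c μ k b r :=
  div_nonneg (Pr_nonneg hμ _ _) (Pr_nonneg hμ _ _)

lemma pi_nonneg (hμ : IsProb μ) (k : κ) (r : α) : 0 ≤ C.pi μ k r :=
  le_min (c_nonneg hμ k _ r) (c_nonneg hμ k _ r)

lemma pi_le (k : κ) (b : Bool) (r : α) : C.pi μ k r ≤ C.c μ k b r := by
  cases b
  · exact min_le_left _ _
  · exact min_le_right _ _

lemma wt_nonneg (hμ : IsProb μ) (k : κ) (r : α) : 0 ≤ C.wt μ k r :=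
  mul_nonneg (C.f0 k r) (pi_nonneg hμ k r)

lemma wt_le_pi (hμ : IsProb μ) (k : κ) (r : α) : C.wt μ k r ≤ C.pi μ k r :=
  mul_le_of_le_one_left (pi_nonneg hμ k r) (C.f1 k r)

lemma wt_le (hμ : IsProb μ) (k : κ) (b : Bool) (r : α) : C.wt μ k r ≤ C.c μ k b r :=
  (wt_le_pi hμ k r).trans (pi_le k b r)

/-- the two conditional probabilities have sum at most one -/
lemma c_add_le (hμ : IsProb μ) (k : κ) (r : α) : C.c μ k false r + C.c μ k true r ≤ 1 := by
  classical
  unfold c
  rw [← add_div]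
  refine div_le_one_of_le₀ ?_ (Pr_nonneg hμ _ _)
  unfold Pr
  rw [← sum_add_distrib]
  refine sum_le_sum fun ω _ => ?_
  by_cases hr : C.ρ k ω = r
  · rcases h : C.E k ω with _ | b
    · simp [hr, h, hμ.nonneg ω]
    · cases b <;> simp [hr, h]
  · simp [hr]

lemma pi_le_half (hμ : IsProb μ) (k : κ) (r : α) : C.pi μ k r ≤ 1 / 2 := by
  have h1 := c_add_le (C := C) hμ k r
  have h2 := pi_le (C := C) (μ := μ) k false r
  have h3 := pi_le (C := C) (μ := μ) k true r
  linarith

lemma wt_le_half (hμ : IsProb μ) (k : κ) (r : α) : C.wt μ k r ≤ 1 / 2 :=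
  (wt_le_pi hμ k r).trans (pi_le_half hμ k r)

lemma dens_nonneg (hμ : IsProb μ) (k : κ) (ω : Ω) : 0 ≤ C.dens μ k ω := by
  unfold dens
  split
  · exact le_rfl
  · exact div_nonneg (wt_nonneg hμ k _) (mul_nonneg zero_le_two (c_nonneg hμ k _ _))

lemma dens_le (hμ : IsProb μ) (k : κ) (ω : Ω) : C.dens μ k ω ≤ 1 / 2 := by
  unfold dens
  split
  · norm_num
  · rename_i b _
    have h1 := wt_le (C := C) hμ k b (C.ρ k ω)
    rcases (c_nonneg (C := C) hμ k b (C.ρ k ω)).eq_or_lt with h0 | h0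
    · rw [← h0]; norm_num
    · rw [div_le_div_iff₀ (by positivity) two_pos]
      linarith

lemma J_nonneg (hμ : IsProb μ) : 0 ≤ C.J μ :=
  sum_nonneg fun k _ => sum_nonneg fun ω _ => mul_nonneg (hμ.nonneg ω) (wt_nonneg hμ k _)

/-- (F0) -/
lemma Q_le (hμ : IsProb μ) (t : κ × Ω) : C.Q μ t ≤ μ t.2 / (2 * C.J μ) := by
  unfold Q
  have h1 := dens_le (C := C) hμ t.1 t.2
  have h2 := mul_le_mul_of_nonneg_left h1 (hμ.nonneg t.2)
  have h3 := J_nonneg (C := C) hμ
  calc μ t.2 * C.dens μ t.1 t.2 / C.J μ ≤ (μ t.2 * (1 / 2)) / C.J μ :=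
        div_le_div_of_nonneg_right h2 h3
    _ = μ t.2 / (2 * C.J μ) := by rw [mul_one_div, div_div]

lemma Q_nonneg (hμ : IsProb μ) (t : κ × Ω) : 0 ≤ C.Q μ t :=
  div_nonneg (mul_nonneg (hμ.nonneg _) (dens_nonneg hμ _ _)) (J_nonneg hμ)

open Classical in
/-- the sum over one label in one column -/
lemma label_sum (hμ : IsProb μ) (k : κ) (b : Bool) (f : α → ℝ) :
    ∑ ω, (if C.E k ω = some b then μ ω * C.dens μ k ω * f (C.ρ k ω) else 0) =
      1 / 2 * ∑ ω, μ ω * (C.wt μ k (C.ρ k ω) * f (C.ρ k ω)) := by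
  have h1 : ∑ ω, (if C.E k ω = some b then μ ω * C.dens μ k ω * f (C.ρ k ω) else 0) =
      ∑ ω, (if C.E k ω = some b then
        μ ω * (C.wt μ k (C.ρ k ω) / (2 * C.c μ k b (C.ρ k ω)) * f (C.ρ k ω)) else 0) := by
    refine sum_congr rfl fun ω _ => ?_
    split_ifs with h
    · unfold dens
      rw [h]
      ring
    · rfl
  rw [h1, tower hμ (C.E k) (C.ρ k) (some b)
    (fun r => C.wt μ k r / (2 * C.c μ k b r) * f r), mul_sum]
  refine sum_congr rfl fun ω _ => ?_
  have h2 : Pr μ (fun ω => (C.E k ω, C.ρ k ω)) (some b, C.ρ k ω) / Pr μ (C.ρ k) (C.ρ k ω) =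
      C.c μ k b (C.ρ k ω) := rfl
  rw [h2]
  rcases eq_or_ne (C.c μ k b (C.ρ k ω)) 0 with h0 | h0
  · have h3 : C.wt μ k (C.ρ k ω) = 0 :=
      le_antisymm ((wt_le hμ k b _).trans h0.le) (wt_nonneg hμ k _)
    rw [h0, h3]; ring
  · field_simp

lemma col_sum (hμ : IsProb μ) (k : κ) (f : α → ℝ) :
    ∑ ω, μ ω * C.dens μ k ω * f (C.ρ k ω) = ∑ ω, μ ω * (C.wt μ k (C.ρ k ω) * f (C.ρ k ω)) := by
  classical
  have h1 := label_sum (C := C) hμ k false f
  have h2 := label_sum (C := C) hμ k true f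
  have h3 : ∑ ω, μ ω * C.dens μ k ω * f (C.ρ k ω) =
      ∑ ω, (if C.E k ω = some false then μ ω * C.dens μ k ω * f (C.ρ k ω) else 0) +
      ∑ ω, (if C.E k ω = some true then μ ω * C.dens μ k ω * f (C.ρ k ω) else 0) := by
    rw [← sum_add_distrib]
    refine sum_congr rfl fun ω _ => ?_
    rcases h : C.E k ω with _ | b
    · unfold dens; rw [h]; simp
    · cases b <;> simp
  rw [h3, h1, h2]; ring

/-- expectation under `Q` of a function of the column and the fine box -/
lemma sum_Q (hμ : IsProb μ) (f : κ → α → ℝ) :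
    ∑ t : κ × Ω, C.Q μ t * f t.1 (C.ρ t.1 t.2) =
      (∑ k, ∑ ω, μ ω * (C.wt μ k (C.ρ k ω) * f k (C.ρ k ω))) / C.J μ := by
  rw [Fintype.sum_prod_type, sum_div]
  refine sum_congr rfl fun k _ => ?_
  rw [← col_sum hμ k (f k), sum_div]
  refine sum_congr rfl fun ω _ => ?_
  unfold Q
  ring

/-- `Q` is a probability vector -/
lemma isProb_Q (hμ : IsProb μ) (hJ : 0 < C.J μ) : IsProb (C.Q μ) := by
  refine ⟨fun t => Q_nonneg hμ t, ?_⟩
  have h := sum_Q (C := C) hμ (fun _ _ => 1)
  simp only [mul_one] at h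
  rw [h]
  exact div_self hJ.ne'

open Classical in
/-- (F2): expectations of nonnegative functions of the fine box are at most `1 / J` times the sum
over the columns of the expectations on one label -/
lemma sum_Q_le (hμ : IsProb μ) (f : κ → α → ℝ) (hf : ∀ k r, 0 ≤ f k r) (b : κ → Bool) :
    ∑ t : κ × Ω, C.Q μ t * f t.1 (C.ρ t.1 t.2) ≤
      (∑ k, ∑ ω, (if C.E k ω = some (b k) then μ ω * f k (C.ρ k ω) else 0)) / C.J μ := by
  rw [sum_Q hμ f]
  refine div_le_div_of_nonneg_right (sum_le_sum fun k _ => ?_) (J_nonneg hμ)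
  rw [tower hμ (C.E k) (C.ρ k) (some (b k)) (f k)]
  refine sum_le_sum fun ω _ => mul_le_mul_of_nonneg_left ?_ (hμ.nonneg ω)
  exact mul_le_mul_of_nonneg_right (wt_le hμ k (b k) _) (hf _ _)

/-! ## The coin -/

open Classical in
/-- the law `Q` conditioned on: the label is the one chosen by `s` -/
def Qs (C : Cols Ω κ α) (μ : Ω → ℝ) (s : κ → α → Bool) (t : κ × Ω) : ℝ :=
  if C.E t.1 t.2 = some (s t.1 (C.ρ t.1 t.2)) then 2 * C.Q μ t else 0

lemma Qs_nonneg (hμ : IsProb μ) (s : κ → α → Bool) (t : κ × Ω) : 0 ≤ C.Qs μ s t := by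
  unfold Qs
  split_ifs
  · exact mul_nonneg zero_le_two (Q_nonneg hμ t)
  · exact le_rfl

lemma Qs_le (hμ : IsProb μ) (s : κ → α → Bool) (t : κ × Ω) : C.Qs μ s t ≤ μ t.2 / C.J μ := by
  unfold Qs
  split_ifs
  · have h := Q_le (C := C) hμ t
    calc 2 * C.Q μ t ≤ 2 * (μ t.2 / (2 * C.J μ)) := by linarith
      _ = μ t.2 / C.J μ := by
        rcases eq_or_ne (C.J μ) 0 with h0 | h0
        · rw [h0]; simp
        · field_simp
  · exact div_nonneg (hμ.nonneg _) (J_nonneg hμ)

/-- the density of `Qs` with weights: the selected label is the lighter one -/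
lemma Qs_le_light (hμ : IsProb μ) (s : κ → α → Bool) (t : κ × Ω)
    (hs : C.E t.1 t.2 = some (s t.1 (C.ρ t.1 t.2)) →
      C.c μ t.1 (s t.1 (C.ρ t.1 t.2)) (C.ρ t.1 t.2) = C.pi μ t.1 (C.ρ t.1 t.2)) :
    C.Qs μ s t ≤ μ t.2 * C.f t.1 (C.ρ t.1 t.2) / C.J μ := by
  unfold Qs
  split_ifs with h
  · have h1 := hs h
    unfold Q dens
    rw [h]
    simp only
    rw [h1]
    unfold wt
    rcases (pi_nonneg (C := C) hμ t.1 (C.ρ t.1 t.2)).eq_or_lt with h0 | h0
    · rw [← h0]
      simp only [mul_zero, div_zero, zero_div]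
      exact div_nonneg (mul_nonneg (hμ.nonneg _) (C.f0 _ _)) (J_nonneg hμ)
    · refine le_of_eq ?_
      field_simp
  · exact div_nonneg (mul_nonneg (hμ.nonneg _) (C.f0 _ _)) (J_nonneg hμ)

/-- (F1): the coin is fair and independent of the column and the fine box -/
lemma sum_Qs (hμ : IsProb μ) (s : κ → α → Bool) (f : κ → α → ℝ) :
    ∑ t : κ × Ω, C.Qs μ s t * f t.1 (C.ρ t.1 t.2) =
      ∑ t : κ × Ω, C.Q μ t * f t.1 (C.ρ t.1 t.2) := by
  classical
  rw [sum_Q hμ f, Fintype.sum_prod_type, sum_div]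
  refine sum_congr rfl fun k _ => ?_
  -- split the selection into the two labels
  have h1 := label_sum (C := C) hμ k false (fun r => if s k r = false then f k r else 0)
  have h2 := label_sum (C := C) hμ k true (fun r => if s k r = true then f k r else 0)
  have h3 : ∑ ω, C.Qs μ s (k, ω) * f k (C.ρ k ω) =
      (2 * ∑ ω, (if C.E k ω = some false then μ ω * C.dens μ k ω *
        (if s k (C.ρ k ω) = false then f k (C.ρ k ω) else 0) else 0) +
      2 * ∑ ω, (if C.E k ω = some true then μ ω * C.dens μ k ω *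
        (if s k (C.ρ k ω) = true then f k (C.ρ k ω) else 0) else 0)) / C.J μ := by
    rw [mul_sum, mul_sum, ← sum_add_distrib, sum_div]
    refine sum_congr rfl fun ω _ => ?_
    unfold Qs Q
    rcases hE : C.E k ω with _ | b
    · simp
    · cases b <;> cases hs : s k (C.ρ k ω) <;> simp <;> ring
  rw [h3, h1, h2]
  congr 1
  rw [← mul_assoc, ← mul_assoc]
  norm_num
  rw [← sum_add_distrib]
  refine sum_congr rfl fun ω _ => ?_
  cases hs : s k (C.ρ k ω) <;> simp

lemma isProb_Qs (hμ : IsProb μ) (hJ : 0 < C.J μ) (s : κ → α → Bool) : IsProb (C.Qs μ s) := by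
  refine ⟨fun t => Qs_nonneg hμ s t, ?_⟩
  have h := sum_Qs (C := C) hμ s (fun _ _ => 1)
  simp only [mul_one] at h
  rw [h]
  exact (isProb_Q hμ hJ).sum

end Cols

end Vale.Agent.P065.H700
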