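import Vale.Agent.P065.H700.Budget

/-!
# P065, package QLAW (helper700), part 4: budgets under the auxiliary law
-/

set_option autoImplicit false

open Finset Real

set_option linter.unusedSectionVars false

noncomputable section

namespace Vale.Agent.P065.H700

open Vale.Agent.P065.Ent

variable {Ω : Type*} [Fintype Ω] {κ : Type*} [Fintype κ] {α β γ δ ε υ : Type*}

/-! ## The uniform lift -/

/-- the lift of a law on flags to pairs (column, flag) -/
def lft (κ : Type*) [Fintype κ] (μ : Ω → ℝ) (t : κ × Ω) : ℝ := μ t.2 / Fintype.card κ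

lemma isProb_lft [Nonempty κ] {μ : Ω → ℝ} (hμ : IsProb μ) : IsProb (lft κ μ) := by
  refine ⟨fun t => div_nonneg (hμ.nonneg _) (Nat.cast_nonneg _), ?_⟩
  have h0 : (Fintype.card κ : ℝ) ≠ 0 := Nat.cast_ne_zero.mpr Fintype.card_ne_zero
  unfold lft
  rw [Fintype.sum_prod_type]
  simp only [← sum_div, hμ.sum]
  rw [sum_const, card_univ, nsmul_eq_mul]
  field_simp

/-- probabilities under the lift of a variable containing the column -/
lemma Pr_lft (μ : Ω → ℝ) (X : κ → Ω → α) (k : κ) (x : α) :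
    Pr (lft κ μ) (fun t : κ × Ω => (t.1, X t.1 t.2)) (k, x) = Pr μ (X k) x / Fintype.card κ := by
  classical
  unfold Pr lft
  rw [Fintype.sum_prod_type, sum_eq_single k]
  · rw [sum_div]
    refine sum_congr rfl fun ω _ => ?_
    by_cases h : X k ω = x
    · simp [h]
    · simp [h]
  · intro k' _ hk'
    refine sum_eq_zero fun ω _ => ?_
    simp [hk']
  · intro h; exact absurd (mem_univ k) h

/-- the sum over one column -/
lemma Pr_col (q : κ × Ω → ℝ) (X : κ → Ω → α) (k : κ) (x : α) :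
    Pr q (fun t : κ × Ω => (t.1, X t.1 t.2)) (k, x) = Pr (fun ω => q (k, ω)) (X k) x := by
  classical
  unfold Pr
  rw [Fintype.sum_prod_type, sum_eq_single k]
  · refine sum_congr rfl fun ω _ => ?_
    by_cases h : X k ω = x
    · simp [h]
    · simp [h]
  · intro k' _ hk'
    refine sum_eq_zero fun ω _ => ?_
    simp [hk']
  · intro h; exact absurd (mem_univ k) h

namespace Cols

variable {C : Cols Ω κ α} {μ : Ω → ℝ}

open Classical in
/-- (F2), the label may depend on the fine box -/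
lemma sum_Q_le' (hμ : IsProb μ) (f : κ → α → ℝ) (hf : ∀ k r, 0 ≤ f k r) (b : κ → α → Bool) :
    ∑ t : κ × Ω, C.Q μ t * f t.1 (C.ρ t.1 t.2) ≤
      (∑ k, ∑ ω, (if C.E k ω = some (b k (C.ρ k ω)) then μ ω * f k (C.ρ k ω) else 0)) /
        C.J μ := by
  have h1 := sum_Q_le (C := C) hμ (fun k r => if b k r = false then f k r else 0)
    (fun k r => by split_ifs; exacts [hf k r, le_rfl]) (fun _ => false)
  have h2 := sum_Q_le (C := C) hμ (fun k r => if b k r = true then f k r else 0)
    (fun k r => by split_ifs; exacts [hf k r, le_rfl]) (fun _ => true)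
  have h3 : ∑ t : κ × Ω, C.Q μ t * f t.1 (C.ρ t.1 t.2) =
      ∑ t : κ × Ω, C.Q μ t * (if b t.1 (C.ρ t.1 t.2) = false then f t.1 (C.ρ t.1 t.2) else 0) +
      ∑ t : κ × Ω, C.Q μ t * (if b t.1 (C.ρ t.1 t.2) = true then f t.1 (C.ρ t.1 t.2) else 0) := by
    rw [← sum_add_distrib]
    refine sum_congr rfl fun t _ => ?_
    cases b t.1 (C.ρ t.1 t.2) <;> simp
  rw [h3]
  refine (add_le_add h1 h2).trans (le_of_eq ?_)
  rw [← add_div, ← sum_add_distrib]
  congr 1
  refine sum_congr rfl fun k _ => ?_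
  rw [← sum_add_distrib]
  refine sum_congr rfl fun ω _ => ?_
  cases hb : b k (C.ρ k ω) <;> rcases hE : C.E k ω with _ | c <;> try cases c
  all_goals simp

/-- the auxiliary law is supported on boxes of positive weight -/
lemma Q_eq_zero {t : κ × Ω} (h : C.wt μ t.1 (C.ρ t.1 t.2) = 0) : C.Q μ t = 0 := by
  unfold Q dens
  split
  · simp
  · rw [h]; simp

lemma wt_pos_of_Q_pos (hμ : IsProb μ) {t : κ × Ω} (h : 0 < C.Q μ t) :
    0 < C.wt μ t.1 (C.ρ t.1 t.2) := by
  rcases (wt_nonneg (C := C) hμ t.1 (C.ρ t.1 t.2)).eq_or_lt with h0 | h0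
  · rw [Q_eq_zero h0.symm] at h
    exact absurd h (lt_irrefl _)
  · exact h0

/-- filtrations of the fine boxes of the columns -/
structure Filt (C : Cols Ω κ α) where
  /-- the type of the boxes of step `j` -/
  ty : ℕ → Type*
  /-- the box of step `j` -/
  R : ∀ j, κ → Ω → ty j
  /-- as a function of the fine box -/
  r : ∀ j, κ → α → ty j
  eq : ∀ j k ω, R j k ω = r j k (C.ρ k ω)
  det : ∀ j k, Det (R (j + 1) k) (R j k)
  /-- relevant boxes of step zero -/
  rel : κ → ty 0 → Prop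

/-- relevance contains the support -/
def Filt.Good (F : C.Filt) (μ : Ω → ℝ) : Prop :=
  ∀ k ω, 0 < C.wt μ k (C.ρ k ω) → F.rel k (F.R 0 k ω)

open Classical in
/-- the coarse content of the label `b` -/
def Filt.A (F : C.Filt) (μ : Ω → ℝ) (b : Bool) : ℝ :=
  ∑ k, ∑ ω, (if C.E k ω = some b ∧ F.rel k (F.R 0 k ω) then
    μ ω * (- log (cp μ (C.E k) (some b) (F.R 0 k) ω)) else 0)

open Classical in
/-- the loglog content of the label `b` -/
def Filt.A' (F : C.Filt) (μ : Ω → ℝ) (b : Bool) : ℝ :=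
  ∑ k, ∑ ω, (if C.E k ω = some b ∧ F.rel k (F.R 0 k ω) then
    μ ω * log (1 - log (cp μ (C.E k) (some b) (F.R 0 k) ω)) else 0)

open Classical in
/-- **(Q3)**: budget of one label under the auxiliary law -/
theorem budget (hμ : IsProb μ) (F : C.Filt) (hF : F.Good μ) (b : Bool) (n : ℕ) :
    ∑ j ∈ range n, ∑ t : κ × Ω, C.Q μ t *
      DE μ (C.E t.1) (some b) (F.R (j + 1) t.1) (F.R j t.1) (F.R j t.1 t.2) ≤
      F.A μ b / C.J μ := by
  have h1 : ∀ j, ∑ t : κ × Ω, C.Q μ t *
      DE μ (C.E t.1) (some b) (F.R (j + 1) t.1) (F.R j t.1) (F.R j t.1 t.2) ≤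
      (∑ k, ∑ ω, (if C.E k ω = some b then μ ω * ((if F.rel k (F.R 0 k ω) then 1 else 0) *
        DE μ (C.E k) (some b) (F.R (j + 1) k) (F.R j k) (F.R j k ω)) else 0)) / C.J μ := by
    intro j
    have h2 := sum_Q_le (C := C) hμ (fun k a => (if F.rel k (F.r 0 k a) then 1 else 0) *
        DE μ (C.E k) (some b) (F.R (j + 1) k) (F.R j k) (F.r j k a))
      (fun k a => mul_nonneg (by split_ifs <;> norm_num) (DE_nonneg hμ _ _ _ _ _)) (fun _ => b)
    simp only [← F.eq] at h2
    refine le_trans (le_of_eq ?_) h2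
    refine sum_congr rfl fun t _ => ?_
    rcases (Q_nonneg (C := C) hμ t).eq_or_lt with h0 | h0
    · rw [← h0]; simp
    · rw [if_pos (hF _ _ (wt_pos_of_Q_pos hμ h0)), one_mul]
  refine (sum_le_sum fun j _ => h1 j).trans ?_
  rw [← sum_div]
  refine div_le_div_of_nonneg_right ?_ (J_nonneg hμ)
  rw [sum_comm]
  unfold Filt.A
  refine sum_le_sum fun k _ => ?_
  have h3 := sum_DE_filtration hμ (C.E k) (some b) (fun j => F.R j k) (fun j => F.det j k)
    (fun ω => if F.rel k (F.R 0 k ω) then 1 else 0) (by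
      intro a a' haa
      simp only [haa]) (fun ω => by split_ifs <;> norm_num) n
  refine le_trans (le_of_eq ?_) (h3.trans (le_of_eq ?_))
  · refine sum_congr rfl fun j _ => sum_congr rfl fun ω _ => ?_
    by_cases h4 : C.E k ω = some b <;> simp only [h4, if_true, if_false]
  refine sum_congr rfl fun ω _ => ?_
  by_cases h4 : C.E k ω = some b
  · by_cases h5 : F.rel k (F.R 0 k ω) <;> simp [h4, h5]
  · simp [h4]

open Classical in
/-- **(Q3')**: relative budget of one label under the auxiliary law -/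
theorem budget_rel (hμ : IsProb μ) (F : C.Filt) (hF : F.Good μ) (b : Bool) (n : ℕ) :
    ∑ j ∈ range n, ∑ t : κ × Ω, C.Q μ t *
      (DE μ (C.E t.1) (some b) (F.R (j + 1) t.1) (F.R j t.1) (F.R j t.1 t.2) /
        (1 - log (cp μ (C.E t.1) (some b) (F.R j t.1) t.2))) ≤
      F.A' μ b / C.J μ := by
  -- `cp` as a function of the box
  set g : ℕ → κ → α → ℝ := fun j k a =>
    Pr μ (fun ω => (C.E k ω, F.R j k ω)) (some b, F.r j k a) / Pr μ (F.R j k) (F.r j k a) with hg
  have hgc : ∀ j k ω, cp μ (C.E k) (some b) (F.R j k) ω = g j k (C.ρ k ω) := by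
    intro j k ω
    simp only [hg, cp, ← F.eq]
  have hg0 : ∀ j k a, 0 ≤ g j k a := fun j k a => div_nonneg (Pr_nonneg hμ _ _) (Pr_nonneg hμ _ _)
  have hg1 : ∀ j k a, g j k a ≤ 1 := fun j k a =>
    div_le_one_of_le₀ (Pr_pair_le hμ _ _ _ _) (Pr_nonneg hμ _ _)
  have hgl : ∀ j k a, 0 < 1 - log (g j k a) := by
    intro j k a
    have := log_nonpos (hg0 j k a) (hg1 j k a)
    linarith
  have h1 : ∀ j, ∑ t : κ × Ω, C.Q μ t *
      (DE μ (C.E t.1) (some b) (F.R (j + 1) t.1) (F.R j t.1) (F.R j t.1 t.2) /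
        (1 - log (cp μ (C.E t.1) (some b) (F.R j t.1) t.2))) ≤
      (∑ k, ∑ ω, (if C.E k ω = some b then μ ω * ((if F.rel k (F.R 0 k ω) then 1 else 0) *
        (DE μ (C.E k) (some b) (F.R (j + 1) k) (F.R j k) (F.R j k ω) /
        (1 - log (cp μ (C.E k) (some b) (F.R j k) ω)))) else 0)) / C.J μ := by
    intro j
    have h2 := sum_Q_le (C := C) hμ (fun k a => (if F.rel k (F.r 0 k a) then 1 else 0) *
        (DE μ (C.E k) (some b) (F.R (j + 1) k) (F.R j k) (F.r j k a) / (1 - log (g j k a))))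
      (fun k a => mul_nonneg (by split_ifs <;> norm_num)
        (div_nonneg (DE_nonneg hμ _ _ _ _ _) (hgl j k a).le)) (fun _ => b)
    simp only [← F.eq, ← hgc] at h2
    refine le_trans (le_of_eq ?_) h2
    refine sum_congr rfl fun t _ => ?_
    rcases (Q_nonneg (C := C) hμ t).eq_or_lt with h0 | h0
    · rw [← h0]; simp
    · rw [if_pos (hF _ _ (wt_pos_of_Q_pos hμ h0)), one_mul]
  refine (sum_le_sum fun j _ => h1 j).trans ?_
  rw [← sum_div]
  refine div_le_div_of_nonneg_right ?_ (J_nonneg hμ)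
  rw [sum_comm]
  unfold Filt.A'
  refine sum_le_sum fun k _ => ?_
  have h3 := sum_DE_rel hμ (C.E k) (some b) (fun j => F.R j k) (fun j => F.det j k)
    (fun ω => if F.rel k (F.R 0 k ω) then 1 else 0) (by
      intro a a' haa
      simp only [haa]) (fun ω => by split_ifs <;> norm_num) n
  refine le_trans (le_of_eq ?_) (h3.trans (le_of_eq ?_))
  · refine sum_congr rfl fun j _ => sum_congr rfl fun ω _ => ?_
    by_cases h4 : C.E k ω = some b <;> simp only [h4, if_true, if_false]
  refine sum_congr rfl fun ω _ => ?_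
  by_cases h4 : C.E k ω = some b
  · by_cases h5 : F.rel k (F.R 0 k ω) <;> simp [h4, h5]
  · simp [h4]

/-! ## The laws `Q` and `Qs` agree on functions of column and fine box -/

lemma Pr_Q_box (hμ : IsProb μ) (k : κ) (a : α) :
    Pr (C.Q μ) (fun t : κ × Ω => (t.1, C.ρ t.1 t.2)) (k, a) =
      C.wt μ k a * Pr μ (C.ρ k) a / C.J μ := by
  classical
  rw [Pr_col (C.Q μ) C.ρ k a]
  have h := col_sum (C := C) hμ k (fun x => if x = a then 1 else 0)
  unfold Pr
  have h1 : ∑ ω, (if C.ρ k ω = a then C.Q μ (k, ω) else 0) =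
      (∑ ω, μ ω * C.dens μ k ω * (if C.ρ k ω = a then 1 else 0)) / C.J μ := by
    rw [sum_div]
    refine sum_congr rfl fun ω _ => ?_
    unfold Q
    split_ifs <;> simp
  have h2 : ∀ ω, (if C.ρ k ω = a then C.Q μ (k, ω) else (0 : ℝ)) =
      @ite _ (C.ρ k ω = a) (Classical.propDecidable _) (C.Q μ (k, ω)) 0 := fun ω => by
    by_cases h : C.ρ k ω = a <;> simp [h]
  rw [h1, h]
  congr 1
  rw [mul_sum]
  refine sum_congr rfl fun ω _ => ?_
  by_cases h3 : C.ρ k ω = a
  · simp [h3]; ring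
  · simp [h3]

/-- (Q6): same probabilities -/
lemma Pr_Qs (hμ : IsProb μ) (s : κ → α → Bool) (w : κ → α → β) (x : β) :
    Pr (C.Qs μ s) (fun t : κ × Ω => w t.1 (C.ρ t.1 t.2)) x =
      Pr (C.Q μ) (fun t : κ × Ω => w t.1 (C.ρ t.1 t.2)) x := by
  classical
  have h := sum_Qs (C := C) hμ s (fun k a => if w k a = x then 1 else 0)
  unfold Pr
  have e1 : ∀ q : κ × Ω → ℝ, ∑ t : κ × Ω, (if w t.1 (C.ρ t.1 t.2) = x then q t else 0) =
      ∑ t : κ × Ω, q t * (if w t.1 (C.ρ t.1 t.2) = x then 1 else 0) := fun q =>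
    sum_congr rfl fun t _ => by split_ifs <;> simp
  rw [e1, e1, h]

/-- (Q6): same entropies -/
theorem H_Qs (hμ : IsProb μ) (s : κ → α → Bool) (w : κ → α → β) :
    H (C.Qs μ s) (fun t : κ × Ω => w t.1 (C.ρ t.1 t.2)) =
      H (C.Q μ) (fun t : κ × Ω => w t.1 (C.ρ t.1 t.2)) := by
  have h1 : ∀ s' : κ × Ω → ℝ, H s' (fun t : κ × Ω => w t.1 (C.ρ t.1 t.2)) =
      ∑ t : κ × Ω, s' t * (- log (Pr s' (fun t : κ × Ω => w t.1 (C.ρ t.1 t.2))
        (w t.1 (C.ρ t.1 t.2)))) := fun _ => rfl
  rw [h1, h1]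
  have h2 := sum_Qs (C := C) hμ s (fun k a => - log (Pr (C.Q μ)
    (fun t : κ × Ω => w t.1 (C.ρ t.1 t.2)) (w k a)))
  rw [← h2]
  refine sum_congr rfl fun t _ => ?_
  rw [Pr_Qs hμ s w]

theorem Hc_Qs (hμ : IsProb μ) (s : κ → α → Bool) (w : κ → α → β) (z : κ → α → γ) :
    Hc (C.Qs μ s) (fun t : κ × Ω => w t.1 (C.ρ t.1 t.2)) (fun t => z t.1 (C.ρ t.1 t.2)) =
      Hc (C.Q μ) (fun t : κ × Ω => w t.1 (C.ρ t.1 t.2)) (fun t => z t.1 (C.ρ t.1 t.2)) := by
  unfold Hc
  rw [H_Qs hμ s (fun k a => (w k a, z k a)), H_Qs hμ s z]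

/-! ## (F): the auxiliary law is close to the original one -/

/-- `E (wt | R 0 = x)` -/
def Filt.g (F : C.Filt) (μ : Ω → ℝ) (k : κ) (x : F.ty 0) : ℝ :=
  Pr (fun ω => μ ω * C.wt μ k (C.ρ k ω)) (F.R 0 k) x / Pr μ (F.R 0 k) x

lemma Filt.g_nonneg (hμ : IsProb μ) (F : C.Filt) (k : κ) (x : F.ty 0) : 0 ≤ F.g μ k x := by
  classical
  refine div_nonneg ?_ (Pr_nonneg hμ _ _)
  unfold Pr
  refine sum_nonneg fun ω _ => ?_
  split_ifs
  · exact mul_nonneg (hμ.nonneg ω) (wt_nonneg hμ k _)
  · exact le_rfl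

/-- the mean weight is at most the conditional probability of each label -/
lemma Filt.g_le (hμ : IsProb μ) (F : C.Filt) (k : κ) (b : Bool) (x : F.ty 0) :
    F.g μ k x ≤ Pr μ (fun ω => (C.E k ω, F.R 0 k ω)) (some b, x) / Pr μ (F.R 0 k) x := by
  classical
  unfold Filt.g
  refine div_le_div_of_nonneg_right ?_ (Pr_nonneg hμ _ _)
  -- tower property with the function `1 (r 0 k a = x)`
  have h1 := tower hμ (C.E k) (C.ρ k) (some b) (fun a => if F.r 0 k a = x then 1 else 0)
  have h2 : Pr μ (fun ω => (C.E k ω, F.R 0 k ω)) (some b, x) =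
      ∑ ω, (if C.E k ω = some b then μ ω * (if F.r 0 k (C.ρ k ω) = x then 1 else 0) else 0) := by
    unfold Pr
    refine sum_congr rfl fun ω _ => ?_
    have e0 := F.eq 0 k ω
    by_cases e1 : C.E k ω = some b <;> by_cases e2 : F.r 0 k (C.ρ k ω) = x <;> simp [e0, e1, e2]
  rw [h2, h1]
  unfold Pr
  refine sum_le_sum fun ω _ => ?_
  rw [F.eq]
  have h3 : Pr μ (fun ω => (C.E k ω, C.ρ k ω)) (some b, C.ρ k ω) / Pr μ (C.ρ k) (C.ρ k ω) =
      C.c μ k b (C.ρ k ω) := rfl
  have h4 := wt_le (C := C) hμ k b (C.ρ k ω)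
  have h5 := hμ.nonneg ω
  by_cases e2 : F.r 0 k (C.ρ k ω) = x
  · simp only [e2, if_true, mul_one]
    unfold c at h4
    exact mul_le_mul_of_nonneg_left h4 h5
  · simp [e2]

end Cols

/-- elementary: `g log (1/g) ≤ 3 c log (1/c)` for `0 < g ≤ c ≤ 1/2` -/
lemma neg_mul_log_le {g c : ℝ} (hg : 0 ≤ g) (hgc : g ≤ c) (hc : c ≤ 1 / 2) :
    - (g * log g) ≤ 3 * (- (c * log c)) := by
  rcases hg.eq_or_lt with h0 | h0
  · rw [← h0]
    have : 0 ≤ - (c * log c) := by
      have h1 : 0 ≤ c := by linarith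
      have h2 := log_nonpos h1 (by linarith)
      nlinarith
    simp only [zero_mul, neg_zero]
    linarith
  · have hc0 : 0 < c := h0.trans_le hgc
    -- `log (c / g) ≤ c / g - 1`
    have h1 := log_le_sub_one_of_pos (div_pos hc0 h0)
    rw [log_div hc0.ne' h0.ne'] at h1
    have h2 : g * (log c - log g) ≤ c - g := by
      have h3 := mul_le_mul_of_nonneg_left h1 h0.le
      have h4 : g * (c / g - 1) = c - g := by field_simp
      rwa [h4] at h3
    -- `log c ≤ - log 2`
    have h3 : log c ≤ - log 2 := by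
      rw [← log_inv]
      exact log_le_log hc0 (by linarith)
    have h4 : (1 / 2 : ℝ) < log 2 := by
      have := Real.log_two_gt_d9
      linarith
    have h5 : - (g * log g) ≤ c - g - g * log c := by linarith
    have h6 : - (g * log c) ≤ - (c * log c) := by
      have : log c ≤ 0 := by linarith
      nlinarith
    have h7 : c ≤ 2 * (- (c * log c)) := by nlinarith
    linarith

namespace Cols

variable {C : Cols Ω κ α} {μ : Ω → ℝ}

open Classical in
/-- **(Q4)**: divergence of the auxiliary law from the lifted one along a filtration which ends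
in the fine box -/
theorem budget_F [Nonempty κ] (hμ : IsProb μ) (hJ : 0 < C.J μ) (F : C.Filt) (hF : F.Good μ)
    (n : ℕ) :
    ∑ j ∈ range n, KLc (C.Q μ) (lft κ μ) (fun t => (t.1, F.R (j + 1) t.1 t.2))
      (fun t => (t.1, F.R j t.1 t.2)) ≤
      3 * (F.A μ false + F.A μ true) / C.J μ := by
  have hQ := isProb_Q (C := C) hμ hJ
  have hL := isProb_lft (κ := κ) hμ
  have hac : AC (C.Q μ) (lft κ μ) := by
    intro t ht
    have h1 := Q_le (C := C) hμ t
    have h2 : 0 < μ t.2 := by
      rcases (hμ.nonneg t.2).eq_or_lt with h0 | h0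
      · rw [← h0, zero_div] at h1; linarith
      · exact h0
    exact div_pos h2 (Nat.cast_pos.mpr Fintype.card_pos)
  have hcard : (0 : ℝ) < Fintype.card κ := Nat.cast_pos.mpr Fintype.card_pos
  have hdet : ∀ j, Det (fun t : κ × Ω => (t.1, F.R (j + 1) t.1 t.2))
      (fun t => (t.1, F.R j t.1 t.2)) := by
    rintro j ⟨k, ω⟩ ⟨k', ω'⟩ h
    obtain ⟨h1, h2⟩ := Prod.mk.inj h
    simp only at h1 h2
    subst h1
    have h3 := F.det j k ω ω' h2
    simp only [h3]
  rw [sum_KLc_filtration (fun j => fun t : κ × Ω => (t.1, F.R j t.1 t.2)) hdet n]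
  -- data processing: up to the fine box
  have hfine : Det (fun t : κ × Ω => (t.1, C.ρ t.1 t.2)) (fun t => (t.1, F.R n t.1 t.2)) := by
    rintro ⟨k, ω⟩ ⟨k', ω'⟩ h
    obtain ⟨h1, h2⟩ := Prod.mk.inj h
    simp only at h1 h2
    subst h1
    simp only [F.eq, h2]
  have h1 := KL_mono hQ hL hac hfine
  -- pointwise values
  have h2 : KL (C.Q μ) (lft κ μ) (fun t : κ × Ω => (t.1, C.ρ t.1 t.2)) -
      KL (C.Q μ) (lft κ μ) (fun t : κ × Ω => (t.1, F.R 0 t.1 t.2)) ≤
      ∑ t : κ × Ω, C.Q μ t * (- log (F.g μ t.1 (F.R 0 t.1 t.2))) := by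
    unfold KL
    rw [← sum_sub_distrib]
    refine sum_le_sum fun t _ => ?_
    rcases (Q_nonneg (C := C) hμ t).eq_or_lt with h0 | h0
    · rw [← h0]; simp
    · obtain ⟨k, ω⟩ := t
      rw [← mul_sub]
      refine mul_le_mul_of_nonneg_left ?_ h0.le
      simp only
      have hw := wt_pos_of_Q_pos hμ h0
      simp only at hw
      have hm : 0 < μ ω := by
        have h3 := hac _ h0
        unfold lft at h3
        simp only at h3
        by_contra hneg
        have h4 : μ ω = 0 := le_antisymm (not_lt.mp hneg) (hμ.nonneg ω)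
        rw [h4, zero_div] at h3
        exact lt_irrefl _ h3
      have p1 := Pr_pos hμ (C.ρ k) hm
      have p2 := Pr_pos hμ (F.R 0 k) hm
      rw [Pr_Q_box hμ k, Pr_lft μ C.ρ k, Pr_lft μ (F.R 0) k, Pr_col (C.Q μ) (F.R 0) k]
      -- the coarse probability
      have h5 : Pr (fun ω => C.Q μ (k, ω)) (F.R 0 k) (F.R 0 k ω) =
          F.g μ k (F.R 0 k ω) * Pr μ (F.R 0 k) (F.R 0 k ω) / C.J μ := by
        unfold Filt.g
        rw [div_mul_cancel₀ _ p2.ne']
        have h6 := col_sum (C := C) hμ k (fun a => if F.r 0 k a = F.R 0 k ω then 1 else 0)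
        unfold Pr
        rw [sum_div]
        have h7 : ∑ ω', (if F.R 0 k ω' = F.R 0 k ω then C.Q μ (k, ω') else 0) =
            (∑ ω', μ ω' * C.dens μ k ω' * (if F.r 0 k (C.ρ k ω') = F.R 0 k ω then 1 else 0)) /
              C.J μ := by
          rw [sum_div]
          refine sum_congr rfl fun ω' _ => ?_
          rw [F.eq]
          unfold Q
          split_ifs <;> simp
        rw [h7, h6, sum_div]
        refine sum_congr rfl fun ω' _ => ?_
        rw [F.eq 0 k ω']
        split_ifs <;> simp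
      rw [h5]
      have hgpos : 0 < F.g μ k (F.R 0 k ω) := by
        refine div_pos ?_ p2
        unfold Pr
        refine lt_of_lt_of_le (mul_pos hm hw) ?_
        have h6 := single_le_sum (f := fun ω' => if F.R 0 k ω' = F.R 0 k ω then
          μ ω' * C.wt μ k (C.ρ k ω') else 0) (fun ω' _ => by
            show 0 ≤ if F.R 0 k ω' = F.R 0 k ω then μ ω' * C.wt μ k (C.ρ k ω') else 0
            split_ifs
            · exact mul_nonneg (hμ.nonneg _) (wt_nonneg hμ _ _)
            · exact le_rfl) (mem_univ ω)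
        simpa using h6
      have e1 : C.wt μ k (C.ρ k ω) * Pr μ (C.ρ k) (C.ρ k ω) / C.J μ /
          (Pr μ (C.ρ k) (C.ρ k ω) / Fintype.card κ) =
          C.wt μ k (C.ρ k ω) * (Fintype.card κ / C.J μ) := by
        field_simp
      have e2 : F.g μ k (F.R 0 k ω) * Pr μ (F.R 0 k) (F.R 0 k ω) / C.J μ /
          (Pr μ (F.R 0 k) (F.R 0 k ω) / Fintype.card κ) =
          F.g μ k (F.R 0 k ω) * (Fintype.card κ / C.J μ) := by
        field_simp
      rw [e1, e2, log_mul hw.ne' (by positivity), log_mul hgpos.ne' (by positivity)]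
      have h8 : log (C.wt μ k (C.ρ k ω)) ≤ 0 :=
        log_nonpos hw.le ((wt_le_half (C := C) hμ k _).trans (by norm_num))
      linarith
  -- expectation under the auxiliary law
  have h3 : ∑ t : κ × Ω, C.Q μ t * (- log (F.g μ t.1 (F.R 0 t.1 t.2))) =
      (∑ k, ∑ ω, μ ω * (- (F.g μ k (F.R 0 k ω) * log (F.g μ k (F.R 0 k ω))))) / C.J μ := by
    have h4 := sum_Q (C := C) hμ (fun k a => - log (F.g μ k (F.r 0 k a)))
    simp only [← F.eq] at h4
    rw [h4]
    congr 1
    refine sum_congr rfl fun k _ => ?_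
    have h5 := sum_fiber (fun ω => μ ω * C.wt μ k (C.ρ k ω)) (F.R 0 k)
      (fun x => - log (F.g μ k x))
    have h6 := sum_fiber μ (F.R 0 k) (fun x => - (F.g μ k x * log (F.g μ k x)))
    rw [h6]
    have h7 : ∑ ω, μ ω * (C.wt μ k (C.ρ k ω) * - log (F.g μ k (F.R 0 k ω))) =
        ∑ ω, μ ω * C.wt μ k (C.ρ k ω) * - log (F.g μ k (F.R 0 k ω)) :=
      sum_congr rfl fun ω _ => by ring
    rw [h7, h5]
    refine sum_congr rfl fun x _ => ?_
    rcases eq_or_ne (Pr μ (F.R 0 k) x) 0 with h0 | h0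
    · rw [h0, zero_mul]
      have h8 : F.g μ k x = 0 := by unfold Filt.g; rw [h0, div_zero]
      rw [h8, log_zero]; simp
    · have h8 : Pr (fun ω => μ ω * C.wt μ k (C.ρ k ω)) (F.R 0 k) x =
          Pr μ (F.R 0 k) x * F.g μ k x := by
        unfold Filt.g; rw [mul_div_cancel₀ _ h0]
      rw [h8]; ring
  have h4 : (∑ k, ∑ ω, μ ω * (- (F.g μ k (F.R 0 k ω) * log (F.g μ k (F.R 0 k ω))))) ≤
      3 * (F.A μ false + F.A μ true) := by
    -- the content as an expectation
    have h5 : ∀ b, F.A μ b = ∑ k, ∑ ω, μ ω * (if F.rel k (F.R 0 k ω) then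
        - (cp μ (C.E k) (some b) (F.R 0 k) ω * log (cp μ (C.E k) (some b) (F.R 0 k) ω)) else 0) := by
      intro b
      unfold Filt.A
      refine sum_congr rfl fun k _ => ?_
      have h6 := tower hμ (C.E k) (F.R 0 k) (some b) (fun x => if F.rel k x then
        - log (Pr μ (fun ω => (C.E k ω, F.R 0 k ω)) (some b, x) / Pr μ (F.R 0 k) x) else 0)
      have h7 : ∑ ω, (if C.E k ω = some b ∧ F.rel k (F.R 0 k ω) then
          μ ω * (- log (cp μ (C.E k) (some b) (F.R 0 k) ω)) else 0) =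
          ∑ ω, (if C.E k ω = some b then μ ω * (if F.rel k (F.R 0 k ω) then
            - log (Pr μ (fun ω => (C.E k ω, F.R 0 k ω)) (some b, F.R 0 k ω) /
              Pr μ (F.R 0 k) (F.R 0 k ω)) else 0) else 0) := by
        refine sum_congr rfl fun ω _ => ?_
        unfold cp
        by_cases e1 : C.E k ω = some b <;> by_cases e2 : F.rel k (F.R 0 k ω) <;> simp [e1, e2]
      rw [h7, h6]
      refine sum_congr rfl fun ω _ => ?_
      unfold cp
      by_cases e2 : F.rel k (F.R 0 k ω) <;> simp [e2]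
    rw [h5 false, h5 true, ← sum_add_distrib, mul_sum]
    refine sum_le_sum fun k _ => ?_
    rw [← sum_add_distrib, mul_sum]
    refine sum_le_sum fun ω _ => ?_
    rw [← mul_add, mul_left_comm]
    refine mul_le_mul_of_nonneg_left ?_ (hμ.nonneg ω)
    set c0 := cp μ (C.E k) (some false) (F.R 0 k) ω with hc0
    set c1 := cp μ (C.E k) (some true) (F.R 0 k) ω with hc1
    have hg0 := Filt.g_le hμ F k false (F.R 0 k ω)
    have hg1 := Filt.g_le hμ F k true (F.R 0 k ω)
    have hg := Filt.g_nonneg hμ F k (F.R 0 k ω)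
    have hc00 : 0 ≤ c0 := cp_nonneg hμ _ _ _ _
    have hc10 : 0 ≤ c1 := cp_nonneg hμ _ _ _ _
    have hsum : c0 + c1 ≤ 1 := by
      rw [hc0, hc1]
      unfold cp
      rw [← add_div]
      refine div_le_one_of_le₀ ?_ (Pr_nonneg hμ _ _)
      unfold Pr
      rw [← sum_add_distrib]
      refine sum_le_sum fun ω' _ => ?_
      by_cases hr : F.R 0 k ω' = F.R 0 k ω
      · rcases h : C.E k ω' with _ | b
        · simp [hr, h, hμ.nonneg ω']
        · cases b <;> simp [hr, h]
      · simp [hr]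
    have hn0 : 0 ≤ - (c0 * log c0) := by
      have := log_nonpos hc00 (by linarith)
      nlinarith
    have hn1 : 0 ≤ - (c1 * log c1) := by
      have := log_nonpos hc10 (by linarith)
      nlinarith
    by_cases hrel : F.rel k (F.R 0 k ω)
    · rw [if_pos hrel, if_pos hrel]
      rcases le_total c0 c1 with hle | hle
      · have hg0' : F.g μ k (F.R 0 k ω) ≤ c0 := hg0
        have hc : c0 ≤ 1 / 2 := by linarith
        have := neg_mul_log_le hg hg0' hc
        linarith
      · have hg1' : F.g μ k (F.R 0 k ω) ≤ c1 := hg1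
        have hc : c1 ≤ 1 / 2 := by linarith
        have := neg_mul_log_le hg hg1' hc
        linarith
    · rw [if_neg hrel, if_neg hrel]
      -- irrelevant boxes have zero mean weight
      have hz : F.g μ k (F.R 0 k ω) = 0 := by
        unfold Filt.g
        have : Pr (fun ω => μ ω * C.wt μ k (C.ρ k ω)) (F.R 0 k) (F.R 0 k ω) = 0 := by
          unfold Pr
          refine sum_eq_zero fun ω' _ => ?_
          split_ifs with he
          · rcases (wt_nonneg (C := C) hμ k (C.ρ k ω')).eq_or_lt with h9 | h9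
            · show μ ω' * C.wt μ k (C.ρ k ω') = 0
              rw [← h9, mul_zero]
            · have h10 := hF k ω' h9
              rw [he] at h10
              exact absurd h10 hrel
          · rfl
        rw [this, zero_div]
      rw [hz]; simp
  have h5 : (∑ k, ∑ ω, μ ω * (- (F.g μ k (F.R 0 k ω) * log (F.g μ k (F.R 0 k ω))))) / C.J μ ≤
      3 * (F.A μ false + F.A μ true) / C.J μ := div_le_div_of_nonneg_right h4 hJ.le
  linarith

end Cols

/-! ## Coverage transfer -/

open Classical in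
/-- **(Q5)**: if `q (k, ω) ≤ c ν (ω)` and every value of `L` has at most `N` columns, then the
divergence of the law of `W` given `(K, L)` from the law `ν` of `W` given `L` is at most
`log (c N)` -/
theorem transfer [Nonempty κ] {q : κ × Ω → ℝ} {ν : Ω → ℝ} (hq : IsProb q) (hν : IsProb ν)
    {c : ℝ} (hc : 0 < c) (hle : ∀ t, q t ≤ c * ν t.2) (W : Ω → α) (L : Ω → β) (N : ℕ)
    (hN : ∀ ω, 0 < ν ω → ((univ : Finset κ).filter fun k => ∃ ω', L ω' = L ω ∧ 0 < q (k, ω')).card
      ≤ N) :
    KLc q (lft κ ν) (fun t => W t.2) (fun t => (t.1, L t.2)) ≤ log (c * N) := by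
  have hL := isProb_lft (κ := κ) hν
  have hcard : (0 : ℝ) < Fintype.card κ := Nat.cast_pos.mpr Fintype.card_pos
  have hν0 : ∀ t, 0 < q t → 0 < ν t.2 := by
    intro t ht
    have h1 := ht.trans_le (hle t)
    exact pos_of_mul_pos_right h1 hc.le
  have hac : AC q (lft κ ν) := fun t ht => div_pos (hν0 t ht) hcard
  rw [KLc_eq_sum hq hL hac]
  set KL' : κ × Ω → κ × β := fun t => (t.1, L t.2) with hKL
  set g : κ × β → ℝ := fun y => c * Pr ν L y.2 with hg
  -- pointwise bound
  have h1 : ∀ t : κ × Ω, q t * log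
      ((Pr q (fun t => (W t.2, KL' t)) (W t.2, KL' t) / Pr q KL' (KL' t)) /
        (Pr (lft κ ν) (fun t => (W t.2, KL' t)) (W t.2, KL' t) / Pr (lft κ ν) KL' (KL' t))) ≤
      q t * log (g (KL' t) / Pr q KL' (KL' t)) := by
    intro t
    rcases (hq.nonneg t).eq_or_lt with h0 | h0
    · rw [← h0]; simp
    · refine mul_le_mul_of_nonneg_left ?_ h0.le
      have p1 := Pr_pos hq (fun t => (W t.2, KL' t)) h0
      have p2 := Pr_pos hq KL' h0
      have p3 := Pr_pos hL (fun t => (W t.2, KL' t)) (hac t h0)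
      have p4 := Pr_pos hL KL' (hac t h0)
      refine log_le_log (div_pos (div_pos p1 p2) (div_pos p3 p4)) ?_
      have e1 : Pr (lft κ ν) KL' (KL' t) = Pr ν L (L t.2) / Fintype.card κ :=
        Pr_lft ν (fun _ => L) t.1 (L t.2)
      have e2 : Pr q (fun t => (W t.2, KL' t)) (W t.2, KL' t) ≤
          c * Fintype.card κ * Pr (lft κ ν) (fun t => (W t.2, KL' t)) (W t.2, KL' t) := by
        unfold Pr
        rw [mul_sum]
        refine sum_le_sum fun t' _ => ?_
        split_ifs
        · unfold lft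
          have := hle t'
          calc q t' ≤ c * ν t'.2 := this
            _ = c * Fintype.card κ * (ν t'.2 / Fintype.card κ) := by field_simp
        · simp
      have e3 : (Pr q (fun t => (W t.2, KL' t)) (W t.2, KL' t) / Pr q KL' (KL' t)) /
        (Pr (lft κ ν) (fun t => (W t.2, KL' t)) (W t.2, KL' t) / Pr (lft κ ν) KL' (KL' t)) =
        (Pr q (fun t => (W t.2, KL' t)) (W t.2, KL' t) /
          Pr (lft κ ν) (fun t => (W t.2, KL' t)) (W t.2, KL' t)) *
          (Pr (lft κ ν) KL' (KL' t) / Pr q KL' (KL' t)) := by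
        field_simp
      rw [e3]
      have e4 : Pr q (fun t => (W t.2, KL' t)) (W t.2, KL' t) /
          Pr (lft κ ν) (fun t => (W t.2, KL' t)) (W t.2, KL' t) ≤ c * Fintype.card κ := by
        rw [div_le_iff₀ p3]
        exact e2
      calc _ ≤ c * Fintype.card κ * (Pr (lft κ ν) KL' (KL' t) / Pr q KL' (KL' t)) :=
            mul_le_mul_of_nonneg_right e4 (div_nonneg p4.le p2.le)
        _ = g (KL' t) / Pr q KL' (KL' t) := by
            rw [e1]
            simp only [hg, hKL]
            field_simp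
  refine (sum_le_sum fun t _ => h1 t).trans ?_
  refine (jensen_log hq _ fun t ht => ?_).trans ?_
  · refine div_pos ?_ (Pr_pos hq KL' ht)
    exact mul_pos hc (Pr_pos hν L (hν0 t ht))
  -- the sum of the ratios
  have h2 : 0 < ∑ t, q t * (g (KL' t) / Pr q KL' (KL' t)) := by
    have h3 : ∃ t ∈ (univ : Finset (κ × Ω)), 0 < q t := by
      by_contra hcon
      push Not at hcon
      have h4 : ∑ t, q t ≤ 0 := sum_nonpos hcon
      rw [hq.sum] at h4
      linarith
    obtain ⟨t, ht, h4⟩ := h3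
    refine sum_pos' (fun t _ => ?_) ⟨t, ht, ?_⟩
    · exact mul_nonneg (hq.nonneg t) (div_nonneg (mul_nonneg hc.le (Pr_nonneg hν _ _))
        (Pr_nonneg hq _ _))
    · exact mul_pos h4 (div_pos (mul_pos hc (Pr_pos hν L (hν0 t h4))) (Pr_pos hq KL' h4))
  refine log_le_log h2 ?_
  rw [sum_fiber q KL' (fun y => g y / Pr q KL' y)]
  have h3 : ∀ y ∈ univ.image KL', Pr q KL' y * (g y / Pr q KL' y) ≤
      (if Pr q KL' y = 0 then 0 else g y) := by
    intro y _
    split_ifs with h0
    · rw [h0, zero_mul]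
    · rw [mul_div_cancel₀ _ h0]
  refine (sum_le_sum h3).trans ?_
  have h4 : ∑ y ∈ univ.image KL', (if Pr q KL' y = 0 then 0 else g y) ≤
      ∑ y ∈ (univ : Finset κ) ×ˢ univ.image L, (if Pr q KL' y = 0 then 0 else g y) := by
    refine sum_le_sum_of_subset_of_nonneg ?_ fun y _ _ => ?_
    · intro y hy
      obtain ⟨t, -, rfl⟩ := mem_image.mp hy
      exact mem_product.mpr ⟨mem_univ _, mem_image_of_mem _ (mem_univ _)⟩
    · split_ifs
      · exact le_rfl
      · exact mul_nonneg hc.le (Pr_nonneg hν _ _)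
  refine h4.trans ?_
  rw [sum_product, sum_comm]
  have h5 : ∀ x ∈ univ.image L, ∑ k : κ, (if Pr q KL' (k, x) = 0 then 0 else g (k, x)) ≤
      (c * N) * Pr ν L x := by
    intro x hx
    rcases (Pr_nonneg hν L x).eq_or_lt with h0 | h0
    · rw [← h0, mul_zero]
      refine sum_nonpos fun k _ => ?_
      split_ifs
      · exact le_rfl
      · simp [hg, ← h0]
    · -- a flag with positive probability
      obtain ⟨ω, hω, hpos⟩ : ∃ ω, L ω = x ∧ 0 < ν ω := by
        by_contra hcon
        push Not at hcon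
        have : Pr ν L x = 0 := by
          unfold Pr
          refine sum_eq_zero fun ω _ => ?_
          split_ifs with h
          · exact le_antisymm (hcon ω h) (hν.nonneg ω)
          · rfl
        rw [this] at h0
        exact lt_irrefl _ h0
      have h6 := hN ω hpos
      have h7 : ∑ k : κ, (if Pr q KL' (k, x) = 0 then 0 else g (k, x)) ≤
          ∑ k ∈ (univ : Finset κ).filter (fun k => ∃ ω', L ω' = L ω ∧ 0 < q (k, ω')),
            c * Pr ν L x := by
        rw [sum_filter]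
        refine sum_le_sum fun k _ => ?_
        by_cases h8 : ∃ ω', L ω' = L ω ∧ 0 < q (k, ω')
        · rw [if_pos h8]
          split_ifs
          · exact mul_nonneg hc.le h0.le
          · exact le_rfl
        · rw [if_neg h8]
          push Not at h8
          have h9 : Pr q KL' (k, x) = 0 := by
            unfold Pr
            refine sum_eq_zero fun t _ => ?_
            split_ifs with h
            · obtain ⟨e1, e2⟩ := Prod.mk.inj h
              have h10 := h8 t.2 (by rw [hω]; exact e2)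
              have e3 : t = (k, t.2) := Prod.ext e1 rfl
              rw [e3]
              exact le_antisymm h10 (hq.nonneg _)
            · rfl
          rw [if_pos h9]
      refine h7.trans ?_
      rw [sum_const, nsmul_eq_mul]
      have h8 : (((univ : Finset κ).filter
          (fun k => ∃ ω', L ω' = L ω ∧ 0 < q (k, ω'))).card : ℝ) ≤ N := by exact_mod_cast h6
      have h9 : 0 ≤ c * Pr ν L x := mul_nonneg hc.le h0.le
      nlinarith
  refine (sum_le_sum h5).trans ?_
  rw [← mul_sum, sum_Pr hν L, mul_one]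

end Vale.Agent.P065.H700
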