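import Vale.Agent.P065.H700.SGTri
import Vale.Agent.P065.H654.Coarse

/-!
# P065, package SGIANT, the number of payments (helper700)
-/

set_option autoImplicit false

open Finset Real

noncomputable section

namespace Vale.Agent.P065.H700.SG

open Vale.Agent.P065.UB Vale.Agent.P065.Ent Vale.Agent.P065.H154 Vale.Agent.P065.H725

variable {Ω : Type*} [Fintype Ω] {F : Fr Ω} {ln : Ω → Pt} {p : Prm}
  {Lab : Type*} {lam : Ω → Lab} {μ : Ω → ℝ}

open Classical in
/-- payments by a factor `θ` along the chain of the boxes -/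
theorem card_pay_le (hμ : IsProb μ) (u : ℝ) (γ : ℕ) {s : ℕ} (hs : 0 < s) {θ thr : ℝ}
    (hθ : 0 < θ) (hθ1 : θ < 1) (hthr : 0 < thr) (hthr1 : thr ≤ 1) (T : ℕ) (a : p.Col × Ω)
    (ha : thr ≤ Pr μ (rho F ln p lam a.1) (rho F ln p lam a.1 a.2)) :
    (#{t ∈ range T | Pr μ (fun ω => Rt F ln p u γ (t + s) (a.1, ω)) (Rt F ln p u γ (t + s) a) ≤
      θ * Pr μ (fun ω => Rt F ln p u γ t (a.1, ω)) (Rt F ln p u γ t a)} : ℝ) ≤
      s * (log (1 / thr) / log (1 / θ) + 1) := by
  obtain ⟨c, ω⟩ := a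
  set S : ℤ → Ω → p.Col × ℤ × ℤ × ℤ := fun k ω => Rt F ln p u γ k.toNat (c, ω) with hS
  have hSn : ∀ ⦃k k' : ℤ⦄, k ≤ k' → Det (S k') (S k) := by
    intro k k' hk ω₁ ω₂ h
    exact Rt_det_le u γ (Int.toNat_le_toNat hk) _ _ h
  set A : Finset ℕ := {t ∈ range T | Pr μ (fun ω => Rt F ln p u γ (t + s) (c, ω))
    (Rt F ln p u γ (t + s) (c, ω)) ≤
      θ * Pr μ (fun ω => Rt F ln p u γ t (c, ω)) (Rt F ln p u γ t (c, ω))} with hA
  have h := H654.count_light (μ := μ) hμ hSn hs hθ hθ1 hthr hthr1 ω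
    (A.map (Nat.castEmbedding (R := ℤ))) (by
      intro k hk
      rw [mem_map] at hk
      obtain ⟨t, ht, rfl⟩ := hk
      have ht' := (mem_filter.1 ht).2
      have e : (Nat.castEmbedding (R := ℤ)) t = (t : ℤ) := rfl
      rw [e]
      constructor
      · refine ha.trans ?_
        refine Pr_mono hμ ?_ ω
        intro ω₁ ω₂ h
        have h1 : rb F ln p lam (c, ω₁) = rb F ln p lam (c, ω₂) := by
          unfold rb
          rw [h]
        exact rb_Rt (F := F) (ln := ln) (p := p) (lam := lam) u γ _ _ _ h1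
      · unfold H654.Lt
        have e2 : ((t : ℤ) + (s : ℤ)).toNat = t + s := by omega
        have e3 : S ((t : ℤ) + (s : ℤ)) = fun ω => Rt F ln p u γ (t + s) (c, ω) := by
          rw [hS]
          simp only
          rw [e2]
        have e4 : S (t : ℤ) = fun ω => Rt F ln p u γ t (c, ω) := by
          rw [hS]
          simp only [Int.toNat_natCast]
        rw [e3, e4]
        exact ht')
  rw [card_map] at h
  exact h

open Classical in
/-- **the number of large payments** -/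
theorem card_Big_le (hμ : IsProb μ) (u : ℝ) (γ : ℕ) {s : ℕ} (hs : 0 < s) {τ₁ thr : ℝ}
    (hτ : 0 < τ₁) (hτ1 : τ₁ < 1 / 2) (hthr : 0 < thr) (hthr1 : thr ≤ 1) (T : ℕ) (a : p.Col × Ω)
    (ha : thr ≤ Pr μ (rho F ln p lam a.1) (rho F ln p lam a.1 a.2)) :
    (#{t ∈ range T | BigC F ln p μ u γ s τ₁ t a} : ℝ) ≤
      s * (log (1 / thr) / log (1 / (2 * τ₁)) + 1) :=
  card_pay_le (lam := lam) hμ u γ hs (by linarith) (by linarith) hthr hthr1 T a ha

open Classical in
/-- **the number of small payments** -/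
theorem card_Small_le (hμ : IsProb μ) (u : ℝ) (γ : ℕ) {s : ℕ} (hs : 0 < s) {thr : ℝ}
    (hthr : 0 < thr) (hthr1 : thr ≤ 1) (T : ℕ) (a : p.Col × Ω)
    (ha : thr ≤ Pr μ (rho F ln p lam a.1) (rho F ln p lam a.1 a.2)) :
    (#{t ∈ range T | SmallC F ln p μ u γ s t a} : ℝ) ≤
      s * (log (1 / thr) / log (4 / 3) + 1) := by
  have h := card_pay_le (lam := lam) hμ u γ hs (θ := 3 / 4) (by norm_num) (by norm_num) hthr
    hthr1 T a ha
  have e : (1 : ℝ) / (3 / 4) = 4 / 3 := by norm_num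
  rw [e] at h
  exact h

end Vale.Agent.P065.H700.SG
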