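import Vale.Agent.P065.H587.Ent2

/-!
# P065, package SGIANT (helper700), part 1: the entropy account

A law `q` on a finite space, a nested sequence `D t` (time cells) and a variable `Y` (line and
column). Every cell `(D t, Y)` outside the exceptional ones is either one sided up to negligible
flags, or one side consists of flags which pay a lot and the other one of flags which pay a little.
-/

set_option autoImplicit false

open Finset Real

set_option linter.unusedSectionVars false

noncomputable section

namespace Vale.Agent.P065.H700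

open Vale.Agent.P065.Ent

variable {Ω : Type*} [Fintype Ω] {α β γ η : Type*}

/-- the surprise of `X` given `C`, at one flag -/
def sur (q : Ω → ℝ) (X : Ω → α) (C : Ω → β) (ω : Ω) : ℝ :=
  - log (Pr q (fun ω => (X ω, C ω)) (X ω, C ω) / Pr q C (C ω))

lemma sur_nonneg {q : Ω → ℝ} (hq : IsProb q) (X : Ω → α) (C : Ω → β) (ω : Ω) :
    0 ≤ sur q X C ω := by
  classical
  unfold sur
  have h1 : Pr q (fun ω => (X ω, C ω)) (X ω, C ω) ≤ Pr q C (C ω) := by
    unfold Pr
    refine sum_le_sum fun ω' _ => ?_
    by_cases hc : C ω' = C ω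
    · by_cases hx : X ω' = X ω
      · simp [hc, hx]
      · simp [hc, hx, hq.nonneg ω']
    · simp [hc]
  have h2 := log_nonpos (div_nonneg (Pr_nonneg hq _ _) (Pr_nonneg hq C (C ω)))
    (div_le_one_of_le₀ h1 (Pr_nonneg hq _ _))
  linarith

lemma sum_sur {q : Ω → ℝ} (hq : IsProb q) (X : Ω → α) (C : Ω → β) :
    ∑ ω, q ω * sur q X C ω = Hc q X C := by
  rw [Hc_eq_sum hq]
  rfl

/-- the sum over one cell, grouped according to the sides -/
lemma sum_cell_sur {q : Ω → ℝ} (X : Ω → α) (C : Ω → β) (c : β) [DecidableEq α]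
    [DecidableEq β] :
    ∑ ω, (if C ω = c then q ω * sur q X C ω else 0) =
      ∑ x ∈ univ.image X, Pr q (fun ω => (X ω, C ω)) (x, c) *
        (- log (Pr q (fun ω => (X ω, C ω)) (x, c) / Pr q C c)) := by
  classical
  have h1 := sum_fiber (fun ω => if C ω = c then q ω else 0) X
    (fun x => - log (Pr q (fun ω => (X ω, C ω)) (x, c) / Pr q C c))
  have h2 : ∑ ω, (if C ω = c then q ω * sur q X C ω else 0) =
      ∑ ω, (if C ω = c then q ω else 0) *
        (- log (Pr q (fun ω => (X ω, C ω)) (X ω, c) / Pr q C c)) := by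
    refine sum_congr rfl fun ω _ => ?_
    by_cases h : C ω = c
    · rw [if_pos h, if_pos h]
      unfold sur
      rw [h]
    · rw [if_neg h, if_neg h, zero_mul]
  rw [h2, h1]
  refine sum_congr rfl fun x _ => ?_
  congr 1
  unfold Pr
  refine sum_congr rfl fun ω _ => ?_
  by_cases hx : X ω = x
  · by_cases hc : C ω = c <;> simp [hx, hc]
  · simp [hx]

/-- `a log (m / a) ≤ m - a` -/
lemma mul_neg_log_le {a m : ℝ} (ha : 0 ≤ a) (hm : 0 ≤ m) : a * (- log (a / m)) ≤ m - a + (if m = 0 then a else 0) := by
  rcases hm.eq_or_lt with h0 | h0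
  · rw [← h0]
    simp
  · rw [if_neg h0.ne', add_zero]
    rcases ha.eq_or_lt with h1 | h1
    · rw [← h1]; simp [hm]
    · have h2 := log_le_sub_one_of_pos (div_pos h0 h1)
      have h3 : log (m / a) = - log (a / m) := by rw [← log_inv, inv_div]
      rw [h3] at h2
      have h4 := mul_le_mul_of_nonneg_left h2 h1.le
      have h5 : a * (m / a - 1) = m - a := by field_simp
      linarith

open Classical in
/-- cell of the first kind: outside the side `b` all flags are negligible -/
lemma cell_one_sided {q : Ω → ℝ} (hq : IsProb q) (X : Ω → α) (C : Ω → β) (c : β) (b : α)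
    (Neg : Ω → Prop) (h : ∀ ω, 0 < q ω → C ω = c → X ω ≠ b → Neg ω) :
    ∑ ω, (if C ω = c then q ω * sur q X C ω else 0) ≤
      ∑ ω, (if C ω = c ∧ Neg ω then q ω * (1 + sur q X C ω) else 0) := by
  -- flags on the side `b`
  have h1 : ∑ ω, (if C ω = c ∧ X ω = b then q ω * sur q X C ω else 0) ≤
      ∑ ω, (if C ω = c ∧ X ω ≠ b then q ω else 0) := by
    set a := Pr q (fun ω => (X ω, C ω)) (b, c) with ha
    set m := Pr q C c with hm
    have ha0 : 0 ≤ a := Pr_nonneg hq _ _
    have hm0 : 0 ≤ m := Pr_nonneg hq _ _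
    have h2 : ∑ ω, (if C ω = c ∧ X ω = b then q ω * sur q X C ω else 0) = a * (- log (a / m)) := by
      rw [ha, Pr, sum_mul]
      refine sum_congr rfl fun ω _ => ?_
      by_cases hc : C ω = c
      · by_cases hx : X ω = b
        · simp only [hc, hx, and_self, if_true]
          unfold sur
          rw [hc, hx]
          rfl
        · simp [hx]
      · simp [hc]
    have h3 : ∑ ω, (if C ω = c ∧ X ω ≠ b then q ω else 0) = m - a := by
      rw [hm, ha, Pr, Pr, ← sum_sub_distrib]
      refine sum_congr rfl fun ω _ => ?_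
      by_cases hc : C ω = c
      · by_cases hx : X ω = b <;> simp [hc, hx]
      · simp [hc]
    rw [h2, h3]
    have h4 := mul_neg_log_le ha0 hm0
    have h5 : a ≤ m := by
      rw [ha, hm]
      unfold Pr
      refine sum_le_sum fun ω _ => ?_
      by_cases hc : C ω = c
      · by_cases hx : X ω = b <;> simp [hc, hx, hq.nonneg ω]
      · simp [hc]
    by_cases h0 : m = 0
    · rw [if_pos h0] at h4
      have : a = 0 := le_antisymm (h5.trans h0.le) ha0
      rw [this] at h4 ⊢
      linarith
    · rw [if_neg h0, add_zero] at h4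
      exact h4
  have h6 : ∑ ω, (if C ω = c then q ω * sur q X C ω else 0) =
      ∑ ω, (if C ω = c ∧ X ω = b then q ω * sur q X C ω else 0) +
      ∑ ω, (if C ω = c ∧ X ω ≠ b then q ω * sur q X C ω else 0) := by
    rw [← sum_add_distrib]
    refine sum_congr rfl fun ω _ => ?_
    by_cases hc : C ω = c
    · by_cases hx : X ω = b <;> simp [hc, hx]
    · simp [hc]
  rw [h6]
  refine (add_le_add_left h1 _).trans ?_
  rw [← sum_add_distrib]
  refine sum_le_sum fun ω _ => ?_
  by_cases hc : C ω = c
  · by_cases hx : X ω = b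
    · simp only [hc, hx, ne_eq, not_true_eq_false, and_false, if_false, add_zero]
      split_ifs
      · exact mul_nonneg (hq.nonneg ω) (by have := sur_nonneg hq X C ω; linarith)
      · exact le_rfl
    · rcases (hq.nonneg ω).eq_or_lt with h0 | h0
      · rw [← h0]; simp
      · have h7 := h ω h0 hc hx
        simp only [hc, hx, h7, ne_eq, not_false_eq_true, and_self, if_true]
        exact le_of_eq (by ring)
  · simp [hc]

open Classical in
/-- cell of the second kind: two sides, the flags on `b` pay a lot, the others pay a little -/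
lemma cell_split {q : Ω → ℝ} (hq : IsProb q) (X : Ω → α) (C : Ω → β) (c : β) (b b' : α)
    (Neg Big Small : Ω → Prop) {lam : ℝ} (hl0 : 0 < lam) (hl1 : lam ≤ 1 / 2)
    (hside : ∀ ω, 0 < q ω → C ω = c → X ω = b ∨ X ω = b')
    (hb : ∀ ω, 0 < q ω → C ω = c → X ω = b → Neg ω ∨ Big ω)
    (hb' : ∀ ω, 0 < q ω → C ω = c → X ω ≠ b → Neg ω ∨ Small ω) :
    ∑ ω, (if C ω = c then q ω * sur q X C ω else 0) ≤
      ∑ ω, (if C ω = c then q ω * ((if Big ω then - log lam else 0) +
        (if Small ω then 2 * lam else 0) + (if Neg ω then - log lam + 2 * lam else 0)) else 0) := by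
  have hlog : 0 ≤ - log lam := by
    have := log_nonpos hl0.le (by linarith)
    linarith
  -- bound of one side by the reference value `v`
  have key : ∀ a m v : ℝ, 0 ≤ a → 0 < m → 0 < v → a * (- log (a / m)) ≤ a * (- log v) + v * m - a := by
    intro a m v ha hm hv
    rcases ha.eq_or_lt with h1 | h1
    · rw [← h1]
      have := mul_pos hv hm
      simp; linarith
    · have h2 := log_le_sub_one_of_pos (div_pos (mul_pos hv hm) h1)
      rw [log_div (mul_pos hv hm).ne' h1.ne', log_mul hv.ne' hm.ne'] at h2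
      have h4 := mul_le_mul_of_nonneg_left h2 h1.le
      have h5 : a * (v * m / a - 1) = v * m - a := by field_simp
      rw [h5] at h4
      rw [log_div h1.ne' hm.ne']
      linarith
  set m := Pr q C c with hm
  rcases (Pr_nonneg hq C c).eq_or_lt with h0 | h0
  · -- empty cell
    have hz : ∀ ω, C ω = c → q ω = 0 := by
      intro ω hω
      have h1 := le_Pr hq C ω
      rw [hω, ← h0] at h1
      exact le_antisymm h1 (hq.nonneg ω)
    have e1 : ∑ ω, (if C ω = c then q ω * sur q X C ω else 0) = 0 :=
      sum_eq_zero fun ω _ => by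
        split_ifs with h
        · rw [hz ω h, zero_mul]
        · rfl
    rw [e1]
    refine sum_nonneg fun ω _ => ?_
    split_ifs with h
    all_goals first | exact le_rfl | (rw [hz ω h, zero_mul])
  · have hm0 : 0 < m := h0
    set a := Pr q (fun ω => (X ω, C ω)) (b, c) with ha
    have ha0 : 0 ≤ a := Pr_nonneg hq _ _
    -- the flags outside the side `b`
    set a' := m - a with ha'
    have hsum_b : ∑ ω, (if C ω = c ∧ X ω = b then q ω * sur q X C ω else 0) =
        a * (- log (a / m)) := by
      rw [ha, Pr, sum_mul]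
      refine sum_congr rfl fun ω _ => ?_
      by_cases hc : C ω = c
      · by_cases hx : X ω = b
        · simp only [hc, hx, and_self, if_true]
          unfold sur
          rw [hc, hx]
          rfl
        · simp [hx]
      · simp [hc]
    have hmass' : ∑ ω, (if C ω = c ∧ X ω ≠ b then q ω else 0) = a' := by
      rw [ha', hm, ha, Pr, Pr, ← sum_sub_distrib]
      refine sum_congr rfl fun ω _ => ?_
      by_cases hc : C ω = c
      · by_cases hx : X ω = b <;> simp [hc, hx]
      · simp [hc]
    have hmass : ∑ ω, (if C ω = c ∧ X ω = b then q ω else 0) = a := by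
      rw [ha, Pr]
      refine sum_congr rfl fun ω _ => ?_
      by_cases hc : C ω = c
      · by_cases hx : X ω = b <;> simp [hc, hx]
      · simp [hc]
    have ha'0 : 0 ≤ a' := by
      rw [← hmass']
      refine sum_nonneg fun ω _ => ?_
      split_ifs
      · exact hq.nonneg ω
      · exact le_rfl
    have hsum_b' : ∑ ω, (if C ω = c ∧ X ω ≠ b then q ω * sur q X C ω else 0) =
        a' * (- log (a' / m)) := by
      rw [← hmass', sum_mul]
      refine sum_congr rfl fun ω _ => ?_
      by_cases hcx : C ω = c ∧ X ω ≠ b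
      · rw [if_pos hcx, if_pos hcx]
        rcases (hq.nonneg ω).eq_or_lt with h1 | h1
        · rw [← h1, zero_mul, zero_mul]
        · congr 1
          unfold sur
          have hxb : X ω = b' := by
            rcases hside ω h1 hcx.1 with h2 | h2
            · exact absurd h2 hcx.2
            · exact h2
          have e1 : Pr q (fun ω => (X ω, C ω)) (X ω, C ω) = a' := by
            rw [← hmass']
            unfold Pr
            refine sum_congr rfl fun ω' _ => ?_
            rcases (hq.nonneg ω').eq_or_lt with h3 | h3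
            · rw [← h3]; simp
            · by_cases hc' : C ω' = c
              · rcases hside ω' h3 hc' with h4 | h4
                · have h5 : ¬ (b = X ω) := fun h => hcx.2 h.symm
                  simp [h5, h4]
                · by_cases hbb : b' = b
                  · exact absurd (hxb.trans hbb) hcx.2
                  · simp [hc', h4, hxb, hcx.1, hbb]
              · have h5 : C ω' ≠ C ω := by rw [hcx.1]; exact hc'
                simp [hc', h5]
          rw [e1, hcx.1, ← hmass']
      · rw [if_neg hcx, if_neg hcx, zero_mul]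
    have hsplit : ∑ ω, (if C ω = c then q ω * sur q X C ω else 0) =
        a * (- log (a / m)) + a' * (- log (a' / m)) := by
      rw [← hsum_b, ← hsum_b', ← sum_add_distrib]
      refine sum_congr rfl fun ω _ => ?_
      by_cases hc : C ω = c
      · by_cases hx : X ω = b <;> simp [hc, hx]
      · simp [hc]
    have k1 := key a m lam ha0 hm0 hl0
    have k2 := key a' m (1 - lam) ha'0 hm0 (by linarith)
    have k3 : - log (1 - lam) ≤ 2 * lam := by
      have h1 := log_le_sub_one_of_pos (inv_pos.mpr (by linarith : (0 : ℝ) < 1 - lam))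
      rw [log_inv] at h1
      have h2 : (1 - lam)⁻¹ - 1 = lam / (1 - lam) := by
        have : (1 - lam) ≠ 0 := by linarith
        field_simp
        ring
      rw [h2] at h1
      refine h1.trans ?_
      rw [div_le_iff₀ (by linarith)]
      nlinarith
    have k4 : ∑ ω, (if C ω = c then q ω * sur q X C ω else 0) ≤
        a * (- log lam) + a' * (2 * lam) := by
      rw [hsplit]
      have h1 := mul_le_mul_of_nonneg_left k3 ha'0
      have h2 : lam * m - a + ((1 - lam) * m - a') = 0 := by rw [ha']; ring
      linarith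
    refine k4.trans ?_
    rw [← hmass, ← hmass', sum_mul, sum_mul, ← sum_add_distrib]
    refine sum_le_sum fun ω _ => ?_
    by_cases hc : C ω = c
    · rcases (hq.nonneg ω).eq_or_lt with h1 | h1
      · rw [← h1]; simp
      · by_cases hx : X ω = b
        · simp only [hc, hx, ne_eq, not_true_eq_false, and_false, and_self, if_true, if_false,
            zero_mul, add_zero]
          refine mul_le_mul_of_nonneg_left ?_ h1.le
          rcases hb ω h1 hc hx with h2 | h2
          · simp only [h2, if_true]
            split_ifs <;> linarith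
          · simp only [h2, if_true]
            split_ifs <;> linarith
        · simp only [hc, hx, ne_eq, not_false_eq_true, and_false, and_self, if_true, if_false,
            zero_mul, zero_add]
          refine mul_le_mul_of_nonneg_left ?_ h1.le
          rcases hb' ω h1 hc hx with h2 | h2
          · simp only [h2, if_true]
            split_ifs <;> linarith
          · simp only [h2, if_true]
            split_ifs <;> linarith
    · simp [hc]

open Classical in
/-- one step of the account -/
theorem step_account {q : Ω → ℝ} (hq : IsProb q) (X : Ω → α) (C : Ω → β)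
    (Exc Neg Big Small : Ω → Prop) {lam : ℝ} (hl0 : 0 < lam) (hl1 : lam ≤ 1 / 2)
    (h : ∀ ω₀, 0 < q ω₀ →
      (∀ ω, 0 < q ω → C ω = C ω₀ → Exc ω ∨ Neg ω) ∨
      (∃ b, ∀ ω, 0 < q ω → C ω = C ω₀ → X ω ≠ b → Neg ω) ∨
      (∃ b b', (∀ ω, 0 < q ω → C ω = C ω₀ → X ω = b ∨ X ω = b') ∧
        (∀ ω, 0 < q ω → C ω = C ω₀ → X ω = b → Neg ω ∨ Big ω) ∧
        (∀ ω, 0 < q ω → C ω = C ω₀ → X ω ≠ b → Neg ω ∨ Small ω))) :
    Hc q X C ≤ ∑ ω, q ω * ((if Exc ω then sur q X C ω else 0) +
      (if Neg ω then sur q X C ω + 1 - log lam + 2 * lam else 0) +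
      (if Big ω then - log lam else 0) + (if Small ω then 2 * lam else 0)) := by
  have hlog : 0 ≤ - log lam := by
    have := log_nonpos hl0.le (by linarith)
    linarith
  have hs := fun ω => sur_nonneg hq X C ω
  rw [← sum_sur hq]
  -- group according to the cells
  have hgroup : ∀ f : Ω → ℝ, ∑ ω, q ω * f ω =
      ∑ c ∈ univ.image C, ∑ ω, (if C ω = c then q ω * f ω else 0) := by
    intro f
    rw [sum_comm]
    refine sum_congr rfl fun ω _ => ?_
    rw [sum_ite_eq, if_pos (mem_image_of_mem C (mem_univ ω))]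
  rw [hgroup, hgroup]
  refine sum_le_sum fun c _ => ?_
  -- an empty cell
  by_cases hex : ∃ ω₀, 0 < q ω₀ ∧ C ω₀ = c
  swap
  · push Not at hex
    have hz : ∀ ω, C ω = c → q ω = 0 := fun ω hω =>
      le_antisymm (not_lt.mp fun h0 => hex ω h0 hω) (hq.nonneg ω)
    refine (sum_le_sum fun ω _ => ?_)
    by_cases hc : C ω = c
    · rw [if_pos hc, if_pos hc, hz ω hc, zero_mul, zero_mul]
    · rw [if_neg hc, if_neg hc]
  obtain ⟨ω₀, h0, hc0⟩ := hex
  have hh := h ω₀ h0
  rw [hc0] at hh
  rcases hh with h1 | ⟨b, h1⟩ | ⟨b, b', h1, h2, h3⟩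
  · refine sum_le_sum fun ω _ => ?_
    by_cases hc : C ω = c
    · rw [if_pos hc, if_pos hc]
      rcases (hq.nonneg ω).eq_or_lt with hz | hz
      · rw [← hz]; simp
      · refine mul_le_mul_of_nonneg_left ?_ hz.le
        have := hs ω
        rcases h1 ω hz hc with h2 | h2
        · rw [if_pos h2]
          split_ifs <;> linarith
        · rw [if_pos h2]
          split_ifs <;> linarith
    · rw [if_neg hc, if_neg hc]
  · refine (cell_one_sided hq X C c b Neg h1).trans ?_
    refine sum_le_sum fun ω _ => ?_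
    by_cases hc : C ω = c
    · by_cases hn : Neg ω
      · simp only [hc, hn, and_self, if_true]
        refine mul_le_mul_of_nonneg_left ?_ (hq.nonneg ω)
        have := hs ω
        split_ifs <;> linarith
      · simp only [hc, hn, and_false, if_false, if_true]
        refine mul_nonneg (hq.nonneg ω) ?_
        have := hs ω
        split_ifs <;> linarith
    · simp [hc]
  · refine (cell_split hq X C c b b' Neg Big Small hl0 hl1 h1 h2 h3).trans ?_
    refine sum_le_sum fun ω _ => ?_
    by_cases hc : C ω = c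
    · rw [if_pos hc, if_pos hc]
      refine mul_le_mul_of_nonneg_left ?_ (hq.nonneg ω)
      have := hs ω
      split_ifs <;> linarith
    · rw [if_neg hc, if_neg hc]

open Classical in
/-- **The account**: the entropy of the last time cell given the first one and `Y` -/
theorem account {q : Ω → ℝ} (hq : IsProb q) {δ : ℕ → Type*} (D : ∀ t, Ω → δ t)
    (hD : ∀ t, Det (D (t + 1)) (D t)) (Y : Ω → η)
    (Exc Neg Big Small : ℕ → Ω → Prop) {lam : ℝ} (hl0 : 0 < lam) (hl1 : lam ≤ 1 / 2) (T : ℕ)
    (h : ∀ t < T, ∀ ω₀, 0 < q ω₀ →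
      (∀ ω, 0 < q ω → D t ω = D t ω₀ → Y ω = Y ω₀ → Exc t ω ∨ Neg t ω) ∨
      (∃ b, ∀ ω, 0 < q ω → D t ω = D t ω₀ → Y ω = Y ω₀ → D (t + 1) ω ≠ b → Neg t ω) ∨
      (∃ b b', (∀ ω, 0 < q ω → D t ω = D t ω₀ → Y ω = Y ω₀ → D (t + 1) ω = b ∨ D (t + 1) ω = b') ∧
        (∀ ω, 0 < q ω → D t ω = D t ω₀ → Y ω = Y ω₀ → D (t + 1) ω = b → Neg t ω ∨ Big t ω) ∧
        (∀ ω, 0 < q ω → D t ω = D t ω₀ → Y ω = Y ω₀ → D (t + 1) ω ≠ b → Neg t ω ∨ Small t ω))) :
    Hc q (D T) (fun ω => (D 0 ω, Y ω)) ≤
      ∑ t ∈ range T, ∑ ω, q ω *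
        ((if Exc t ω then sur q (D (t + 1)) (fun ω => (D t ω, Y ω)) ω else 0) +
        (if Neg t ω then sur q (D (t + 1)) (fun ω => (D t ω, Y ω)) ω + 1 - log lam + 2 * lam
          else 0) +
        (if Big t ω then - log lam else 0) + (if Small t ω then 2 * lam else 0)) := by
  have h1 : ∀ n, Hc q (D n) (fun ω => (D 0 ω, Y ω)) =
      ∑ t ∈ range n, Hc q (D (t + 1)) (fun ω => (D t ω, Y ω)) := by
    have hDn : ∀ n, Det (D n) (D 0) := by
      intro n
      induction n with
      | zero => exact Det.refl _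
      | succ n ih => exact (hD n).trans ih
    intro n
    induction n with
    | zero =>
      simp only [range_zero, sum_empty]
      exact Hc_eq_zero (det_fst _ _)
    | succ n ih =>
      rw [sum_range_succ, ← ih]
      -- chain rule
      have e1 : Hc q (D (n + 1)) (fun ω => (D 0 ω, Y ω)) =
          H q (fun ω => (D (n + 1) ω, Y ω)) - H q (fun ω => (D 0 ω, Y ω)) := by
        refine Hc_eq (det_fst _ _) (((det_fst _ _).trans (hDn (n + 1))).pair (det_snd _ _)) ?_
        exact (det_fst _ _).pair ((det_snd _ _).trans (det_snd _ _))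
      have e2 : Hc q (D n) (fun ω => (D 0 ω, Y ω)) =
          H q (fun ω => (D n ω, Y ω)) - H q (fun ω => (D 0 ω, Y ω)) := by
        refine Hc_eq (det_fst _ _) (((det_fst _ _).trans (hDn n)).pair (det_snd _ _)) ?_
        exact (det_fst _ _).pair ((det_snd _ _).trans (det_snd _ _))
      have e3 : Hc q (D (n + 1)) (fun ω => (D n ω, Y ω)) =
          H q (fun ω => (D (n + 1) ω, Y ω)) - H q (fun ω => (D n ω, Y ω)) := by
        refine Hc_eq (det_fst _ _) (((det_fst _ _).trans (hD n)).pair (det_snd _ _)) ?_
        exact (det_fst _ _).pair ((det_snd _ _).trans (det_snd _ _))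
      rw [e1, e2, e3]; ring
  rw [h1 T]
  refine sum_le_sum fun t ht => ?_
  refine step_account hq (D (t + 1)) (fun ω => (D t ω, Y ω)) (Exc t) (Neg t) (Big t) (Small t)
    hl0 hl1 fun ω₀ h0 => ?_
  have e : ∀ ω, ((D t ω, Y ω) = (D t ω₀, Y ω₀)) ↔ (D t ω = D t ω₀ ∧ Y ω = Y ω₀) := fun ω =>
    Prod.mk.injEq _ _ _ _ ▸ Iff.rfl
  rcases h t (mem_range.mp ht) ω₀ h0 with h2 | ⟨b, h2⟩ | ⟨b, b', h2, h3, h4⟩
  · exact Or.inl fun ω hω hc => h2 ω hω ((e ω).mp hc).1 ((e ω).mp hc).2
  · exact Or.inr (Or.inl ⟨b, fun ω hω hc => h2 ω hω ((e ω).mp hc).1 ((e ω).mp hc).2⟩)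
  · exact Or.inr (Or.inr ⟨b, b', fun ω hω hc => h2 ω hω ((e ω).mp hc).1 ((e ω).mp hc).2,
      fun ω hω hc => h3 ω hω ((e ω).mp hc).1 ((e ω).mp hc).2,
      fun ω hω hc => h4 ω hω ((e ω).mp hc).1 ((e ω).mp hc).2⟩)

end Vale.Agent.P065.H700
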