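import Vale.Agent.P065.H700.SGGeo

/-!
# P065, package SGIANT, geometry of one cell (helper700)
-/

set_option autoImplicit false

open Finset Real

noncomputable section

namespace Vale.Agent.P065.H700.SG

open Vale.Agent.P065.UB Vale.Agent.P065.Ent Vale.Agent.P065.H154 Vale.Agent.P065.H725

section frame

variable {Ω : Type*} {F : Fr Ω} {ln : Ω → Pt} {p : Prm} {c : p.Col} {u : ℝ} {t : ℕ}
  {Lab : Type*} {lam : Ω → Lab}

/-- two flags with the same fine time cell are close -/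
lemma xi_close {s : ℕ} {ω ω' : Ω} (h : F.D u (t + s) ω' = F.D u (t + s) ω) :
    F.D u t ω' = F.D u t ω ∧ |xi F u t ω' - xi F u t ω| < 1 / 2 ^ s := by
  have hD := F.D_det_le u (Nat.le_add_right t s) _ _ h
  refine ⟨hD, ?_⟩
  have h1 := (F.Q u 0).D_close (ω := ω) (ω' := ω') h.symm
  have h2 := (F.Q u 0).D_close (ω := ω') (ω' := ω) h
  rw [Fr.Q_x, Fr.Q_x] at h1 h2
  have hs : (0 : ℝ) < 2 ^ s := by positivity
  have e : xi F u t ω' - xi F u t ω = 2 ^ t * (F.P.x ω' - F.P.x ω) := by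
    unfold xi
    rw [hD]
    ring
  have e1 : (2 : ℝ) ^ (t + s) = 2 ^ t * 2 ^ s := pow_add _ _ _
  rw [e, lt_div_iff₀ hs, ← abs_of_pos hs, ← abs_mul, abs_lt]
  rw [e1] at h1 h2
  constructor <;> nlinarith

lemma xi_eq_of_x {ω ω' : Ω} (h : F.P.x ω' = F.P.x ω) : xi F u t ω' = xi F u t ω := by
  unfold xi Fr.D
  rw [h]

lemma Hh_of_ln {ω ω' : Ω} (hD : F.D u t ω' = F.D u t ω) (hl : ln ω' = ln ω) :
    Hh F ln c u t ω' = Hh F ln c u t ω := by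
  unfold Hh
  rw [hD, hl]

/-- **the flags of a line which meet a tube are close** -/
theorem maj_close {γ P' P₁ : ℕ} {w r₀ : ℝ} {ω₁ ω₂ ω₁' ω₂' : Ω}
    (hD : F.D u t ω₂ = F.D u t ω₁) (hl : ln ω₂ = ln ω₁)
    (h1 : rho F ln p lam c ω₁' = rho F ln p lam c ω₁)
    (h2 : rho F ln p lam c ω₂' = rho F ln p lam c ω₂)
    (hf : r₀ ≤ |Prm.f c.1 (ln ω₁') - Prm.f c.1 (ln ω₁)|)
    (hL : Lc F ln u t p.k₀ (Prm.sy c.1) γ w (Prm.sc c.1 + P') ω₂' =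
      Lc F ln u t p.k₀ (Prm.sy c.1) γ w (Prm.sc c.1 + P') ω₁')
    (ht1 : t + P₁ ≤ F.T' ω₁) (ht2 : t + P₁ ≤ F.T' ω₂) :
    |xi F u t ω₂ - xi F u t ω₁| * r₀ ≤ 2 / 2 ^ P₁ + 2 ^ γ / 2 ^ P' + 1 / 2 ^ P' := by
  have a1 := rho_close (u := u) (t := t) h1 (by omega)
  have a2 := rho_close (u := u) (t := t) h2 (by omega)
  have b1 : (1 : ℝ) / 2 ^ (F.T' ω₁ - t) ≤ 1 / 2 ^ P₁ :=
    one_div_le_one_div_of_le (by positivity) (pow_le_pow_right₀ (by norm_num) (by omega))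
  have b2 : (1 : ℝ) / 2 ^ (F.T' ω₂ - t) ≤ 1 / 2 ^ P₁ :=
    one_div_le_one_div_of_le (by positivity) (pow_le_pow_right₀ (by norm_num) (by omega))
  obtain ⟨-, -, c1, c2⟩ := of_Lc hL
  rw [Hh_of_ln hD hl, hl] at a2
  have x0 := xi_nonneg (F := F) (u := u) (t := t) ω₂
  have x1 := xi_lt_one (F := F) (u := u) (t := t) ω₂
  set H := Hh F ln c u t ω₁
  set H1 := Hh F ln c u t ω₁'
  set H2 := Hh F ln c u t ω₂'
  set f := Prm.f c.1 (ln ω₁)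
  set f1 := Prm.f c.1 (ln ω₁')
  set f2 := Prm.f c.1 (ln ω₂')
  set x := xi F u t ω₁
  set y := xi F u t ω₂
  have key : (y - x) * (f1 - f) = ((H2 - H) + y * (f2 - f)) - ((H1 - H) + x * (f1 - f)) -
      (H2 - H1) - y * (f2 - f1) := by ring
  have h3 : |y * (f2 - f1)| ≤ 1 / 2 ^ P' := by
    rw [abs_mul, abs_of_nonneg x0]
    nlinarith [abs_nonneg (f2 - f1)]
  have h4 : |(y - x) * (f1 - f)| ≤ 2 / 2 ^ P₁ + 2 ^ γ / 2 ^ P' + 1 / 2 ^ P' := by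
    rw [key]
    have e : (2 : ℝ) / 2 ^ P₁ = 1 / 2 ^ P₁ + 1 / 2 ^ P₁ := by ring
    rw [e]
    have k1 := abs_lt.1 a1
    have k2 := abs_lt.1 a2
    have k3 := abs_lt.1 c1
    have k4 := abs_le.1 h3
    rw [abs_le]
    constructor <;> linarith
  rw [abs_mul] at h4
  exact (mul_le_mul_of_nonneg_left hf (abs_nonneg _)).trans h4

/-- the row of the flag is the row of its height at the left end -/
lemma Nf_eq_floor {γ : ℕ} {ω : Ω} (ht : t ≤ F.T' ω + γ) :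
    Nf F ln p γ t c ω = ⌊(Hh F ln c u t ω + xi F u t ω * Prm.f c.1 (ln ω)) / 2 ^ γ⌋ := by
  unfold Nf
  rw [min_eq_left ht, ← Z_eq]
  rfl

/-- levels of the flags of a common time cell -/
lemma le_T' {γ : ℕ} {ω ω' : Ω} (hD : F.D u t ω' = F.D u t ω) (ht : t ≤ F.T' ω + γ) :
    t ≤ F.T' ω' + γ := by
  rcases F.T'_cases hD with ⟨-, h⟩ | ⟨h, -⟩
  · rw [h]; exact ht
  · omega

/-- **the flags of the tube of a majority flag are in its box** -/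
theorem tube_Rt {γ P' : ℕ} {w : ℝ} {ω₁ ω₁' ω₃ : Ω} (hP : γ ≤ P')
    (h1 : rho F ln p lam c ω₁' = rho F ln p lam c ω₁)
    (hL : Lc F ln u t p.k₀ (Prm.sy c.1) γ w (Prm.sc c.1 + P') ω₃ =
      Lc F ln u t p.k₀ (Prm.sy c.1) γ w (Prm.sc c.1 + P') ω₁')
    (ht : t ≤ F.T' ω₁) (hn : ¬ Nb (2 ^ γ) (Hh F ln c u t ω₁)) :
    Rt F ln p u γ t (c, ω₃) = Rt F ln p u γ t (c, ω₁) := by
  obtain ⟨hx, hT, hS, -⟩ := of_rho h1
  have hD1 : F.D u t ω₁' = F.D u t ω₁ := F.D_of_x hx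
  have a1 := rho_close (u := u) h1 ht
  obtain ⟨hD3, hS3, c1, c2⟩ := of_Lc hL
  have b1 : (1 : ℝ) / 2 ^ (F.T' ω₁ - t) ≤ 1 := by
    rw [div_le_one (by positivity)]
    exact one_le_pow₀ (by norm_num)
  have b2 : (2 : ℝ) ^ γ / 2 ^ P' ≤ 1 := by
    rw [div_le_one (by positivity)]
    exact pow_le_pow_right₀ (by norm_num) hP
  have hDD := hD3.trans hD1
  have x0 := xi_nonneg (F := F) (u := u) (t := t) ω₁
  have x1 := xi_lt_one (F := F) (u := u) (t := t) ω₁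
  have y0 := xi_nonneg (F := F) (u := u) (t := t) ω₃
  have y1 := xi_lt_one (F := F) (u := u) (t := t) ω₃
  have f0 := Prm.f_nonneg c.1 (ln ω₁)
  have f1 := Prm.f_lt_one c.1 (ln ω₁)
  have f0' := Prm.f_nonneg c.1 (ln ω₁')
  have f1' := Prm.f_lt_one c.1 (ln ω₁')
  have f3 := Prm.f_nonneg c.1 (ln ω₃)
  have f3' := Prm.f_lt_one c.1 (ln ω₃)
  unfold Rt
  simp only [Prod.mk.injEq]
  refine ⟨trivial, hS3.trans hS, hDD, ?_⟩
  rw [Nf_eq_floor (u := u) (t := t) (ω := ω₁) (by omega),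
    Nf_eq_floor (u := u) (t := t) (ω := ω₃) (le_T' hDD (by omega))]
  have e1 : ⌊(Hh F ln c u t ω₁ + xi F u t ω₁ * Prm.f c.1 (ln ω₁)) / 2 ^ γ⌋ =
      ⌊Hh F ln c u t ω₁ / 2 ^ γ⌋ := by
    refine floor_eq_of (by positivity) hn ?_
    rw [add_sub_cancel_left, abs_of_nonneg (by positivity)]
    nlinarith
  have e3 : ⌊(Hh F ln c u t ω₃ + xi F u t ω₃ * Prm.f c.1 (ln ω₃)) / 2 ^ γ⌋ =
      ⌊Hh F ln c u t ω₁ / 2 ^ γ⌋ := by
    refine floor_eq_of (by positivity) hn ?_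
    have k1 := abs_lt.1 a1
    have k3 := abs_lt.1 c1
    have k4 : |xi F u t ω₁ * (Prm.f c.1 (ln ω₁') - Prm.f c.1 (ln ω₁))| ≤ 1 := by
      rw [abs_mul, abs_of_nonneg x0]
      have : |Prm.f c.1 (ln ω₁') - Prm.f c.1 (ln ω₁)| ≤ 1 := by
        rw [abs_le]
        constructor <;> linarith
      nlinarith [abs_nonneg (Prm.f c.1 (ln ω₁') - Prm.f c.1 (ln ω₁))]
    have k5 := abs_le.1 k4
    have k6 : 0 ≤ xi F u t ω₃ * Prm.f c.1 (ln ω₃) := by positivity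
    have k7 : xi F u t ω₃ * Prm.f c.1 (ln ω₃) ≤ 1 := by nlinarith
    rw [abs_lt]
    constructor <;> linarith
  rw [e1, e3]

/-- two flags of a line in one time cell, not close to a row boundary, have the same box -/
lemma Rt_of_ln {γ : ℕ} {ω₁ ω₂ : Ω} (hD : F.D u t ω₂ = F.D u t ω₁) (hl : ln ω₂ = ln ω₁)
    (ht : t ≤ F.T' ω₁) (hn : ¬ Nb (2 ^ γ) (Hh F ln c u t ω₁)) :
    Rt F ln p u γ t (c, ω₂) = Rt F ln p u γ t (c, ω₁) := by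
  have x0 := xi_nonneg (F := F) (u := u) (t := t) ω₁
  have x1 := xi_lt_one (F := F) (u := u) (t := t) ω₁
  have y0 := xi_nonneg (F := F) (u := u) (t := t) ω₂
  have y1 := xi_lt_one (F := F) (u := u) (t := t) ω₂
  have f0 := Prm.f_nonneg c.1 (ln ω₁)
  have f1 := Prm.f_lt_one c.1 (ln ω₁)
  unfold Rt
  simp only [Prod.mk.injEq]
  refine ⟨trivial, by rw [hl], hD, ?_⟩
  rw [Nf_eq_floor (u := u) (t := t) (ω := ω₁) (by omega),
    Nf_eq_floor (u := u) (t := t) (ω := ω₂) (le_T' hD (by omega)), Hh_of_ln hD hl, hl]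
  have e : ∀ y : ℝ, 0 ≤ y → y < 1 →
      ⌊(Hh F ln c u t ω₁ + y * Prm.f c.1 (ln ω₁)) / 2 ^ γ⌋ = ⌊Hh F ln c u t ω₁ / 2 ^ γ⌋ := by
    intro y hy0 hy1
    refine floor_eq_of (by positivity) hn ?_
    rw [add_sub_cancel_left, abs_of_nonneg (by positivity)]
    nlinarith
  rw [e _ x0 x1, e _ y0 y1]

/-- heights of two flags in one fine box of boxes -/
lemma Z_close_of_Rt {γ s : ℕ} {ω₁ ω₄ : Ω}
    (h : Rt F ln p u γ (t + s) (c, ω₄) = Rt F ln p u γ (t + s) (c, ω₁)) (hs : t + s ≤ F.T' ω₁) :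
    F.D u (t + s) ω₄ = F.D u (t + s) ω₁ ∧ Prm.S c.1 (ln ω₄) = Prm.S c.1 (ln ω₁) ∧
    |(Hh F ln c u t ω₄ + xi F u t ω₄ * Prm.f c.1 (ln ω₄)) -
      (Hh F ln c u t ω₁ + xi F u t ω₁ * Prm.f c.1 (ln ω₁))| < 2 ^ γ / 2 ^ s := by
  unfold Rt at h
  simp only [Prod.mk.injEq] at h
  obtain ⟨-, h2, h3, h4⟩ := h
  refine ⟨h3, h2, ?_⟩
  have hT4 : t + s ≤ F.T' ω₄ + γ := le_T' (t := t + s) (γ := γ) h3 (by omega)
  unfold Nf at h4
  rw [min_eq_left (by omega : t + s ≤ F.T' ω₁ + γ), min_eq_left hT4] at h4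
  unfold Prm.N at h4
  have h5 := close_of_floor (G := 2 ^ γ) (by positivity) h4
  rw [← Z_eq, ← Z_eq, lt_div_iff₀ (by positivity)]
  have e : (2 : ℝ) ^ (t + s) * Prm.h c (F.P.x ω₄) (ln ω₄) -
      2 ^ (t + s) * Prm.h c (F.P.x ω₁) (ln ω₁) =
      (2 ^ t * Prm.h c (F.P.x ω₄) (ln ω₄) - 2 ^ t * Prm.h c (F.P.x ω₁) (ln ω₁)) * 2 ^ s := by
    rw [pow_add]
    ring
  rw [e, abs_mul, abs_of_pos (by positivity : (0 : ℝ) < 2 ^ s)] at h5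
  exact h5

/-- **the small box is inside the cell of lines** -/
theorem Lc_of_Rt {γ s : ℕ} {w : ℝ} {ω₁ ω₄ : Ω} (hγ : γ ≤ s)
    (h : Rt F ln p u γ (t + s) (c, ω₄) = Rt F ln p u γ (t + s) (c, ω₁)) (hs : t + s ≤ F.T' ω₁)
    (hn : ¬ Nb (2 ^ γ) (zL F ln u t w (Prm.sc c.1) ω₁)) :
    Lc F ln u t p.k₀ (Prm.sy c.1) γ w (Prm.sc c.1) ω₄ =
      Lc F ln u t p.k₀ (Prm.sy c.1) γ w (Prm.sc c.1) ω₁ := by
  obtain ⟨h1, h2, h3⟩ := Z_close_of_Rt h hs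
  have hD := F.D_det_le u (Nat.le_add_right t s) _ _ h1
  have b2 : (2 : ℝ) ^ γ / 2 ^ s ≤ 1 := by
    rw [div_le_one (by positivity)]
    exact pow_le_pow_right₀ (by norm_num) hγ
  have x0 := xi_nonneg (F := F) (u := u) (t := t) ω₁
  have x1 := xi_lt_one (F := F) (u := u) (t := t) ω₁
  have y0 := xi_nonneg (F := F) (u := u) (t := t) ω₄
  have y1 := xi_lt_one (F := F) (u := u) (t := t) ω₄
  have f0 := Prm.f_nonneg c.1 (ln ω₁)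
  have f1 := Prm.f_lt_one c.1 (ln ω₁)
  have f0' := Prm.f_nonneg c.1 (ln ω₄)
  have f1' := Prm.f_lt_one c.1 (ln ω₄)
  have k6 : 0 ≤ xi F u t ω₄ * Prm.f c.1 (ln ω₄) := by positivity
  have k7 : xi F u t ω₄ * Prm.f c.1 (ln ω₄) ≤ 1 := by nlinarith
  have k8 : 0 ≤ xi F u t ω₁ * Prm.f c.1 (ln ω₁) := by positivity
  have k9 : xi F u t ω₁ * Prm.f c.1 (ln ω₁) ≤ 1 := by nlinarith
  have h4 : |zL F ln u t w (Prm.sc c.1) ω₄ - zL F ln u t w (Prm.sc c.1) ω₁| < 5 := by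
    rw [zL_sub hD h2]
    have h5 := abs_lt.1 h3
    rw [abs_lt]
    constructor <;> linarith
  unfold Lc
  simp only [Prod.mk.injEq]
  exact ⟨hD, h2, floor_eq_of (by positivity) hn h4⟩

/-- **the tube leaves the small box of a flag of the line at some distance** -/
theorem tube_sep {γ P' P₁ s : ℕ} {w r₀ δ : ℝ} {ω₁ ω₁' ω₂ ω₃ : Ω}
    (hD : F.D u t ω₂ = F.D u t ω₁) (hl : ln ω₂ = ln ω₁)
    (h1 : rho F ln p lam c ω₁' = rho F ln p lam c ω₁)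
    (hr : 0 ≤ r₀) (hf : r₀ ≤ |Prm.f c.1 (ln ω₁') - Prm.f c.1 (ln ω₁)|)
    (hL : Lc F ln u t p.k₀ (Prm.sy c.1) γ w (Prm.sc c.1 + P') ω₃ =
      Lc F ln u t p.k₀ (Prm.sy c.1) γ w (Prm.sc c.1 + P') ω₁')
    (ht1 : t + P₁ ≤ F.T' ω₁) (ht2 : t + s ≤ F.T' ω₂)
    (hδ : δ ≤ |xi F u t ω₂ - xi F u t ω₁|)
    (hnum : 2 ^ γ / 2 ^ s + 2 ^ γ / 2 ^ P' + 1 / 2 ^ P₁ + 1 / 2 ^ s + 1 / 2 ^ P' ≤ r₀ * δ) :
    Rt F ln p u γ (t + s) (c, ω₃) ≠ Rt F ln p u γ (t + s) (c, ω₂) := by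
  intro hR
  obtain ⟨g1, -, g3⟩ := Z_close_of_Rt hR ht2
  obtain ⟨-, g4⟩ := xi_close g1
  have a1 := rho_close (u := u) (t := t) h1 (by omega)
  have b1 : (1 : ℝ) / 2 ^ (F.T' ω₁ - t) ≤ 1 / 2 ^ P₁ :=
    one_div_le_one_div_of_le (by positivity) (pow_le_pow_right₀ (by norm_num) (by omega))
  obtain ⟨-, -, c1, c2⟩ := of_Lc hL
  rw [Hh_of_ln hD hl, hl] at g3
  have x0 := xi_nonneg (F := F) (u := u) (t := t) ω₂
  have x1 := xi_lt_one (F := F) (u := u) (t := t) ω₂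
  have f3 := Prm.f_nonneg c.1 (ln ω₃)
  have f3' := Prm.f_lt_one c.1 (ln ω₃)
  set H := Hh F ln c u t ω₁
  set H1 := Hh F ln c u t ω₁'
  set H3 := Hh F ln c u t ω₃
  set f := Prm.f c.1 (ln ω₁)
  set f1 := Prm.f c.1 (ln ω₁')
  set f3v := Prm.f c.1 (ln ω₃)
  set x := xi F u t ω₁
  set y := xi F u t ω₂
  set z := xi F u t ω₃
  have key : (y - x) * (f1 - f) = ((H3 + z * f3v) - (H + y * f)) - (H3 - H1) -
      ((H1 - H) + x * (f1 - f)) - (z - y) * f3v - y * (f3v - f1) := by ring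
  have k1 : |(z - y) * f3v| ≤ 1 / 2 ^ s := by
    rw [abs_mul, abs_of_nonneg f3]
    nlinarith [abs_nonneg (z - y)]
  have k2 : |y * (f3v - f1)| ≤ 1 / 2 ^ P' := by
    rw [abs_mul, abs_of_nonneg x0]
    nlinarith [abs_nonneg (f3v - f1)]
  have k3 : |(y - x) * (f1 - f)| < 2 ^ γ / 2 ^ s + 2 ^ γ / 2 ^ P' + 1 / 2 ^ P₁ + 1 / 2 ^ s +
      1 / 2 ^ P' := by
    rw [key]
    have m1 := abs_lt.1 g3
    have m2 := abs_lt.1 c1
    have m3 := abs_lt.1 a1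
    have m4 := abs_le.1 k1
    have m5 := abs_le.1 k2
    rw [abs_lt]
    constructor <;> linarith
  rw [abs_mul] at k3
  have k4 : r₀ * δ ≤ |y - x| * |f1 - f| := by
    calc r₀ * δ ≤ r₀ * |y - x| := mul_le_mul_of_nonneg_left hδ hr
      _ = |y - x| * r₀ := mul_comm _ _
      _ ≤ |y - x| * |f1 - f| := mul_le_mul_of_nonneg_left hf (abs_nonneg _)
  linarith

end frame

end Vale.Agent.P065.H700.SG
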