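import Vale.Agent.P065.H700.QLaw

/-!
# P065, package QLAW (helper700), part 3: information budgets

* `sum_DE`, `sum_DE_filtration`, `sum_DE_rel`: the divergence of the law of the next variable of a
  filtration given one label and the unconditional one, summed over the filtration.
* `Cols.budget`, `Cols.budget_rel`: the same under the auxiliary law.
* `Cols.budget_F`: the auxiliary law is close to the original one.
* `transfer`: coverage transfer.
-/

set_option autoImplicit false

open Finset Real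

set_option linter.unusedSectionVars false

noncomputable section

namespace Vale.Agent.P065.H700

open Vale.Agent.P065.Ent

variable {Ω : Type*} [Fintype Ω] {α β γ δ ε υ : Type*}

/-! ## One label -/

section label

variable {μ : Ω → ℝ}

/-- conditional probability of `E = e` given `R`, at one flag -/
def cp (μ : Ω → ℝ) (E : Ω → ε) (e : ε) (R : Ω → β) (ω : Ω) : ℝ :=
  Pr μ (fun ω => (E ω, R ω)) (e, R ω) / Pr μ R (R ω)

/-- divergence of the law of `Y` given `R = r` and `E = e` from the law of `Y` given `R = r` -/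
def DE (μ : Ω → ℝ) (E : Ω → ε) (e : ε) (Y : Ω → υ) (R : Ω → β) (r : β) : ℝ :=
  KL (cnd μ (fun ω => (E ω, R ω)) (e, r)) (cnd μ R r) Y

lemma cp_nonneg (hμ : IsProb μ) (E : Ω → ε) (e : ε) (R : Ω → β) (ω : Ω) : 0 ≤ cp μ E e R ω :=
  div_nonneg (Pr_nonneg hμ _ _) (Pr_nonneg hμ _ _)

lemma Pr_pair_le (hμ : IsProb μ) (E : Ω → ε) (e : ε) (R : Ω → β) (r : β) :
    Pr μ (fun ω => (E ω, R ω)) (e, r) ≤ Pr μ R r := by
  classical
  unfold Pr
  refine sum_le_sum fun ω _ => ?_
  by_cases hz : R ω = r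
  · by_cases hx : E ω = e
    · simp [hz, hx]
    · simp [hz, hx, hμ.nonneg ω]
  · simp [hz]

lemma cp_le_one (hμ : IsProb μ) (E : Ω → ε) (e : ε) (R : Ω → β) (ω : Ω) : cp μ E e R ω ≤ 1 :=
  div_le_one_of_le₀ (Pr_pair_le hμ E e R _) (Pr_nonneg hμ _ _)

lemma cp_pos (hμ : IsProb μ) (E : Ω → ε) (e : ε) (R : Ω → β) {ω : Ω} (h : 0 < μ ω)
    (hE : E ω = e) : 0 < cp μ E e R ω := by
  have h1 := Pr_pos hμ (fun ω => (E ω, R ω)) h
  have h2 := Pr_pos hμ R h
  rw [hE] at h1
  exact div_pos h1 h2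

lemma cp_congr {R : Ω → β} {R' : Ω → γ} (E : Ω → ε) (e : ε) (h : Det R R') (h' : Det R' R)
    (ω : Ω) : cp μ E e R ω = cp μ E e R' ω := by
  classical
  unfold cp
  rw [Pr_congr h h' ω]
  congr 1
  unfold Pr
  refine sum_congr rfl fun ω' _ => ?_
  by_cases h1 : E ω' = e
  · by_cases h2 : R ω' = R ω
    · simp [h1, h2, h _ _ h2]
    · have h3 : R' ω' ≠ R' ω := fun h3 => h2 (h' _ _ h3)
      simp [h2, h3]
  · simp [h1]

lemma det_cp (E : Ω → ε) (e : ε) (R : Ω → β) : Det R (cp μ E e R) := by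
  intro a b h
  unfold cp
  rw [h]

lemma exists_fun {X : Ω → α} {Y : Ω → ℝ} (h : Det X Y) : ∃ f : α → ℝ, ∀ ω, Y ω = f (X ω) := by
  classical
  refine ⟨fun x => if hx : ∃ ω, X ω = x then Y hx.choose else 0, fun ω => ?_⟩
  have hx : ∃ ω', X ω' = X ω := ⟨ω, rfl⟩
  simp only [dif_pos hx]
  exact (h _ _ hx.choose_spec).symm

lemma DE_nonneg (hμ : IsProb μ) (E : Ω → ε) (e : ε) (Y : Ω → υ) (R : Ω → β) (r : β) :
    0 ≤ DE μ E e Y R r := by
  classical
  unfold DE
  rcases (Pr_nonneg hμ (fun ω => (E ω, R ω)) (e, r)).eq_or_lt with h0 | h0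
  · unfold KL
    refine sum_nonneg fun ω _ => ?_
    have h1 : cnd μ (fun ω => (E ω, R ω)) (e, r) ω = 0 := by
      unfold cnd
      rw [← h0]
      simp
    rw [h1, zero_mul]
  · have h1 : 0 < Pr μ R r := h0.trans_le (Pr_pair_le hμ E e R r)
    refine KL_nonneg (cnd_isProb hμ h0) (cnd_isProb hμ h1) ?_ Y
    intro ω hω
    have h2 := cnd_pos hω
    have h3 : R ω = r := (Prod.mk.inj h2).2
    unfold cnd at hω ⊢
    rw [if_pos h2] at hω
    rw [if_pos h3]
    have h4 : 0 < μ ω := by
      rcases (hμ.nonneg ω).eq_or_lt with h5 | h5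
      · rw [← h5, zero_div] at hω
        exact absurd hω (lt_irrefl _)
      · exact h5
    exact div_pos h4 h1

open Classical in
/-- the sum of the divergences over the flags with the label `e` -/
theorem sum_DE (hμ : IsProb μ) (E : Ω → ε) (e : ε) (Y : Ω → υ) (R : Ω → β) (v : Ω → ℝ)
    (hv : Det R v) :
    ∑ ω, (if E ω = e then μ ω * (v ω * DE μ E e Y R (R ω)) else 0) =
      ∑ ω, (if E ω = e then μ ω * (v ω * (log (cp μ E e (fun ω => (Y ω, R ω)) ω) -
        log (cp μ E e R ω))) else 0) := by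
  obtain ⟨f, hf⟩ := exists_fun hv
  set ER : Ω → ε × β := fun ω => (E ω, R ω) with hER
  have h1 := sum_fiber μ ER (fun y => if y.1 = e then f y.2 * DE μ E e Y R y.2 else 0)
  have h2 := sum_cnd_fiber hμ ER (fun y ω => if y.1 = e then f y.2 *
    log (Pr (cnd μ ER (e, y.2)) Y (Y ω) / Pr (cnd μ R y.2) Y (Y ω)) else 0)
  have h3 : ∀ y ∈ univ.image ER, Pr μ ER y * (if y.1 = e then f y.2 * DE μ E e Y R y.2 else 0) =
      Pr μ ER y * ∑ ω, cnd μ ER y ω * (if y.1 = e then f y.2 *
        log (Pr (cnd μ ER (e, y.2)) Y (Y ω) / Pr (cnd μ R y.2) Y (Y ω)) else 0) := by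
    rintro ⟨b, r⟩ _
    congr 1
    by_cases hb : b = e
    · subst hb
      simp only [if_true]
      unfold DE KL
      rw [mul_sum]
      refine sum_congr rfl fun ω _ => ?_
      ring
    · simp [hb]
  rw [sum_congr rfl h3, ← h2] at h1
  have h4 : ∑ ω, (if E ω = e then μ ω * (v ω * DE μ E e Y R (R ω)) else 0) =
      ∑ ω, μ ω * (if (ER ω).1 = e then f (ER ω).2 * DE μ E e Y R (ER ω).2 else 0) := by
    refine sum_congr rfl fun ω _ => ?_
    simp only [hER, ← hf]
    split_ifs <;> simp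
  rw [h4, h1]
  refine sum_congr rfl fun ω _ => ?_
  simp only [hER, ← hf]
  split_ifs with h
  · rcases (hμ.nonneg ω).eq_or_lt with h0 | h0
    · rw [← h0, zero_mul, zero_mul]
    · congr 2
      rw [Pr_cnd, Pr_cnd]
      have p1 := Pr_pos hμ (fun ω => (Y ω, (E ω, R ω))) h0
      have p2 := Pr_pos hμ (fun ω => (E ω, R ω)) h0
      have p3 := Pr_pos hμ (fun ω => (Y ω, R ω)) h0
      have p4 := Pr_pos hμ R h0
      have e1 : Pr μ (fun ω => (E ω, (Y ω, R ω))) (e, (Y ω, R ω)) =
          Pr μ (fun ω => (Y ω, (E ω, R ω))) (Y ω, (e, R ω)) := by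
        unfold Pr
        refine sum_congr rfl fun ω' _ => ?_
        have : ((E ω', (Y ω', R ω')) = (e, (Y ω, R ω))) ↔
            ((Y ω', (E ω', R ω')) = (Y ω, (e, R ω))) := by
          simp only [Prod.mk.injEq]; tauto
        by_cases h5 : (Y ω', (E ω', R ω')) = (Y ω, (e, R ω))
        · rw [if_pos h5, if_pos (this.mpr h5)]
        · rw [if_neg h5, if_neg fun h6 => h5 (this.mp h6)]
      unfold cp
      rw [h] at p1 p2
      rw [e1, ← log_div (div_pos p1 p3).ne' (div_pos p2 p4).ne']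
      congr 1
      field_simp
  · simp

open Classical in
lemma sum_DE' (hμ : IsProb μ) (E : Ω → ε) (e : ε) (Y : Ω → υ) (R : Ω → β) (v : Ω → ℝ)
    (hv : Det R v) (hYR : Det Y R) :
    ∑ ω, (if E ω = e then μ ω * (v ω * DE μ E e Y R (R ω)) else 0) =
      ∑ ω, (if E ω = e then μ ω * (v ω * (log (cp μ E e Y ω) - log (cp μ E e R ω))) else 0) := by
  rw [sum_DE hμ E e Y R v hv]
  refine sum_congr rfl fun ω _ => ?_
  rw [cp_congr E e (det_fst Y R) ((Det.refl Y).pair hYR)]

open Classical in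
/-- **Budget of one label** along a filtration -/
theorem sum_DE_filtration (hμ : IsProb μ) (E : Ω → ε) (e : ε) {ρ : ℕ → Type*}
    (R : ∀ j, Ω → ρ j) (h : ∀ j, Det (R (j + 1)) (R j)) (v : Ω → ℝ) (hv : Det (R 0) v)
    (hv0 : ∀ ω, 0 ≤ v ω) (n : ℕ) :
    ∑ j ∈ range n, ∑ ω, (if E ω = e then μ ω *
        (v ω * DE μ E e (R (j + 1)) (R j) (R j ω)) else 0) ≤
      ∑ ω, (if E ω = e then μ ω * (v ω * (- log (cp μ E e (R 0) ω))) else 0) := by
  have hR : ∀ j, Det (R j) v := by
    intro j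
    induction j with
    | zero => exact hv
    | succ j ih => exact (h j).trans ih
  have h1 : ∑ j ∈ range n, ∑ ω, (if E ω = e then μ ω *
        (v ω * DE μ E e (R (j + 1)) (R j) (R j ω)) else 0) =
      ∑ ω, (if E ω = e then μ ω * (v ω * (log (cp μ E e (R n) ω) -
        log (cp μ E e (R 0) ω))) else 0) := by
    induction n with
    | zero => simp
    | succ n ih =>
      rw [sum_range_succ, ih, sum_DE' hμ E e (R (n + 1)) (R n) v (hR n) (h n), ← sum_add_distrib]
      refine sum_congr rfl fun ω _ => ?_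
      split_ifs
      · ring
      · simp
  rw [h1]
  refine sum_le_sum fun ω _ => ?_
  split_ifs with hE
  · refine mul_le_mul_of_nonneg_left (mul_le_mul_of_nonneg_left ?_ (hv0 ω)) (hμ.nonneg ω)
    have := log_nonpos (cp_nonneg hμ E e (R n) ω) (cp_le_one hμ E e (R n) ω)
    linarith
  · exact le_rfl

open Classical in
/-- **Relative budget of one label** along a filtration, `u = - log P (e | R j)` -/
theorem sum_DE_rel (hμ : IsProb μ) (E : Ω → ε) (e : ε) {ρ : ℕ → Type*}
    (R : ∀ j, Ω → ρ j) (h : ∀ j, Det (R (j + 1)) (R j)) (v : Ω → ℝ) (hv : Det (R 0) v)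
    (hv0 : ∀ ω, 0 ≤ v ω) (n : ℕ) :
    ∑ j ∈ range n, ∑ ω, (if E ω = e then μ ω *
        (v ω * (DE μ E e (R (j + 1)) (R j) (R j ω) / (1 - log (cp μ E e (R j) ω)))) else 0) ≤
      ∑ ω, (if E ω = e then μ ω * (v ω * log (1 - log (cp μ E e (R 0) ω))) else 0) := by
  have hR : ∀ j, Det (R j) v := by
    intro j
    induction j with
    | zero => exact hv
    | succ j ih => exact (h j).trans ih
  have hcp : ∀ j ω, 1 ≤ 1 - log (cp μ E e (R j) ω) := by
    intro j ω
    have := log_nonpos (cp_nonneg hμ E e (R j) ω) (cp_le_one hμ E e (R j) ω)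
    linarith
  have h1 : ∀ j, ∑ ω, (if E ω = e then μ ω *
        (v ω * (DE μ E e (R (j + 1)) (R j) (R j ω) / (1 - log (cp μ E e (R j) ω)))) else 0) ≤
      ∑ ω, (if E ω = e then μ ω * (v ω * (log (1 - log (cp μ E e (R j) ω)) -
        log (1 - log (cp μ E e (R (j + 1)) ω)))) else 0) := by
    intro j
    have hd : Det (R j) (fun ω => v ω / (1 - log (cp μ E e (R j) ω))) := by
      intro a b hab
      have e1 := hR j a b hab
      have e2 := det_cp (μ := μ) E e (R j) a b hab
      simp only [e1, e2]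
    have h2 := sum_DE' hμ E e (R (j + 1)) (R j) _ hd (h j)
    have h3 : ∑ ω, (if E ω = e then μ ω *
        (v ω * (DE μ E e (R (j + 1)) (R j) (R j ω) / (1 - log (cp μ E e (R j) ω)))) else 0) =
        ∑ ω, (if E ω = e then μ ω * (v ω / (1 - log (cp μ E e (R j) ω)) *
          DE μ E e (R (j + 1)) (R j) (R j ω)) else 0) := by
      refine sum_congr rfl fun ω _ => ?_
      split_ifs
      · ring
      · rfl
    rw [h3, h2]
    refine sum_le_sum fun ω _ => ?_
    split_ifs with hE
    · refine mul_le_mul_of_nonneg_left ?_ (hμ.nonneg ω)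
      rw [div_mul_eq_mul_div, mul_div_assoc]
      refine mul_le_mul_of_nonneg_left ?_ (hv0 ω)
      have e1 := hcp j ω
      have e2 := hcp (j + 1) ω
      set a := 1 - log (cp μ E e (R j) ω) with ha
      set b := 1 - log (cp μ E e (R (j + 1)) ω) with hb
      have e3 : log (cp μ E e (R (j + 1)) ω) - log (cp μ E e (R j) ω) = a - b := by
        rw [ha, hb]; ring
      rw [e3]
      have ha0 : 0 < a := by linarith
      have hb0 : 0 < b := by linarith
      have h4 := log_le_sub_one_of_pos (div_pos hb0 ha0)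
      rw [log_div hb0.ne' ha0.ne'] at h4
      have h5 : (a - b) / a = 1 - b / a := by
        rw [sub_div, div_self ha0.ne']
      rw [h5]
      linarith
    · exact le_rfl
  have h2 : ∀ m, ∑ j ∈ range m, ∑ ω, (if E ω = e then μ ω *
        (v ω * (log (1 - log (cp μ E e (R j) ω)) -
        log (1 - log (cp μ E e (R (j + 1)) ω)))) else 0) =
      ∑ ω, (if E ω = e then μ ω * (v ω * (log (1 - log (cp μ E e (R 0) ω)) -
        log (1 - log (cp μ E e (R m) ω)))) else 0) := by
    intro m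
    induction m with
    | zero => simp
    | succ m ih =>
      rw [sum_range_succ, ih, ← sum_add_distrib]
      refine sum_congr rfl fun ω _ => ?_
      split_ifs
      · ring
      · simp
  refine (sum_le_sum fun j _ => h1 j).trans ?_
  rw [h2 n]
  refine sum_le_sum fun ω _ => ?_
  split_ifs with hE
  · refine mul_le_mul_of_nonneg_left (mul_le_mul_of_nonneg_left ?_ (hv0 ω)) (hμ.nonneg ω)
    have := log_nonneg (hcp n ω)
    linarith
  · exact le_rfl

end label

end Vale.Agent.P065.H700
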