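import Vale.Agent.P065.H587.Ent2

/-!
# P065, package QLAW (helper700), part 1: Kullback-Leibler divergence

`KL p q Y` is the divergence of the laws of `Y` under two probability vectors on the same finite
space, `KLc p q Y Z` the conditional divergence of `Y` given `Z`.
-/

set_option autoImplicit false

open Finset Real

noncomputable section

namespace Vale.Agent.P065.H700

open Vale.Agent.P065.Ent

variable {Ω : Type*} [Fintype Ω] {α β γ δ : Type*}

/-! ## Jensen inequality for the logarithm -/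

/-- Jensen: `E log r ≤ log E r` -/
theorem jensen_log {p : Ω → ℝ} (hp : IsProb p) (r : Ω → ℝ) (hr : ∀ ω, 0 < p ω → 0 < r ω) :
    ∑ ω, p ω * log (r ω) ≤ log (∑ ω, p ω * r ω) := by
  set c := ∑ ω, p ω * r ω with hc
  have hnn : ∀ ω, 0 ≤ p ω * r ω := by
    intro ω
    rcases (hp.nonneg ω).eq_or_lt with h0 | h0
    · rw [← h0, zero_mul]
    · exact mul_nonneg h0.le (hr ω h0).le
  have hcpos : 0 < c := by
    have h1 : ∃ ω ∈ (univ : Finset Ω), 0 < p ω := by
      by_contra hcon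
      push Not at hcon
      have h2 : ∑ ω, p ω ≤ 0 := sum_nonpos hcon
      rw [hp.sum] at h2
      linarith
    obtain ⟨ω, hω, h2⟩ := h1
    have h3 : p ω * r ω ≤ c := single_le_sum (f := fun ω => p ω * r ω) (fun ω _ => hnn ω) hω
    exact (mul_pos h2 (hr ω h2)).trans_le h3
  have key : ∀ ω, p ω * log (r ω) ≤ p ω * r ω / c - p ω + p ω * log c := by
    intro ω
    rcases (hp.nonneg ω).eq_or_lt with h0 | h0
    · rw [← h0]; simp
    · have h1 := log_le_sub_one_of_pos (div_pos (hr ω h0) hcpos)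
      rw [log_div (hr ω h0).ne' hcpos.ne'] at h1
      have h2 : p ω * (log (r ω) - log c) ≤ p ω * (r ω / c - 1) :=
        mul_le_mul_of_nonneg_left h1 h0.le
      have h3 : p ω * (r ω / c - 1) = p ω * r ω / c - p ω := by ring
      rw [h3] at h2
      linarith
  calc ∑ ω, p ω * log (r ω) ≤ ∑ ω, (p ω * r ω / c - p ω + p ω * log c) := sum_le_sum fun ω _ => key ω
    _ = c / c - 1 + 1 * log c := by
      rw [sum_add_distrib, sum_sub_distrib, ← sum_div, ← sum_mul, hp.sum]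
    _ = log c := by rw [div_self hcpos.ne']; ring

/-- `∑ p (- log r) ≥ 0` if `∑ p r ≤ 1` -/
theorem sum_neg_log_nonneg {p : Ω → ℝ} (hp : IsProb p) (r : Ω → ℝ) (hr : ∀ ω, 0 < p ω → 0 < r ω)
    (h1 : ∑ ω, p ω * r ω ≤ 1) : ∑ ω, p ω * log (r ω) ≤ 0 := by
  refine (jensen_log hp r hr).trans ?_
  have hnn : 0 ≤ ∑ ω, p ω * r ω := by
    refine sum_nonneg fun ω _ => ?_
    rcases (hp.nonneg ω).eq_or_lt with h0 | h0
    · rw [← h0, zero_mul]
    · exact mul_nonneg h0.le (hr ω h0).le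
  exact log_nonpos hnn h1

/-- `∑ p (ω) g (Y ω) / P (Y = Y ω) ≤ ∑ y, g y` -/
lemma sum_div_Pr_le [DecidableEq α] {p : Ω → ℝ} (Y : Ω → α) (g : α → ℝ)
    (hg : ∀ y ∈ univ.image Y, 0 ≤ g y) :
    ∑ ω, p ω * (g (Y ω) / Pr p Y (Y ω)) ≤ ∑ y ∈ univ.image Y, g y := by
  rw [sum_fiber p Y (fun y => g y / Pr p Y y)]
  refine sum_le_sum fun y hy => ?_
  rcases eq_or_ne (Pr p Y y) 0 with h | h
  · rw [h, zero_mul]; exact hg y hy
  · rw [mul_div_cancel₀ _ h]

/-! ## Divergence -/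

/-- absolute continuity -/
def AC (p q : Ω → ℝ) : Prop := ∀ ω, 0 < p ω → 0 < q ω

/-- divergence of the laws of `Y` -/
def KL (p q : Ω → ℝ) (Y : Ω → α) : ℝ := ∑ ω, p ω * log (Pr p Y (Y ω) / Pr q Y (Y ω))

/-- conditional divergence of the laws of `Y` given `Z` -/
def KLc (p q : Ω → ℝ) (Y : Ω → α) (Z : Ω → β) : ℝ :=
  KL p q (fun ω => (Y ω, Z ω)) - KL p q Z

section kl
variable {p q : Ω → ℝ} {X : Ω → α} {Y : Ω → β} {Z : Ω → γ} {W : Ω → δ}

lemma KL_congr (h : Det X Y) (h' : Det Y X) : KL p q X = KL p q Y := by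
  unfold KL
  exact sum_congr rfl fun ω _ => by rw [Pr_congr h h' ω, Pr_congr h h' ω]

lemma KLc_congr {α' β' : Type*} {X' : Ω → α'} {Y' : Ω → β'}
    (h1 : Det X X') (h2 : Det X' X) (h3 : Det Y Y') (h4 : Det Y' Y) :
    KLc p q X Y = KLc p q X' Y' := by
  unfold KLc
  rw [KL_congr h3 h4, KL_congr (((det_fst X Y).trans h1).pair ((det_snd X Y).trans h3))
    (((det_fst X' Y').trans h2).pair ((det_snd X' Y').trans h4))]

/-- conditional divergence of a finer variable -/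
lemma KLc_eq (h : Det X Y) : KLc p q X Y = KL p q X - KL p q Y := by
  unfold KLc
  rw [KL_congr (det_fst X Y) ((Det.refl X).pair h)]

lemma KL_eq_sum (hp : IsProb p) (hq : IsProb q) (hac : AC p q) (Y : Ω → α) : KL p q Y =
    ∑ ω, p ω * log (Pr p Y (Y ω)) - ∑ ω, p ω * log (Pr q Y (Y ω)) := by
  unfold KL
  rw [← sum_sub_distrib]
  refine sum_congr rfl fun ω _ => ?_
  rcases (hp.nonneg ω).eq_or_lt with h0 | h0
  · rw [← h0]; ring
  · rw [log_div (Pr_pos hp Y h0).ne' (Pr_pos hq Y (hac ω h0)).ne']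
    ring

/-- pointwise formula for the conditional divergence -/
lemma KLc_eq_sum (hp : IsProb p) (hq : IsProb q) (hac : AC p q) (Y : Ω → α) (Z : Ω → β) :
    KLc p q Y Z = ∑ ω, p ω * log
      ((Pr p (fun ω => (Y ω, Z ω)) (Y ω, Z ω) / Pr p Z (Z ω)) /
        (Pr q (fun ω => (Y ω, Z ω)) (Y ω, Z ω) / Pr q Z (Z ω))) := by
  unfold KLc KL
  rw [← sum_sub_distrib]
  refine sum_congr rfl fun ω _ => ?_
  rcases (hp.nonneg ω).eq_or_lt with h0 | h0
  · rw [← h0]; ring
  · have h1 := Pr_pos hp (fun ω => (Y ω, Z ω)) h0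
    have h2 := Pr_pos hp Z h0
    have h3 := Pr_pos hq (fun ω => (Y ω, Z ω)) (hac ω h0)
    have h4 := Pr_pos hq Z (hac ω h0)
    rw [log_div h1.ne' h3.ne', log_div h2.ne' h4.ne', log_div (div_pos h1 h2).ne' (div_pos h3 h4).ne',
      log_div h1.ne' h2.ne', log_div h3.ne' h4.ne']
    ring

theorem KLc_nonneg (hp : IsProb p) (hq : IsProb q) (hac : AC p q) (Y : Ω → α) (Z : Ω → β) :
    0 ≤ KLc p q Y Z := by
  classical
  rw [KLc_eq_sum hp hq hac]
  set r : Ω → ℝ := fun ω => (Pr q (fun ω => (Y ω, Z ω)) (Y ω, Z ω) / Pr q Z (Z ω)) /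
    (Pr p (fun ω => (Y ω, Z ω)) (Y ω, Z ω) / Pr p Z (Z ω)) with hr
  have hpos : ∀ ω, 0 < p ω → 0 < r ω := by
    intro ω h0
    exact div_pos (div_pos (Pr_pos hq _ (hac ω h0)) (Pr_pos hq _ (hac ω h0)))
      (div_pos (Pr_pos hp (fun ω => (Y ω, Z ω)) h0) (Pr_pos hp Z h0))
  have h1 : ∑ ω, p ω * r ω ≤ 1 := by
    set g : α × β → ℝ := fun t => Pr q (fun ω => (Y ω, Z ω)) t / Pr q Z t.2 * Pr p Z t.2 with hg
    have h2 : ∑ ω, p ω * r ω = ∑ ω, p ω * (g (Y ω, Z ω) / Pr p (fun ω => (Y ω, Z ω)) (Y ω, Z ω)) := by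
      refine sum_congr rfl fun ω _ => ?_
      rcases (hp.nonneg ω).eq_or_lt with h0 | h0
      · rw [← h0]; ring
      · have h1 := Pr_pos hp (fun ω => (Y ω, Z ω)) h0
        have h2 := Pr_pos hp Z h0
        have h3 := Pr_pos hq (fun ω => (Y ω, Z ω)) (hac ω h0)
        have h4 := Pr_pos hq Z (hac ω h0)
        simp only [hr, hg]
        field_simp
    rw [h2]
    refine (sum_div_Pr_le (fun ω => (Y ω, Z ω)) g ?_).trans ?_
    · intro t _
      exact mul_nonneg (div_nonneg (Pr_nonneg hq _ _) (Pr_nonneg hq _ _)) (Pr_nonneg hp _ _)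
    · calc ∑ t ∈ univ.image (fun ω => (Y ω, Z ω)), g t
          ≤ ∑ t ∈ univ.image Y ×ˢ univ.image Z, g t := by
            refine sum_le_sum_of_subset_of_nonneg ?_ fun t _ _ =>
              mul_nonneg (div_nonneg (Pr_nonneg hq _ _) (Pr_nonneg hq _ _)) (Pr_nonneg hp _ _)
            intro t ht
            obtain ⟨ω, -, rfl⟩ := mem_image.mp ht
            exact mem_product.mpr ⟨mem_image_of_mem _ (mem_univ _), mem_image_of_mem _ (mem_univ _)⟩
        _ = ∑ z ∈ univ.image Z, ∑ y ∈ univ.image Y, g (y, z) := by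
            rw [sum_product, sum_comm]
        _ ≤ ∑ z ∈ univ.image Z, Pr p Z z := by
            refine sum_le_sum fun z _ => ?_
            simp only [hg]
            rw [← sum_mul, ← sum_div, sum_Pr_pair q Y Z z]
            rcases eq_or_ne (Pr q Z z) 0 with h | h
            · rw [h]; simp [Pr_nonneg hp Z z]
            · rw [div_self h, one_mul]
        _ = 1 := sum_Pr hp Z
  have h2 := sum_neg_log_nonneg hp r hpos h1
  have h3 : ∑ ω, p ω * log (r ω) = - ∑ ω, p ω * log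
      ((Pr p (fun ω => (Y ω, Z ω)) (Y ω, Z ω) / Pr p Z (Z ω)) /
        (Pr q (fun ω => (Y ω, Z ω)) (Y ω, Z ω) / Pr q Z (Z ω))) := by
    rw [← sum_neg_distrib]
    refine sum_congr rfl fun ω _ => ?_
    rw [← mul_neg, ← log_inv]
    congr 2
    simp only [hr]
    rw [inv_div]
  linarith

lemma KL_const (hp : IsProb p) (hq : IsProb q) (c : α) : KL p q (fun _ : Ω => c) = 0 := by
  unfold KL
  refine sum_eq_zero fun ω _ => ?_
  have h1 : Pr p (fun _ : Ω => c) c = 1 := by unfold Pr; simp [hp.sum]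
  have h2 : Pr q (fun _ : Ω => c) c = 1 := by unfold Pr; simp [hq.sum]
  rw [h1, h2]; simp

theorem KL_nonneg (hp : IsProb p) (hq : IsProb q) (hac : AC p q) (Y : Ω → α) : 0 ≤ KL p q Y := by
  have h := KLc_nonneg hp hq hac Y (fun _ => ())
  rw [KLc_eq (det_const Y ()), KL_const hp hq] at h
  linarith

/-- data processing -/
theorem KL_mono (hp : IsProb p) (hq : IsProb q) (hac : AC p q) (h : Det X Y) :
    KL p q Y ≤ KL p q X := by
  have h1 := KLc_nonneg hp hq hac X Y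
  rw [KLc_eq h] at h1
  linarith

/-- chain rule -/
lemma KLc_pair (X : Ω → α) (Y : Ω → β) (Z : Ω → γ) :
    KLc p q (fun ω => (X ω, Y ω)) Z = KLc p q Y Z + KLc p q X (fun ω => (Y ω, Z ω)) := by
  unfold KLc
  have : KL p q (fun ω => ((X ω, Y ω), Z ω)) = KL p q (fun ω => (X ω, (Y ω, Z ω))) := by
    refine KL_congr ?_ ?_
    · exact ((det_fst _ _).trans (det_fst X Y)).pair
        (((det_fst _ _).trans (det_snd X Y)).pair (det_snd _ _))
    · exact ((det_fst _ _).pair ((det_snd _ _).trans (det_fst Y Z))).pair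
        ((det_snd _ _).trans (det_snd Y Z))
  rw [this]; ring

lemma KLc_mono_left (hp : IsProb p) (hq : IsProb q) (hac : AC p q) (Z : Ω → γ) (h : Det X Y) :
    KLc p q Y Z ≤ KLc p q X Z := by
  have h1 := KLc_pair (p := p) (q := q) X Y Z
  have h2 := KLc_nonneg hp hq hac X (fun ω => (Y ω, Z ω))
  have h3 : KLc p q (fun ω => (X ω, Y ω)) Z = KLc p q X Z :=
    KLc_congr (det_fst X Y) ((Det.refl X).pair h) (Det.refl Z) (Det.refl Z)
  linarith

/-- telescoping along a filtration -/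
theorem sum_KLc_filtration {ρ : ℕ → Type*} (R : ∀ j, Ω → ρ j)
    (h : ∀ j, Det (R (j + 1)) (R j)) (n : ℕ) :
    ∑ j ∈ range n, KLc p q (R (j + 1)) (R j) = KL p q (R n) - KL p q (R 0) := by
  induction n with
  | zero => simp
  | succ n ih => rw [sum_range_succ, ih, KLc_eq (h n)]; ring

end kl

end Vale.Agent.P065.H700
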