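import Vale.Agent.P065.H154.Frame

/-!
# P065, package SGIANT, geometry (helper700)

Normalised coordinates in one time cell of level `t` with left end `lend`: `xi` is the position of
the time, `Hh` the height of the line at the left end. `Lc` are the cells of lines with their own
offset `w`, nested in the slope scale `k`.
-/

set_option autoImplicit false

open Finset Real

noncomputable section

namespace Vale.Agent.P065.H700.SG

open Vale.Agent.P065.UB Vale.Agent.P065.Ent Vale.Agent.P065.H154 Vale.Agent.P065.H725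

/-- close to a multiple of `G` -/
def Nb (G z : ℝ) : Prop := ∃ m : ℤ, |z - m * G| < 5

lemma floor_eq_of {G z z' : ℝ} (hG : 0 < G) (h : ¬ Nb G z) (hz : |z' - z| < 5) :
    ⌊z' / G⌋ = ⌊z / G⌋ := by
  set m := ⌊z / G⌋ with hm
  have h1 : (m : ℝ) ≤ z / G := Int.floor_le _
  have h2 : z / G < m + 1 := Int.lt_floor_add_one _
  rw [le_div_iff₀ hG] at h1
  rw [div_lt_iff₀ hG] at h2
  have h3 : 5 ≤ |z - m * G| := by
    by_contra hc
    exact h ⟨m, not_le.1 hc⟩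
  have h4 : 5 ≤ |z - ((m + 1 : ℤ) : ℝ) * G| := by
    by_contra hc
    exact h ⟨m + 1, not_le.1 hc⟩
  push_cast at h4
  rw [abs_of_nonneg (by linarith)] at h3
  rw [abs_of_neg (by linarith)] at h4
  rw [Int.floor_eq_iff, le_div_iff₀ hG, div_lt_iff₀ hG]
  have h5 := abs_lt.1 hz
  constructor <;> linarith

/-- points with the same floor are close -/
lemma close_of_floor {G z z' : ℝ} (hG : 0 < G) (h : ⌊z' / G⌋ = ⌊z / G⌋) : |z' - z| < G := by
  have h1 := Int.floor_le (z / G)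
  have h2 := Int.lt_floor_add_one (z / G)
  have h3 := Int.floor_le (z' / G)
  have h4 := Int.lt_floor_add_one (z' / G)
  rw [h] at h3 h4
  rw [le_div_iff₀ hG] at h1 h3
  rw [div_lt_iff₀ hG] at h2 h4
  rw [abs_lt]
  constructor <;> nlinarith

/-- the left end of the time cell `d` of level `t` -/
def lend (u : ℝ) (t : ℕ) (d : ℤ) : ℝ := d / 2 ^ t - u

section frame

variable {Ω : Type*} (F : Fr Ω) (ln : Ω → Pt) {p : Prm} (c : p.Col) (u : ℝ) (t : ℕ)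

/-- position in the time cell -/
def xi (ω : Ω) : ℝ := 2 ^ t * (F.P.x ω + u) - F.D u t ω

/-- normalised height at the left end of the time cell -/
def Hh (ω : Ω) : ℝ := 2 ^ t * Prm.h c (lend u t (F.D u t ω)) (ln ω)

/-- plain height at the left end with the offset `w`, in units of `2 ^ (- t - k)` -/
def zL (w : ℝ) (k : ℤ) (ω : Ω) : ℝ := 2 ^ t * (2 ^ k * (- ht (lend u t (F.D u t ω)) (ln ω) + w))

/-- cells of lines -/
def Lc (k₀ : ℤ) (a : Bool) (γ : ℕ) (w : ℝ) (k : ℤ) (ω : Ω) : ℤ × ℤ × ℤ :=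
  (F.D u t ω, Sc k₀ a k (ln ω), ⌊zL F ln u t w k ω / 2 ^ γ⌋)

variable {F ln c u t}

lemma xi_nonneg (ω : Ω) : 0 ≤ xi F u t ω := by
  unfold xi Fr.D
  have := Int.floor_le ((2 : ℝ) ^ t * (F.P.x ω + u))
  linarith

lemma xi_lt_one (ω : Ω) : xi F u t ω < 1 := by
  unfold xi Fr.D
  have := Int.lt_floor_add_one ((2 : ℝ) ^ t * (F.P.x ω + u))
  linarith

lemma two_pow_ne (t : ℕ) : (2 : ℝ) ^ t ≠ 0 := by positivity

/-- height at the time of the flag -/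
lemma Z_eq (ω : Ω) : 2 ^ t * Prm.h c (F.P.x ω) (ln ω) =
    Hh F ln c u t ω + xi F u t ω * Prm.f c.1 (ln ω) := by
  have h := Prm.h_sub c (lend u t (F.D u t ω)) (F.P.x ω) (ln ω)
  have e : (2 : ℝ) ^ t * (F.P.x ω - lend u t (F.D u t ω)) = xi F u t ω := by
    unfold xi lend
    field_simp
    ring
  unfold Hh
  rw [← e]
  linear_combination (2 : ℝ) ^ t * h

/-- plain and relative heights -/
lemma zL_sub {w : ℝ} {ω ω' : Ω} (hD : F.D u t ω' = F.D u t ω)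
    (hS : Prm.S c.1 (ln ω') = Prm.S c.1 (ln ω)) :
    zL F ln u t w (Prm.sc c.1) ω' - zL F ln u t w (Prm.sc c.1) ω =
      Hh F ln c u t ω' - Hh F ln c u t ω := by
  unfold zL Hh Prm.h
  have e1 := hl_eq p.k₀ (Prm.sy c.1) (Prm.sc c.1) (lend u t (F.D u t ω)) (ln ω')
  have e2 := hl_eq p.k₀ (Prm.sy c.1) (Prm.sc c.1) (lend u t (F.D u t ω)) (ln ω)
  unfold Prm.S at hS
  rw [hS] at e1
  rw [hD, e1, e2]
  ring

lemma zL_add (w : ℝ) (k : ℤ) (m : ℕ) (ω : Ω) :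
    zL F ln u t w (k + m) ω = 2 ^ m * zL F ln u t w k ω := by
  unfold zL
  rw [zpow_add₀ (by norm_num), zpow_natCast]
  ring

lemma Lc_nest {k₀ : ℤ} {a : Bool} {γ : ℕ} {w : ℝ} {k k' : ℤ} (hk : k ≤ k') {ω ω' : Ω}
    (h : Lc F ln u t k₀ a γ w k' ω = Lc F ln u t k₀ a γ w k' ω') :
    Lc F ln u t k₀ a γ w k ω = Lc F ln u t k₀ a γ w k ω' := by
  have key : ∀ (k : ℤ) (ω : Ω), ⌊zL F ln u t w k ω / 2 ^ γ⌋ =
      dy 0 k (2 ^ t * (- ht (lend u t (F.D u t ω)) (ln ω) + w) / 2 ^ γ) := by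
    intro k ω
    unfold dy zL
    congr 1
    ring
  unfold Lc at h ⊢
  simp only [Prod.mk.injEq] at h ⊢
  obtain ⟨h1, h2, h3⟩ := h
  refine ⟨h1, Sc_nest hk h2, ?_⟩
  rw [key, key] at h3 ⊢
  exact dy_nest hk h3

lemma Lc_D {k₀ : ℤ} {a : Bool} {γ : ℕ} {w : ℝ} {k : ℤ} {ω ω' : Ω}
    (h : Lc F ln u t k₀ a γ w k ω = Lc F ln u t k₀ a γ w k ω') : F.D u t ω = F.D u t ω' := by
  unfold Lc at h
  simp only [Prod.mk.injEq] at h
  exact h.1

/-- a cell of lines depends on the time cell and the line only -/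
lemma Lc_of_ln {k₀ : ℤ} {a : Bool} {γ : ℕ} {w : ℝ} {k : ℤ} {ω ω' : Ω}
    (hD : F.D u t ω = F.D u t ω') (hl : ln ω = ln ω') :
    Lc F ln u t k₀ a γ w k ω = Lc F ln u t k₀ a γ w k ω' := by
  unfold Lc zL
  rw [hD, hl]

/-- differences of slopes -/
lemma f_sub {ω ω' : Ω} (hS : Prm.S c.1 (ln ω') = Prm.S c.1 (ln ω)) :
    Prm.f c.1 (ln ω') - Prm.f c.1 (ln ω) = 2 ^ (Prm.sc c.1) * ((ln ω').1 - (ln ω).1) := by
  have h1 := Sc_add_fs p.k₀ (Prm.sy c.1) (Prm.sc c.1) (ln ω)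
  have h2 := Sc_add_fs p.k₀ (Prm.sy c.1) (Prm.sc c.1) (ln ω')
  unfold Prm.S at hS
  rw [hS] at h2
  unfold Prm.f
  linear_combination h2 - h1

variable {Lab : Type*} {lam : Ω → Lab}

/-- what the fine box gives -/
lemma of_rho {ω ω' : Ω} (h : rho F ln p lam c ω' = rho F ln p lam c ω) :
    F.P.x ω' = F.P.x ω ∧ F.T' ω' = F.T' ω ∧ Prm.S c.1 (ln ω') = Prm.S c.1 (ln ω) ∧
      |2 ^ F.T' ω * Prm.h c (F.P.x ω) (ln ω') - 2 ^ F.T' ω * Prm.h c (F.P.x ω) (ln ω)| < 1 := by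
  unfold rho at h
  simp only [Prod.mk.injEq] at h
  obtain ⟨⟨h1, -⟩, h2, h3⟩ := h
  have hx := F.xW _ _ h1
  have hT := F.T'x _ _ hx
  refine ⟨hx, hT, h2, ?_⟩
  unfold Nr Prm.N at h3
  rw [hx, hT] at h3
  have h4 := close_of_floor (G := 2 ^ 0) (by norm_num) h3
  simpa using h4

/-- the heights of two lines of a fine box at the left end of the time cell -/
lemma rho_close {ω ω' : Ω} (h : rho F ln p lam c ω' = rho F ln p lam c ω) (ht : t ≤ F.T' ω) :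
    |(Hh F ln c u t ω' - Hh F ln c u t ω) +
      xi F u t ω * (Prm.f c.1 (ln ω') - Prm.f c.1 (ln ω))| < 1 / 2 ^ (F.T' ω - t) := by
  obtain ⟨hx, hT, hS, h1⟩ := of_rho h
  have e1 := Z_eq (F := F) (ln := ln) (c := c) (u := u) (t := t) ω
  have e2 := Z_eq (F := F) (ln := ln) (c := c) (u := u) (t := t) ω'
  have e3 : xi F u t ω' = xi F u t ω := by
    unfold xi Fr.D
    rw [hx]
  rw [hx, e3] at e2
  have e4 : (Hh F ln c u t ω' - Hh F ln c u t ω) +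
      xi F u t ω * (Prm.f c.1 (ln ω') - Prm.f c.1 (ln ω)) =
      2 ^ t * (Prm.h c (F.P.x ω) (ln ω') - Prm.h c (F.P.x ω) (ln ω)) := by
    linear_combination e1 - e2
  rw [e4]
  have e5 : (2 : ℝ) ^ F.T' ω = 2 ^ (F.T' ω - t) * 2 ^ t := by
    rw [← pow_add, Nat.sub_add_cancel ht]
  rw [← mul_sub, e5, mul_assoc, abs_mul, abs_of_pos (by positivity)] at h1
  rw [lt_div_iff₀ (by positivity), mul_comm]
  exact h1

/-- **the lines of a fine box are in one cell of lines** -/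
lemma Lc_of_rho {γ : ℕ} {w : ℝ} {ω ω' : Ω} (h : rho F ln p lam c ω' = rho F ln p lam c ω)
    (ht : t ≤ F.T' ω) (hn : ¬ Nb (2 ^ γ) (zL F ln u t w (Prm.sc c.1) ω)) :
    Lc F ln u t p.k₀ (Prm.sy c.1) γ w (Prm.sc c.1) ω' =
      Lc F ln u t p.k₀ (Prm.sy c.1) γ w (Prm.sc c.1) ω := by
  obtain ⟨hx, hT, hS, -⟩ := of_rho h
  have hD : F.D u t ω' = F.D u t ω := F.D_of_x hx
  have h1 := rho_close (u := u) h ht
  have h2 : (1 : ℝ) / 2 ^ (F.T' ω - t) ≤ 1 := by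
    rw [div_le_one (by positivity)]
    exact one_le_pow₀ (by norm_num)
  have f0 := Prm.f_nonneg c.1 (ln ω)
  have f1 := Prm.f_lt_one c.1 (ln ω)
  have f0' := Prm.f_nonneg c.1 (ln ω')
  have f1' := Prm.f_lt_one c.1 (ln ω')
  have x0 := xi_nonneg (F := F) (u := u) (t := t) ω
  have x1 := xi_lt_one (F := F) (u := u) (t := t) ω
  have h3 : |xi F u t ω * (Prm.f c.1 (ln ω') - Prm.f c.1 (ln ω))| ≤ 1 := by
    rw [abs_mul, abs_of_nonneg x0]
    have : |Prm.f c.1 (ln ω') - Prm.f c.1 (ln ω)| ≤ 1 := by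
      rw [abs_le]
      constructor <;> linarith
    nlinarith [abs_nonneg (Prm.f c.1 (ln ω') - Prm.f c.1 (ln ω))]
  have h4 : |zL F ln u t w (Prm.sc c.1) ω' - zL F ln u t w (Prm.sc c.1) ω| < 5 := by
    rw [zL_sub hD hS]
    have h5 := abs_lt.1 h1
    have h6 := abs_le.1 h3
    rw [abs_lt]
    constructor <;> linarith
  unfold Lc
  simp only [Prod.mk.injEq]
  exact ⟨hD, hS, floor_eq_of (by positivity) hn h4⟩

/-- what a finer cell of lines gives -/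
lemma of_Lc {γ P' : ℕ} {w : ℝ} {ω ω' : Ω}
    (h : Lc F ln u t p.k₀ (Prm.sy c.1) γ w (Prm.sc c.1 + P') ω' =
      Lc F ln u t p.k₀ (Prm.sy c.1) γ w (Prm.sc c.1 + P') ω) :
    F.D u t ω' = F.D u t ω ∧ Prm.S c.1 (ln ω') = Prm.S c.1 (ln ω) ∧
      |Hh F ln c u t ω' - Hh F ln c u t ω| < 2 ^ γ / 2 ^ P' ∧
      |Prm.f c.1 (ln ω') - Prm.f c.1 (ln ω)| < 1 / 2 ^ P' := by
  have hD := Lc_D h
  unfold Lc at h
  simp only [Prod.mk.injEq] at h
  obtain ⟨-, h2, h3⟩ := h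
  have hS : Prm.S c.1 (ln ω') = Prm.S c.1 (ln ω) :=
    Sc_nest (k := Prm.sc c.1) (k' := Prm.sc c.1 + P') (by omega) h2
  have hp : (0 : ℝ) < 2 ^ P' := by positivity
  refine ⟨hD, hS, ?_, ?_⟩
  · have h4 := close_of_floor (G := 2 ^ γ) (by positivity) h3
    rw [zL_add, zL_add, ← mul_sub, zL_sub hD hS, abs_mul, abs_of_pos hp] at h4
    rw [lt_div_iff₀ hp, mul_comm]
    exact h4
  · rw [f_sub hS]
    unfold Sc dy at h2
    have h4 := close_of_floor (G := 1) one_pos (by simpa using h2)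
    rw [zpow_add₀ (by norm_num), zpow_natCast, ← sub_mul, ← mul_assoc, abs_mul,
      abs_of_pos hp] at h4
    rw [lt_div_iff₀ hp]
    have e : (2 : ℝ) ^ Prm.sc c.1 * ((ln ω').1 - (ln ω).1) =
        ((ln ω').1 - os p.k₀ (Prm.sy c.1) - ((ln ω).1 - os p.k₀ (Prm.sy c.1))) *
          2 ^ Prm.sc c.1 := by ring
    rw [e]
    exact h4

end frame

end Vale.Agent.P065.H700.SG
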