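import Vale.Agent.P065.H700.SGGeo2
import Vale.Agent.P065.H422.SGNeg

/-!
# P065, package SGIANT, the payments (helper700)

The fine boxes belong to the column `(κ, i)`, the boxes `Rt` to the column `(κ, i')` with an own
offset `i'`.
-/

set_option autoImplicit false

open Finset Real

noncomputable section

namespace Vale.Agent.P065.H700.SG

open Vale.Agent.P065.UB Vale.Agent.P065.Ent Vale.Agent.P065.H154 Vale.Agent.P065.H725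

section frame

variable {Ω : Type*} {F : Fr Ω} {ln : Ω → Pt} {p : Prm} {u : ℝ} {t : ℕ}
  {Lab : Type*} {lam : Ω → Lab}

lemma zL_of_ln {w : ℝ} {k : ℤ} {ω ω' : Ω} (hD : F.D u t ω' = F.D u t ω) (hl : ln ω' = ln ω) :
    zL F ln u t w k ω' = zL F ln u t w k ω := by
  unfold zL
  rw [hD, hl]

/-- differences of the heights do not depend on the offset -/
lemma Hh_off {κ : p.Kap} (i i' : Fin p.nT) {ω ω' : Ω} (hD : F.D u t ω' = F.D u t ω) :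
    Hh F ln ((κ, i') : p.Col) u t ω' - Hh F ln ((κ, i') : p.Col) u t ω =
      Hh F ln ((κ, i) : p.Col) u t ω' - Hh F ln ((κ, i) : p.Col) u t ω := by
  unfold Hh Prm.h
  rw [hD]
  ring

lemma rho_close_off {κ : p.Kap} {i : Fin p.nT} (i' : Fin p.nT) {ω ω' : Ω}
    (h : rho F ln p lam (κ, i) ω' = rho F ln p lam (κ, i) ω) (ht : t ≤ F.T' ω) :
    |(Hh F ln ((κ, i') : p.Col) u t ω' - Hh F ln ((κ, i') : p.Col) u t ω) +
      xi F u t ω * (Prm.f κ (ln ω') - Prm.f κ (ln ω))| < 1 / 2 ^ (F.T' ω - t) := by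
  have h1 := rho_close (c := ((κ, i) : p.Col)) (u := u) h ht
  have hD : F.D u t ω' = F.D u t ω := F.D_of_x (of_rho h).1
  rw [Hh_off i i' hD]
  exact h1

/-- **the flags of the tube of a majority flag are in its box** -/
theorem tube_Rt' {κ : p.Kap} {i i' : Fin p.nT} {γ P' : ℕ} {w : ℝ} {ω₁ ω₁' ω₃ : Ω} (hP : γ ≤ P')
    (h1 : rho F ln p lam (κ, i) ω₁' = rho F ln p lam (κ, i) ω₁)
    (hL : Lc F ln u t p.k₀ (Prm.sy κ) γ w (Prm.sc κ + P') ω₃ =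
      Lc F ln u t p.k₀ (Prm.sy κ) γ w (Prm.sc κ + P') ω₁')
    (ht : t ≤ F.T' ω₁) (hn : ¬ Nb (2 ^ γ) (Hh F ln ((κ, i') : p.Col) u t ω₁)) :
    Rt F ln p u γ t ((κ, i'), ω₃) = Rt F ln p u γ t ((κ, i'), ω₁) := by
  obtain ⟨hx, hT, hS, -⟩ := of_rho h1
  have hD1 : F.D u t ω₁' = F.D u t ω₁ := F.D_of_x hx
  have a1 := rho_close_off (u := u) i' h1 ht
  obtain ⟨hD3, hS3, c1, c2⟩ := of_Lc (c := ((κ, i') : p.Col)) hL
  have b1 : (1 : ℝ) / 2 ^ (F.T' ω₁ - t) ≤ 1 := by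
    rw [div_le_one (by positivity)]
    exact one_le_pow₀ (by norm_num)
  have b2 : (2 : ℝ) ^ γ / 2 ^ P' ≤ 1 := by
    rw [div_le_one (by positivity)]
    exact pow_le_pow_right₀ (by norm_num) hP
  have hDD := hD3.trans hD1
  have x0 := xi_nonneg (F := F) (u := u) (t := t) ω₁
  have x1 := xi_lt_one (F := F) (u := u) (t := t) ω₁
  have y0 := xi_nonneg (F := F) (u := u) (t := t) ω₃
  have y1 := xi_lt_one (F := F) (u := u) (t := t) ω₃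
  have f0 := Prm.f_nonneg κ (ln ω₁)
  have f1 := Prm.f_lt_one κ (ln ω₁)
  have f0' := Prm.f_nonneg κ (ln ω₁')
  have f1' := Prm.f_lt_one κ (ln ω₁')
  have f3 := Prm.f_nonneg κ (ln ω₃)
  have f3' := Prm.f_lt_one κ (ln ω₃)
  unfold Rt
  simp only [Prod.mk.injEq]
  refine ⟨trivial, hS3.trans hS, hDD, ?_⟩
  rw [Nf_eq_floor (u := u) (t := t) (ω := ω₁) (by omega),
    Nf_eq_floor (u := u) (t := t) (ω := ω₃) (le_T' hDD (by omega))]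
  have e1 : ⌊(Hh F ln ((κ, i') : p.Col) u t ω₁ + xi F u t ω₁ * Prm.f κ (ln ω₁)) / 2 ^ γ⌋ =
      ⌊Hh F ln ((κ, i') : p.Col) u t ω₁ / 2 ^ γ⌋ := by
    refine floor_eq_of (by positivity) hn ?_
    rw [add_sub_cancel_left, abs_of_nonneg (by positivity)]
    nlinarith
  have e3 : ⌊(Hh F ln ((κ, i') : p.Col) u t ω₃ + xi F u t ω₃ * Prm.f κ (ln ω₃)) / 2 ^ γ⌋ =
      ⌊Hh F ln ((κ, i') : p.Col) u t ω₁ / 2 ^ γ⌋ := by
    refine floor_eq_of (by positivity) hn ?_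
    have k1 := abs_lt.1 a1
    have k3 := abs_lt.1 c1
    have k4 : |xi F u t ω₁ * (Prm.f κ (ln ω₁') - Prm.f κ (ln ω₁))| ≤ 1 := by
      rw [abs_mul, abs_of_nonneg x0]
      have : |Prm.f κ (ln ω₁') - Prm.f κ (ln ω₁)| ≤ 1 := by
        rw [abs_le]
        constructor <;> linarith
      nlinarith [abs_nonneg (Prm.f κ (ln ω₁') - Prm.f κ (ln ω₁))]
    have k5 := abs_le.1 k4
    have k6 : 0 ≤ xi F u t ω₃ * Prm.f κ (ln ω₃) := by positivity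
    have k7 : xi F u t ω₃ * Prm.f κ (ln ω₃) ≤ 1 := by nlinarith
    rw [abs_lt]
    constructor <;> linarith
  exact e3.trans e1.symm

/-- **the tube leaves the small box of a flag of the line at some distance** -/
theorem tube_sep' {κ : p.Kap} {i i' : Fin p.nT} {γ P' P₁ s : ℕ} {w r₀ δ : ℝ} {ω₁ ω₁' ω₂ ω₃ : Ω}
    (hD : F.D u t ω₂ = F.D u t ω₁) (hl : ln ω₂ = ln ω₁)
    (h1 : rho F ln p lam (κ, i) ω₁' = rho F ln p lam (κ, i) ω₁)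
    (hr : 0 ≤ r₀) (hf : r₀ ≤ |Prm.f κ (ln ω₁') - Prm.f κ (ln ω₁)|)
    (hL : Lc F ln u t p.k₀ (Prm.sy κ) γ w (Prm.sc κ + P') ω₃ =
      Lc F ln u t p.k₀ (Prm.sy κ) γ w (Prm.sc κ + P') ω₁')
    (ht1 : t + P₁ ≤ F.T' ω₁) (ht2 : t + s ≤ F.T' ω₂)
    (hδ : δ ≤ |xi F u t ω₂ - xi F u t ω₁|)
    (hnum : 2 ^ γ / 2 ^ s + 2 ^ γ / 2 ^ P' + 1 / 2 ^ P₁ + 1 / 2 ^ s + 1 / 2 ^ P' ≤ r₀ * δ) :
    Rt F ln p u γ (t + s) ((κ, i'), ω₃) ≠ Rt F ln p u γ (t + s) ((κ, i'), ω₂) := by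
  intro hR
  obtain ⟨g1, -, g3⟩ := Z_close_of_Rt hR ht2
  obtain ⟨-, g4⟩ := xi_close g1
  have a1 := rho_close_off (u := u) (t := t) i' h1 (by omega)
  have b1 : (1 : ℝ) / 2 ^ (F.T' ω₁ - t) ≤ 1 / 2 ^ P₁ :=
    one_div_le_one_div_of_le (by positivity) (pow_le_pow_right₀ (by norm_num) (by omega))
  obtain ⟨-, -, c1, c2⟩ := of_Lc (c := ((κ, i') : p.Col)) hL
  rw [Hh_of_ln hD hl, hl] at g3
  have x0 := xi_nonneg (F := F) (u := u) (t := t) ω₂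
  have x1 := xi_lt_one (F := F) (u := u) (t := t) ω₂
  have f3 := Prm.f_nonneg κ (ln ω₃)
  have f3' := Prm.f_lt_one κ (ln ω₃)
  simp only at c2 g3
  set H := Hh F ln ((κ, i') : p.Col) u t ω₁
  set H1 := Hh F ln ((κ, i') : p.Col) u t ω₁'
  set H3 := Hh F ln ((κ, i') : p.Col) u t ω₃
  set f := Prm.f κ (ln ω₁)
  set f1 := Prm.f κ (ln ω₁')
  set f3v := Prm.f κ (ln ω₃)
  set x := xi F u t ω₁
  set y := xi F u t ω₂
  set z := xi F u t ω₃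
  have key : (y - x) * (f1 - f) = ((H3 + z * f3v) - (H + y * f)) - (H3 - H1) -
      ((H1 - H) + x * (f1 - f)) - (z - y) * f3v - y * (f3v - f1) := by ring
  have k1 : |(z - y) * f3v| ≤ 1 / 2 ^ s := by
    rw [abs_mul, abs_of_nonneg f3]
    nlinarith [abs_nonneg (z - y)]
  have k2 : |y * (f3v - f1)| ≤ 1 / 2 ^ P' := by
    rw [abs_mul, abs_of_nonneg x0]
    nlinarith [abs_nonneg (f3v - f1)]
  have k3 : |(y - x) * (f1 - f)| < 2 ^ γ / 2 ^ s + 2 ^ γ / 2 ^ P' + 1 / 2 ^ P₁ + 1 / 2 ^ s +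
      1 / 2 ^ P' := by
    rw [key]
    have m1 := abs_lt.1 g3
    have m2 := abs_lt.1 c1
    have m3 := abs_lt.1 a1
    have m4 := abs_le.1 k1
    have m5 := abs_le.1 k2
    rw [abs_lt]
    constructor <;> linarith
  rw [abs_mul] at k3
  have k4 : r₀ * δ ≤ |y - x| * |f1 - f| := by
    calc r₀ * δ ≤ r₀ * |y - x| := mul_le_mul_of_nonneg_left hδ hr
      _ = |y - x| * r₀ := mul_comm _ _
      _ ≤ |y - x| * |f1 - f| := mul_le_mul_of_nonneg_left hf (abs_nonneg _)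
  linarith

/-- a flag with a finer cell in its box -/
lemma Rt_coarse {c : p.Col} {γ s : ℕ} {ω ω' : Ω}
    (h : Rt F ln p u γ (t + s) (c, ω') = Rt F ln p u γ (t + s) (c, ω)) :
    Rt F ln p u γ t (c, ω') = Rt F ln p u γ t (c, ω) :=
  Rt_det_le u γ (Nat.le_add_right t s) _ _ h

end frame

section pay

variable {Ω : Type*} [Fintype Ω] {F : Fr Ω} {ln : Ω → Pt} {p : Prm} {u : ℝ} {t : ℕ}
  {Lab : Type*} {lam : Ω → Lab} {μ : Ω → ℝ}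

/-- a witness of the majority -/
def Wit (F : Fr Ω) (ln : Ω → Pt) (p : Prm) (lam : Ω → Lab) (μ : Ω → ℝ) (u : ℝ) (t γ P' : ℕ)
    (w r₀ : ℝ) (κ : p.Kap) (i : Fin p.nT) (ω ω' : Ω) : Prop :=
  rho F ln p lam (κ, i) ω' = rho F ln p lam (κ, i) ω ∧
    r₀ ≤ |Prm.f κ (ln ω') - Prm.f κ (ln ω)| ∧
    1 / 2 * Pr μ (Lc F ln u t p.k₀ (Prm.sy κ) γ w (Prm.sc κ))
      (Lc F ln u t p.k₀ (Prm.sy κ) γ w (Prm.sc κ) ω') <
      Pr μ (Lc F ln u t p.k₀ (Prm.sy κ) γ w (Prm.sc κ + P'))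
        (Lc F ln u t p.k₀ (Prm.sy κ) γ w (Prm.sc κ + P') ω')

/-- two heavy tubes of the same cell of lines are the same -/
lemma heavy_unique (hμ : IsProb μ) {α β : Type*} {T : Ω → α} {L : Ω → β} (hTL : Det T L)
    {ω₁ ω₂ : Ω} (hL : L ω₁ = L ω₂) (h1 : 1 / 2 * Pr μ L (L ω₁) < Pr μ T (T ω₁))
    (h2 : 1 / 2 * Pr μ L (L ω₂) < Pr μ T (T ω₂)) : T ω₁ = T ω₂ := by
  classical
  by_contra hne
  have h3 : Pr μ T (T ω₁) + Pr μ T (T ω₂) ≤ Pr μ L (L ω₁) := by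
    unfold Pr
    rw [← sum_add_distrib]
    refine sum_le_sum fun ω _ => ?_
    have h0 := hμ.nonneg ω
    by_cases c1 : T ω = T ω₁
    · have c2 : T ω ≠ T ω₂ := fun h => hne (c1.symm.trans h)
      have c3 : L ω = L ω₁ := hTL _ _ c1
      rw [if_pos c1, if_neg c2, if_pos c3]
      linarith
    · by_cases c2 : T ω = T ω₂
      · have c3 : L ω = L ω₁ := (hTL _ _ c2).trans hL.symm
        rw [if_neg c1, if_pos c2, if_pos c3]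
        linarith
      · rw [if_neg c1, if_neg c2]
        split_ifs <;> linarith
  rw [← hL] at h2
  linarith

/-- the box of a majority flag has at least half of the mass of its cell of lines -/
lemma half_L_le (hμ : IsProb μ) {κ : p.Kap} {i i' : Fin p.nT} {γ P' : ℕ} {w r₀ : ℝ} {ω₁ ω₁' : Ω}
    (hP : γ ≤ P') (hw : Wit F ln p lam μ u t γ P' w r₀ κ i ω₁ ω₁') (ht : t ≤ F.T' ω₁)
    (hR : ¬ Nb (2 ^ γ) (Hh F ln ((κ, i') : p.Col) u t ω₁))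
    (hL : ¬ Nb (2 ^ γ) (zL F ln u t w (Prm.sc κ) ω₁)) :
    1 / 2 * Pr μ (Lc F ln u t p.k₀ (Prm.sy κ) γ w (Prm.sc κ))
      (Lc F ln u t p.k₀ (Prm.sy κ) γ w (Prm.sc κ) ω₁) ≤
      Pr μ (fun ω => Rt F ln p u γ t ((κ, i'), ω)) (Rt F ln p u γ t ((κ, i'), ω₁)) := by
  classical
  obtain ⟨h1, h2, h3⟩ := hw
  have e : Lc F ln u t p.k₀ (Prm.sy κ) γ w (Prm.sc κ) ω₁' =
      Lc F ln u t p.k₀ (Prm.sy κ) γ w (Prm.sc κ) ω₁ :=
    Lc_of_rho (c := ((κ, i) : p.Col)) h1 ht hL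
  rw [e] at h3
  refine h3.le.trans ?_
  unfold Pr
  refine sum_le_sum fun ω _ => ?_
  have h0 := hμ.nonneg ω
  by_cases c1 : Lc F ln u t p.k₀ (Prm.sy κ) γ w (Prm.sc κ + P') ω =
      Lc F ln u t p.k₀ (Prm.sy κ) γ w (Prm.sc κ + P') ω₁'
  · have c2 := tube_Rt' (i' := i') hP h1 c1 ht hR
    rw [if_pos c1, if_pos c2]
  · rw [if_neg c1]
    split_ifs <;> linarith

/-- **large payment**: a majority flag outside the time cell of the typical flags -/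
theorem pay_big (hμ : IsProb μ) {κ : p.Kap} {i i' : Fin p.nT} {γ P' s : ℕ} {w r₀ τ₁ : ℝ}
    {x0 : Ω → ℤ} (hx0 : Det (F.D u t) x0) {ω₁ ω₁' : Ω} (hP : γ ≤ P') (hs : γ ≤ s)
    (hw : Wit F ln p lam μ u t γ P' w r₀ κ i ω₁ ω₁') (ht : t + s ≤ F.T' ω₁)
    (hR : ¬ Nb (2 ^ γ) (Hh F ln ((κ, i') : p.Col) u t ω₁))
    (hL : ¬ Nb (2 ^ γ) (zL F ln u t w (Prm.sc κ) ω₁)) (hτ : 0 ≤ τ₁)
    (hX : F.D u (t + s) ω₁ ≠ x0 ω₁)
    (hU : ms μ (fun ω => Lc F ln u t p.k₀ (Prm.sy κ) γ w (Prm.sc κ) ω =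
        Lc F ln u t p.k₀ (Prm.sy κ) γ w (Prm.sc κ) ω₁ ∧ F.D u (t + s) ω ≠ x0 ω) ≤
      τ₁ * Pr μ (Lc F ln u t p.k₀ (Prm.sy κ) γ w (Prm.sc κ))
        (Lc F ln u t p.k₀ (Prm.sy κ) γ w (Prm.sc κ) ω₁)) :
    Pr μ (fun ω => Rt F ln p u γ (t + s) ((κ, i'), ω)) (Rt F ln p u γ (t + s) ((κ, i'), ω₁)) ≤
      2 * τ₁ * Pr μ (fun ω => Rt F ln p u γ t ((κ, i'), ω)) (Rt F ln p u γ t ((κ, i'), ω₁)) := by
  classical
  have h1 := half_L_le (i' := i') hμ hP hw (by omega) hR hL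
  have h2 : Pr μ (fun ω => Rt F ln p u γ (t + s) ((κ, i'), ω))
      (Rt F ln p u γ (t + s) ((κ, i'), ω₁)) ≤
      ms μ (fun ω => Lc F ln u t p.k₀ (Prm.sy κ) γ w (Prm.sc κ) ω =
        Lc F ln u t p.k₀ (Prm.sy κ) γ w (Prm.sc κ) ω₁ ∧ F.D u (t + s) ω ≠ x0 ω) := by
    rw [← H422.ms_eq_Pr]
    refine ms_mono hμ fun ω _ h => ?_
    have e1 := Lc_of_Rt (c := ((κ, i') : p.Col)) hs h ht hL
    refine ⟨e1, ?_⟩
    have e2 : F.D u (t + s) ω = F.D u (t + s) ω₁ :=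
      Rt_D (F := F) (ln := ln) (p := p) u γ (t + s) _ _ h
    have e3 : x0 ω = x0 ω₁ := hx0 _ _ (F.D_det_le u (Nat.le_add_right t s) _ _ e2)
    rw [e2, e3]
    exact hX
  calc _ ≤ _ := h2
    _ ≤ _ := hU
    _ = 2 * τ₁ * (1 / 2 * Pr μ (Lc F ln u t p.k₀ (Prm.sy κ) γ w (Prm.sc κ))
        (Lc F ln u t p.k₀ (Prm.sy κ) γ w (Prm.sc κ) ω₁)) := by ring
    _ ≤ _ := mul_le_mul_of_nonneg_left h1 (by positivity)

/-- **small payment**: a flag of the line at some distance of a majority flag -/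
theorem pay_small (hμ : IsProb μ) {κ : p.Kap} {i i' : Fin p.nT} {γ P' P₁ s : ℕ} {w r₀ δ : ℝ}
    {ω₁ ω₁' ω₂ : Ω} (hP : γ ≤ P') (hs : γ ≤ s)
    (hw : Wit F ln p lam μ u t γ P' w r₀ κ i ω₁ ω₁')
    (hD : F.D u t ω₂ = F.D u t ω₁) (hl : ln ω₂ = ln ω₁) (hr : 0 ≤ r₀)
    (hR : ¬ Nb (2 ^ γ) (Hh F ln ((κ, i') : p.Col) u t ω₁))
    (hL : ¬ Nb (2 ^ γ) (zL F ln u t w (Prm.sc κ) ω₁))
    (ht1 : t + P₁ ≤ F.T' ω₁) (ht2 : t + s ≤ F.T' ω₂)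
    (hδ : δ ≤ |xi F u t ω₂ - xi F u t ω₁|)
    (hnum : 2 ^ γ / 2 ^ s + 2 ^ γ / 2 ^ P' + 1 / 2 ^ P₁ + 1 / 2 ^ s + 1 / 2 ^ P' ≤ r₀ * δ) :
    Pr μ (fun ω => Rt F ln p u γ (t + s) ((κ, i'), ω)) (Rt F ln p u γ (t + s) ((κ, i'), ω₂)) ≤
      3 / 4 * Pr μ (fun ω => Rt F ln p u γ t ((κ, i'), ω)) (Rt F ln p u γ t ((κ, i'), ω₂)) := by
  classical
  have hw' := hw
  obtain ⟨h1, h2, h3⟩ := hw'
  have eR : Rt F ln p u γ t ((κ, i'), ω₂) = Rt F ln p u γ t ((κ, i'), ω₁) :=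
    Rt_of_ln hD hl (by omega) hR
  have eL : Lc F ln u t p.k₀ (Prm.sy κ) γ w (Prm.sc κ) ω₁' =
      Lc F ln u t p.k₀ (Prm.sy κ) γ w (Prm.sc κ) ω₁ :=
    Lc_of_rho (c := ((κ, i) : p.Col)) h1 (by omega) hL
  have eL2 : Lc F ln u t p.k₀ (Prm.sy κ) γ w (Prm.sc κ) ω₂ =
      Lc F ln u t p.k₀ (Prm.sy κ) γ w (Prm.sc κ) ω₁ := Lc_of_ln hD hl
  have hL2 : ¬ Nb (2 ^ γ) (zL F ln u t w (Prm.sc κ) ω₂) := by
    rw [zL_of_ln hD hl]
    exact hL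
  -- the small box is inside the cell of lines
  have k1 : Pr μ (fun ω => Rt F ln p u γ (t + s) ((κ, i'), ω))
      (Rt F ln p u γ (t + s) ((κ, i'), ω₂)) ≤
      Pr μ (Lc F ln u t p.k₀ (Prm.sy κ) γ w (Prm.sc κ))
        (Lc F ln u t p.k₀ (Prm.sy κ) γ w (Prm.sc κ) ω₁) := by
    rw [← H422.ms_eq_Pr, ← H422.ms_eq_Pr]
    refine ms_mono hμ fun ω _ h => ?_
    exact (Lc_of_Rt (c := ((κ, i') : p.Col)) hs h ht2 hL2).trans eL2
  -- the small box and the tube are disjoint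
  have k2 : Pr μ (fun ω => Rt F ln p u γ (t + s) ((κ, i'), ω))
      (Rt F ln p u γ (t + s) ((κ, i'), ω₂)) +
      Pr μ (Lc F ln u t p.k₀ (Prm.sy κ) γ w (Prm.sc κ + P'))
        (Lc F ln u t p.k₀ (Prm.sy κ) γ w (Prm.sc κ + P') ω₁') ≤
      Pr μ (fun ω => Rt F ln p u γ t ((κ, i'), ω)) (Rt F ln p u γ t ((κ, i'), ω₂)) := by
    unfold Pr
    rw [← sum_add_distrib]
    refine sum_le_sum fun ω _ => ?_
    have h0 := hμ.nonneg ω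
    by_cases c1 : Rt F ln p u γ (t + s) ((κ, i'), ω) = Rt F ln p u γ (t + s) ((κ, i'), ω₂)
    · have c2 : ¬ Lc F ln u t p.k₀ (Prm.sy κ) γ w (Prm.sc κ + P') ω =
          Lc F ln u t p.k₀ (Prm.sy κ) γ w (Prm.sc κ + P') ω₁' := fun c2 =>
        tube_sep' (i' := i') hD hl h1 hr h2 c2 ht1 ht2 hδ hnum c1
      rw [if_pos c1, if_neg c2, if_pos (Rt_coarse c1)]
      linarith
    · by_cases c2 : Lc F ln u t p.k₀ (Prm.sy κ) γ w (Prm.sc κ + P') ω =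
          Lc F ln u t p.k₀ (Prm.sy κ) γ w (Prm.sc κ + P') ω₁'
      · have c3 := (tube_Rt' (i' := i') hP h1 c2 (by omega) hR).trans eR.symm
        rw [if_neg c1, if_pos c2, if_pos c3]
        linarith
      · rw [if_neg c1, if_neg c2]
        split_ifs <;> linarith
  rw [eL] at h3
  have h0 := Pr_nonneg hμ (fun ω => Rt F ln p u γ t ((κ, i'), ω)) (Rt F ln p u γ t ((κ, i'), ω₂))
  linarith

end pay

end Vale.Agent.P065.H700.SG
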