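import Vale.Agent.P065.H700.SGPay
import Vale.Agent.P065.H268.TimeAv

/-!
# P065, package SGIANT, the trichotomy of the cells of one level (helper700)

Outside of the exceptional cells either all flags which are not negligible are on one side, or on
one side they all pay a lot and on the other side they all pay a little.
-/

set_option autoImplicit false

open Finset Real

noncomputable section

namespace Vale.Agent.P065.H700.SG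

open Vale.Agent.P065.UB Vale.Agent.P065.Ent Vale.Agent.P065.H154 Vale.Agent.P065.H725

section defs

variable {Ω : Type*} (F : Fr Ω) (ln : Ω → Pt) (p : Prm)

/-- the slopes are far -/
def far (r₀ : ℝ) (κ : p.Kap) (ω ω' : Ω) : Prop := r₀ ≤ |Prm.f κ (ln ω') - Prm.f κ (ln ω)|

/-- close to a boundary of the cells of lines -/
def NL (u : ℝ) (γ : ℕ) (v : ℝ) (t : ℕ) (a : p.Col × Ω) : Prop :=
  Nb (2 ^ γ) (zL F ln u t v (Prm.sc a.1.1) a.2)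

/-- close to a row boundary -/
def NR (u : ℝ) (γ : ℕ) (t : ℕ) (a : p.Col × Ω) : Prop := Nb (2 ^ γ) (Hh F ln a.1 u t a.2)

/-- late levels -/
def LateC (P₁ : ℕ) (t : ℕ) (a : p.Col × Ω) : Prop := t < F.T' a.2 ∧ F.T' a.2 < t + P₁

/-- exceptional cells -/
def ExcC (u : ℝ) (γ g₀ : ℕ) (v : ℝ) (t : ℕ) (a : p.Col × Ω) : Prop :=
  NR F ln p u γ t a ∨ NL F ln p u γ v t a ∨ H268.nearU u g₀ t (F.P.x a.2)

variable {Lab : Type*} (lam : Ω → Lab) [Fintype Ω] (μ : Ω → ℝ)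

/-- the majority of the far flags of the fine box is in heavy tubes -/
def MajC (u : ℝ) (γ P' : ℕ) (v r₀ : ℝ) (t : ℕ) (a : p.Col × Ω) : Prop :=
  H422.Maj μ (Lc F ln u t p.k₀ (Prm.sy a.1.1) γ v) P' (fun _ => rho F ln p lam a.1)
    (fun _ => far ln p r₀ a.1.1) (Prm.sc a.1.1) a.2

/-- the flag or its cell of lines is not typical in time -/
def UnC (u : ℝ) (γ : ℕ) (v : ℝ) (s : ℕ) (x0 : ℕ → Ω → ℤ) (τ₁ : ℝ) (t : ℕ) (a : p.Col × Ω) : Prop :=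
  H422.Un μ (Lc F ln u t p.k₀ (Prm.sy a.1.1) γ v) (F.D u (t + s)) (x0 t) τ₁ (Prm.sc a.1.1) a.2

/-- negligible flags -/
def Neg0 (u : ℝ) (γ P' P₁ : ℕ) (v r₀ : ℝ) (s : ℕ) (x0 : ℕ → Ω → ℤ) (τ₁ : ℝ) (t : ℕ)
    (a : p.Col × Ω) : Prop :=
  t + P₁ ≤ F.T' a.2 ∧ ¬ NL F ln p u γ v t a ∧ ¬ MajC F ln p lam μ u γ P' v r₀ t a ∧
    UnC F ln p μ u γ v s x0 τ₁ t a

/-- large payments -/
def BigC (u : ℝ) (γ s : ℕ) (τ₁ : ℝ) (t : ℕ) (a : p.Col × Ω) : Prop :=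
  Pr μ (fun ω => Rt F ln p u γ (t + s) (a.1, ω)) (Rt F ln p u γ (t + s) a) ≤
    2 * τ₁ * Pr μ (fun ω => Rt F ln p u γ t (a.1, ω)) (Rt F ln p u γ t a)

/-- small payments -/
def SmallC (u : ℝ) (γ s : ℕ) (t : ℕ) (a : p.Col × Ω) : Prop :=
  Pr μ (fun ω => Rt F ln p u γ (t + s) (a.1, ω)) (Rt F ln p u γ (t + s) a) ≤
    3 / 4 * Pr μ (fun ω => Rt F ln p u γ t (a.1, ω)) (Rt F ln p u γ t a)

end defs

section aux

variable {Ω : Type*} {F : Fr Ω} {u : ℝ} {t : ℕ}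

/-- the two halves -/
lemma D_succ (ω : Ω) : F.D u t ω = F.D u (t + 1) ω / 2 := H268.cellU_nest u t (F.P.x ω)

/-- the position of a flag which is not close to the cut -/
lemma xi_not_near {g₀ : ℕ} (hg : 1 ≤ g₀) {ω : Ω} (hn : ¬ H268.nearU u g₀ t (F.P.x ω)) :
    xi F u t ω < 1 / 2 - 1 / 2 ^ g₀ ∨ 1 / 2 + 1 / 2 ^ g₀ ≤ xi F u t ω := by
  by_contra hc
  push Not at hc
  obtain ⟨h1, h2⟩ := hc
  apply hn
  obtain ⟨n, rfl⟩ : ∃ n, g₀ = n + 1 := ⟨g₀ - 1, by omega⟩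
  have hp : (0 : ℝ) < 2 ^ n := by positivity
  have e2 : (2 : ℝ) ^ (n + 1) = 2 * 2 ^ n := by rw [pow_succ]; ring
  have k1 : (2 : ℝ) ^ n - 1 ≤ 2 ^ (n + 1) * xi F u t ω := by
    rw [e2] at h1 ⊢
    have h3 := mul_le_mul_of_nonneg_left h1 (by positivity : (0 : ℝ) ≤ 2 * 2 ^ n)
    have e3 : 2 * (2 : ℝ) ^ n * (1 / 2 - 1 / (2 * 2 ^ n)) = 2 ^ n - 1 := by field_simp
    rw [e3] at h3
    exact h3
  have k2 : 2 ^ (n + 1) * xi F u t ω < (2 : ℝ) ^ n + 1 := by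
    rw [e2] at h2 ⊢
    have h3 := mul_lt_mul_of_pos_left h2 (by positivity : (0 : ℝ) < 2 * 2 ^ n)
    have e3 : 2 * (2 : ℝ) ^ n * (1 / 2 + 1 / (2 * 2 ^ n)) = 2 ^ n + 1 := by field_simp
    rw [e3] at h3
    exact h3
  have e4 : H268.cellU u (t + (n + 1)) (F.P.x ω) = 2 ^ (n + 1) * F.D u t ω +
      ⌊(2 : ℝ) ^ (n + 1) * xi F u t ω⌋ := by
    unfold H268.cellU
    rw [← Int.floor_intCast_add]
    congr 1
    unfold xi
    push_cast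
    rw [pow_add]
    ring
  have hnn : (1 : ℤ) ≤ 2 ^ n := one_le_pow₀ (by norm_num)
  have e5 : (2 : ℤ) ^ (n + 1) = 2 * 2 ^ n := by rw [pow_succ]; ring
  have k3 : (2 : ℤ) ^ n - 1 ≤ ⌊(2 : ℝ) ^ (n + 1) * xi F u t ω⌋ := by
    rw [Int.le_floor]
    push_cast
    exact k1
  have k4 : ⌊(2 : ℝ) ^ (n + 1) * xi F u t ω⌋ < (2 : ℤ) ^ n + 1 := by
    rw [Int.floor_lt]
    push_cast
    exact k2
  unfold H268.nearU
  rw [e4, add_comm, Int.add_mul_emod_self_left, Int.emod_eq_of_lt (by omega) (by omega)]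
  have e6 : n + 1 - 1 = n := by omega
  rw [e6]
  omega

lemma side_left {ω : Ω} (h : F.D u (t + 1) ω = 2 * F.D u t ω) : xi F u t ω < 1 / 2 := by
  have h1 := Int.lt_floor_add_one ((2 : ℝ) ^ (t + 1) * (F.P.x ω + u))
  have h2 : ((F.D u (t + 1) ω : ℤ) : ℝ) = 2 * F.D u t ω := by rw [h]; push_cast; ring
  unfold Fr.D at h2
  rw [h2, pow_succ] at h1
  unfold xi Fr.D
  linarith

lemma side_right {ω : Ω} (h : F.D u (t + 1) ω = 2 * F.D u t ω + 1) : 1 / 2 ≤ xi F u t ω := by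
  have h1 := Int.floor_le ((2 : ℝ) ^ (t + 1) * (F.P.x ω + u))
  have h2 : ((F.D u (t + 1) ω : ℤ) : ℝ) = 2 * F.D u t ω + 1 := by rw [h]; push_cast; ring
  unfold Fr.D at h2
  rw [h2, pow_succ] at h1
  unfold xi Fr.D
  linarith

lemma side_cases (ω : Ω) : F.D u (t + 1) ω = 2 * F.D u t ω ∨
    F.D u (t + 1) ω = 2 * F.D u t ω + 1 := by
  have h := D_succ (F := F) (u := u) (t := t) ω
  omega

/-- a flag which is not close to the cut is far from the other half -/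
lemma far_of_sides {g₀ : ℕ} (hg : 1 ≤ g₀) {ω ω' : Ω} (hD : F.D u t ω' = F.D u t ω)
    (hne : F.D u (t + 1) ω' ≠ F.D u (t + 1) ω) (hn : ¬ H268.nearU u g₀ t (F.P.x ω)) :
    1 / 2 ^ g₀ ≤ |xi F u t ω' - xi F u t ω| := by
  have h0 : (0 : ℝ) < 1 / 2 ^ g₀ := by positivity
  rcases side_cases (F := F) (u := u) (t := t) ω with h | h <;>
    rcases side_cases (F := F) (u := u) (t := t) ω' with h' | h'
  · exact absurd (by rw [h, h', hD]) hne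
  · have a1 := side_left h
    have a2 := side_right h'
    rw [abs_of_nonneg (by linarith)]
    rcases xi_not_near hg hn with h3 | h3 <;> linarith
  · have a1 := side_right h
    have a2 := side_left h'
    rw [abs_of_neg (by linarith)]
    rcases xi_not_near hg hn with h3 | h3 <;> linarith
  · exact absurd (by rw [h, h', hD]) hne

end aux

section tri

variable {Ω : Type*} [Fintype Ω] {F : Fr Ω} {ln : Ω → Pt} {p : Prm} {u : ℝ} {t : ℕ}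
  {Lab : Type*} {lam : Ω → Lab} {μ : Ω → ℝ}

/-- a witness of the majority -/
lemma exists_wit (hμ : IsProb μ) {γ P' : ℕ} {v r₀ : ℝ} {κ : p.Kap} {i : Fin p.nT} {ω : Ω}
    (h0 : 0 < μ ω)
    (hG : 1 / 2 * Pr μ (rho F ln p lam (κ, i)) (rho F ln p lam (κ, i) ω) ≤
      ms μ (fun ω' => rho F ln p lam (κ, i) ω' = rho F ln p lam (κ, i) ω ∧ far ln p r₀ κ ω ω'))
    (hM : MajC F ln p lam μ u γ P' v r₀ t ((κ, i), ω)) :
    ∃ ω', Wit F ln p lam μ u t γ P' v r₀ κ i ω ω' := by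
  unfold MajC H422.Maj at hM
  have h1 := Pr_pos hμ (rho F ln p lam (κ, i)) h0
  have h2 : 0 < ms μ (fun ω' => rho F ln p lam (κ, i) ω' = rho F ln p lam (κ, i) ω ∧
      far ln p r₀ κ ω ω' ∧
      ¬ H422.Hv μ (Lc F ln u t p.k₀ (Prm.sy κ) γ v) P' (Prm.sc κ) ω') := by
    refine lt_of_lt_of_le ?_ hM
    have h3 : 0 < 1 / 2 * ms μ (fun ω' => rho F ln p lam (κ, i) ω' = rho F ln p lam (κ, i) ω ∧
      far ln p r₀ κ ω ω') := by linarith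
    exact h3
  obtain ⟨ω', -, h3, h4, h5⟩ := ms_pos_iff h2
  refine ⟨ω', h3, h4, ?_⟩
  unfold H422.Hv at h5
  exact not_le.1 h5

/-- two majority flags of a line are close -/
lemma maj_maj (hμ : IsProb μ) {γ P' P₁ : ℕ} {v r₀ d : ℝ} {κ : p.Kap} {i : Fin p.nT}
    (hr : 0 < r₀) (hnum : 2 / 2 ^ P₁ + 2 ^ γ / 2 ^ P' + 1 / 2 ^ P' ≤ r₀ * d)
    {ω₁ ω₂ ω₁' ω₂' : Ω} (hD : F.D u t ω₂ = F.D u t ω₁) (hl : ln ω₂ = ln ω₁)
    (h1 : Wit F ln p lam μ u t γ P' v r₀ κ i ω₁ ω₁')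
    (h2 : Wit F ln p lam μ u t γ P' v r₀ κ i ω₂ ω₂')
    (hL : ¬ Nb (2 ^ γ) (zL F ln u t v (Prm.sc κ) ω₁))
    (ht1 : t + P₁ ≤ F.T' ω₁) (ht2 : t + P₁ ≤ F.T' ω₂) :
    |xi F u t ω₂ - xi F u t ω₁| ≤ d := by
  obtain ⟨a1, a2, a3⟩ := h1
  obtain ⟨b1, b2, b3⟩ := h2
  have e1 := Lc_of_rho (c := ((κ, i) : p.Col)) a1 (by omega) hL
  have hL2 : ¬ Nb (2 ^ γ) (zL F ln u t v (Prm.sc κ) ω₂) := by
    rw [zL_of_ln hD hl]
    exact hL
  have e2 := Lc_of_rho (c := ((κ, i) : p.Col)) b1 (by omega) hL2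
  have e3 : Lc F ln u t p.k₀ (Prm.sy κ) γ v (Prm.sc κ) ω₂ =
    Lc F ln u t p.k₀ (Prm.sy κ) γ v (Prm.sc κ) ω₁ := Lc_of_ln hD hl
  have e4 : Lc F ln u t p.k₀ (Prm.sy κ) γ v (Prm.sc κ) ω₂' =
    Lc F ln u t p.k₀ (Prm.sy κ) γ v (Prm.sc κ) ω₁' := e2.trans (e3.trans e1.symm)
  have hdet : Det (Lc F ln u t p.k₀ (Prm.sy κ) γ v (Prm.sc κ + P'))
      (Lc F ln u t p.k₀ (Prm.sy κ) γ v (Prm.sc κ)) := fun _ _ h => Lc_nest (by omega) h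
  have e5 := heavy_unique hμ hdet e4 b3 a3
  have h3 := maj_close (c := ((κ, i) : p.Col)) hD hl a1 b1 a2 e5 ht1 ht2
  have h4 : |xi F u t ω₂ - xi F u t ω₁| * r₀ ≤ d * r₀ := by
    refine h3.trans (hnum.trans (le_of_eq (mul_comm _ _)))
  exact le_of_mul_le_mul_right h4 hr

omit [Fintype Ω] in
/-- two flags whose typical time cells agree are close -/
lemma typ_close {s : ℕ} {x0 : Ω → ℤ} (hx0 : Det (F.D u t) x0) {ω ω' : Ω}
    (hD : F.D u t ω' = F.D u t ω) (h : F.D u (t + s) ω = x0 ω) (h' : F.D u (t + s) ω' = x0 ω') :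
    |xi F u t ω' - xi F u t ω| < 1 / 2 ^ s := by
  refine (xi_close (s := s) ?_).2
  rw [h, h']
  exact hx0 _ _ hD

/-- **the trichotomy** -/
theorem trichotomy {q : p.Col × Ω → ℝ} (hμ : IsProb μ) {x0 : ℕ → Ω → ℤ}
    (hx0 : ∀ t, Det (F.D u t) (x0 t)) {γ P' P₁ s g₀ : ℕ} {v r₀ τ₁ : ℝ} (hr : 0 < r₀)
    (hγs : γ ≤ s) (hγP : γ ≤ P') (hsP : s ≤ P₁) (hg : 1 ≤ g₀) (hgs : g₀ + 2 ≤ s)
    (hτ0 : 0 ≤ τ₁) (hτ1 : τ₁ ≤ 3 / 8)
    (n1 : 2 / 2 ^ P₁ + 2 ^ γ / 2 ^ P' + 1 / 2 ^ P' ≤ r₀ / 2 ^ (g₀ + 2))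
    (n2 : 2 ^ γ / 2 ^ s + 2 ^ γ / 2 ^ P' + 1 / 2 ^ P₁ + 1 / 2 ^ s + 1 / 2 ^ P' ≤
      r₀ / 2 ^ (g₀ + 1))
    (hq : ∀ a, 0 < q a → 0 < μ a.2 ∧
      1 / 2 * Pr μ (rho F ln p lam a.1) (rho F ln p lam a.1 a.2) ≤
        ms μ (fun ω' => rho F ln p lam a.1 ω' = rho F ln p lam a.1 a.2 ∧
          far ln p r₀ a.1.1 a.2 ω'))
    (t : ℕ) (a₀ : p.Col × Ω) (_h₀ : 0 < q a₀) :
    (∀ a, 0 < q a → F.D u t a.2 = F.D u t a₀.2 → (a.1, ln a.2) = (a₀.1, ln a₀.2) →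
      ExcC F ln p u γ g₀ v t a ∨
        (LateC F p P₁ t a ∨ Neg0 F ln p lam μ u γ P' P₁ v r₀ s x0 τ₁ t a)) ∨
    (∃ b, ∀ a, 0 < q a → F.D u t a.2 = F.D u t a₀.2 → (a.1, ln a.2) = (a₀.1, ln a₀.2) →
      F.D u (t + 1) a.2 ≠ b →
        (LateC F p P₁ t a ∨ Neg0 F ln p lam μ u γ P' P₁ v r₀ s x0 τ₁ t a)) ∨
    (∃ b b', (∀ a, 0 < q a → F.D u t a.2 = F.D u t a₀.2 → (a.1, ln a.2) = (a₀.1, ln a₀.2) →
        F.D u (t + 1) a.2 = b ∨ F.D u (t + 1) a.2 = b') ∧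
      (∀ a, 0 < q a → F.D u t a.2 = F.D u t a₀.2 → (a.1, ln a.2) = (a₀.1, ln a₀.2) →
        F.D u (t + 1) a.2 = b →
          (LateC F p P₁ t a ∨ Neg0 F ln p lam μ u γ P' P₁ v r₀ s x0 τ₁ t a) ∨
            BigC F ln p μ u γ s τ₁ t a) ∧
      (∀ a, 0 < q a → F.D u t a.2 = F.D u t a₀.2 → (a.1, ln a.2) = (a₀.1, ln a₀.2) →
        F.D u (t + 1) a.2 ≠ b →
          (LateC F p P₁ t a ∨ Neg0 F ln p lam μ u γ P' P₁ v r₀ s x0 τ₁ t a) ∨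
            SmallC F ln p μ u γ s t a)) := by
  obtain ⟨⟨κ, i⟩, ω₀⟩ := a₀
  -- flags of the cell
  set C : Ω → Prop := fun ω => 0 < q ((κ, i), ω) ∧ F.D u t ω = F.D u t ω₀ ∧ ln ω = ln ω₀ with hC
  have toC : ∀ a : p.Col × Ω, 0 < q a → F.D u t a.2 = F.D u t ω₀ →
      (a.1, ln a.2) = ((κ, i), ln ω₀) → ∃ ω, a = ((κ, i), ω) ∧ C ω := by
    rintro ⟨c, ω⟩ h1 h2 h3
    simp only [Prod.mk.injEq] at h3
    obtain ⟨rfl, h4⟩ := h3
    exact ⟨ω, rfl, h1, h2, h4⟩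
  have hx0t := hx0 t
  -- two flags of the cell
  have hDD : ∀ ω ω', C ω → C ω' → F.D u t ω' = F.D u t ω := fun ω ω' h h' =>
    h'.2.1.trans h.2.1.symm
  have hll : ∀ ω ω', C ω → C ω' → ln ω' = ln ω := fun ω ω' h h' => h'.2.2.trans h.2.2.symm
  by_cases hNR : NR F ln p u γ t ((κ, i), ω₀)
  · left
    intro a h1 h2 h3
    obtain ⟨ω, rfl, hω⟩ := toC a h1 h2 h3
    refine Or.inl (Or.inl ?_)
    unfold NR at hNR ⊢
    rw [Hh_of_ln hω.2.1 hω.2.2]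
    exact hNR
  by_cases hNL : NL F ln p u γ v t ((κ, i), ω₀)
  · left
    intro a h1 h2 h3
    obtain ⟨ω, rfl, hω⟩ := toC a h1 h2 h3
    refine Or.inl (Or.inr (Or.inl ?_))
    unfold NL at hNL ⊢
    rw [zL_of_ln hω.2.1 hω.2.2]
    exact hNL
  have hNR' : ∀ ω, C ω → ¬ Nb (2 ^ γ) (Hh F ln ((κ, i) : p.Col) u t ω) := by
    intro ω hω
    rw [Hh_of_ln hω.2.1 hω.2.2]
    exact hNR
  have hNL' : ∀ ω, C ω → ¬ Nb (2 ^ γ) (zL F ln u t v (Prm.sc κ) ω) := by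
    intro ω hω
    rw [zL_of_ln hω.2.1 hω.2.2]
    exact hNL
  by_cases hT : F.T' ω₀ ≤ t
  · -- only one centre
    right; left
    refine ⟨F.D u (t + 1) ω₀, fun a h1 h2 _ hne => ?_⟩
    have hx := F.x_eq_of_le h2.symm hT
    exact absurd (F.D_of_x hx.symm) hne
  push Not at hT
  have hTC : ∀ ω, C ω → t < F.T' ω := by
    intro ω hω
    by_contra hc
    push Not at hc
    have hx := F.x_eq_of_le hω.2.1 hc
    have := F.T'x _ _ hx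
    omega
  -- flags which are not negligible
  set Ng : Ω → Prop := fun ω => LateC F p P₁ t ((κ, i), ω) ∨
    Neg0 F ln p lam μ u γ P' P₁ v r₀ s x0 τ₁ t ((κ, i), ω) with hNg
  have hN : ∀ ω, C ω → ¬ Ng ω → t + P₁ ≤ F.T' ω ∧ (MajC F ln p lam μ u γ P' v r₀ t ((κ, i), ω) ∨
      ¬ UnC F ln p μ u γ v s x0 τ₁ t ((κ, i), ω)) := by
    intro ω hω hn
    have h1 : ¬ LateC F p P₁ t ((κ, i), ω) := fun h => hn (Or.inl h)
    have h2 : ¬ Neg0 F ln p lam μ u γ P' P₁ v r₀ s x0 τ₁ t ((κ, i), ω) := fun h => hn (Or.inr h)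
    have h3 : t + P₁ ≤ F.T' ω := by
      by_contra hc
      exact h1 ⟨hTC ω hω, not_le.1 hc⟩
    refine ⟨h3, ?_⟩
    by_contra hc
    push Not at hc
    exact h2 ⟨h3, hNL' ω hω, hc.1, hc.2⟩
  by_cases hside : ∃ b, ∀ ω, C ω → F.D u (t + 1) ω ≠ b → Ng ω
  · right; left
    obtain ⟨b, hb⟩ := hside
    refine ⟨b, fun a h1 h2 h3 hne => ?_⟩
    obtain ⟨ω, rfl, hω⟩ := toC a h1 h2 h3
    exact hb ω hω hne
  push Not at hside
  by_cases hnear : ∀ ω, C ω → ¬ Ng ω → H268.nearU u g₀ t (F.P.x ω)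
  · left
    intro a h1 h2 h3
    obtain ⟨ω, rfl, hω⟩ := toC a h1 h2 h3
    by_cases hn : Ng ω
    · exact Or.inr hn
    · exact Or.inl (Or.inr (Or.inr (hnear ω hω hn)))
  push Not at hnear
  obtain ⟨ω₁, hC1, hn1, hnr⟩ := hnear
  obtain ⟨ω₂, hC2, hne, hn2⟩ := hside (F.D u (t + 1) ω₁)
  have hfar := far_of_sides (F := F) hg (hDD ω₁ ω₂ hC1 hC2) hne hnr
  -- powers
  have p1 : (1 : ℝ) / 2 ^ (g₀ + 2) = 1 / 4 * (1 / 2 ^ g₀) := by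
    rw [pow_add]; field_simp; norm_num
  have p2 : (1 : ℝ) / 2 ^ (g₀ + 1) = 1 / 2 * (1 / 2 ^ g₀) := by
    rw [pow_add]; field_simp
  have p3 : (1 : ℝ) / 2 ^ s ≤ 1 / 2 ^ (g₀ + 2) :=
    one_div_le_one_div_of_le (by positivity) (pow_le_pow_right₀ (by norm_num) hgs)
  have p4 : (0 : ℝ) < 1 / 2 ^ g₀ := by positivity
  have n1' : 2 / 2 ^ P₁ + 2 ^ γ / 2 ^ P' + 1 / 2 ^ P' ≤ r₀ * (1 / 2 ^ (g₀ + 2)) := by
    rw [mul_one_div]; exact n1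
  have n2' : 2 ^ γ / 2 ^ s + 2 ^ γ / 2 ^ P' + 1 / 2 ^ P₁ + 1 / 2 ^ s + 1 / 2 ^ P' ≤
      r₀ * (1 / 2 ^ (g₀ + 1)) := by
    rw [mul_one_div]; exact n2
  -- two majority flags
  have hMM : ∀ ω ω', C ω → C ω' → t + P₁ ≤ F.T' ω → t + P₁ ≤ F.T' ω' →
      MajC F ln p lam μ u γ P' v r₀ t ((κ, i), ω) → MajC F ln p lam μ u γ P' v r₀ t ((κ, i), ω') →
      |xi F u t ω' - xi F u t ω| ≤ 1 / 2 ^ (g₀ + 2) := by
    intro ω ω' hω hω' h1 h2 h3 h4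
    obtain ⟨w1, hw1⟩ := exists_wit hμ (hq _ hω.1).1 (hq _ hω.1).2 h3
    obtain ⟨w2, hw2⟩ := exists_wit hμ (hq _ hω'.1).1 (hq _ hω'.1).2 h4
    exact maj_maj hμ hr n1' (hDD ω ω' hω hω') (hll ω ω' hω hω') hw1 hw2 (hNL' ω hω) h1 h2
  -- typical flags
  have hUX : ∀ ω, ¬ UnC F ln p μ u γ v s x0 τ₁ t ((κ, i), ω) → F.D u (t + s) ω = x0 t ω := by
    intro ω h
    unfold UnC H422.Un at h
    push Not at h
    exact h.1
  have hUU : ∀ ω ω', C ω → C ω' → F.D u (t + s) ω = x0 t ω → F.D u (t + s) ω' = x0 t ω' →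
      |xi F u t ω' - xi F u t ω| ≤ 1 / 2 ^ (g₀ + 2) := fun ω ω' h h' h1 h2 =>
    (typ_close hx0t (hDD ω ω' h h') h1 h2).le.trans p3
  -- a majority flag and a typical flag on different sides
  obtain ⟨ωm, ωu, hCm, hCu, hTm, hTu, hm, hu, hmu, hdist⟩ : ∃ ωm ωu, C ωm ∧ C ωu ∧
      t + P₁ ≤ F.T' ωm ∧ t + P₁ ≤ F.T' ωu ∧ MajC F ln p lam μ u γ P' v r₀ t ((κ, i), ωm) ∧
      ¬ UnC F ln p μ u γ v s x0 τ₁ t ((κ, i), ωu) ∧ F.D u (t + 1) ωm ≠ F.D u (t + 1) ωu ∧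
      1 / 2 ^ g₀ ≤ |xi F u t ωu - xi F u t ωm| := by
    obtain ⟨t1, c1⟩ := hN ω₁ hC1 hn1
    obtain ⟨t2, c2⟩ := hN ω₂ hC2 hn2
    rcases c1 with c1 | c1
    · rcases c2 with c2 | c2
      · have := hMM ω₁ ω₂ hC1 hC2 t1 t2 c1 c2
        rw [p1] at this
        linarith
      · exact ⟨ω₁, ω₂, hC1, hC2, t1, t2, c1, c2, hne.symm, hfar⟩
    · rcases c2 with c2 | c2
      · refine ⟨ω₂, ω₁, hC2, hC1, t2, t1, c2, c1, hne, ?_⟩
        rw [abs_sub_comm]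
        exact hfar
      · have := hUU ω₁ ω₂ hC1 hC2 (hUX ω₁ c1) (hUX ω₂ c2)
        rw [p1] at this
        linarith
  obtain ⟨wm, hwm⟩ := exists_wit hμ (hq _ hCm.1).1 (hq _ hCm.1).2 hm
  -- the majority flags pay a lot
  have hbig : ∀ ω, C ω → t + P₁ ≤ F.T' ω → MajC F ln p lam μ u γ P' v r₀ t ((κ, i), ω) →
      BigC F ln p μ u γ s τ₁ t ((κ, i), ω) := by
    intro ω hω hTω hMω
    have d1 := hMM ωm ω hCm hω hTm hTω hm hMω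
    have hX : F.D u (t + s) ω ≠ x0 t ω := by
      intro hX
      have d2 := hUU ω ωu hω hCu hX (hUX ωu hu)
      have d3 : |xi F u t ωu - xi F u t ωm| ≤ |xi F u t ωu - xi F u t ω| +
          |xi F u t ω - xi F u t ωm| := abs_sub_le _ _ _
      rw [p1] at d1 d2
      linarith
    obtain ⟨w1, hw1⟩ := exists_wit hμ (hq _ hω.1).1 (hq _ hω.1).2 hMω
    have hU : ms μ (fun ω' => Lc F ln u t p.k₀ (Prm.sy κ) γ v (Prm.sc κ) ω' =
        Lc F ln u t p.k₀ (Prm.sy κ) γ v (Prm.sc κ) ω ∧ F.D u (t + s) ω' ≠ x0 t ω') ≤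
        τ₁ * Pr μ (Lc F ln u t p.k₀ (Prm.sy κ) γ v (Prm.sc κ))
          (Lc F ln u t p.k₀ (Prm.sy κ) γ v (Prm.sc κ) ω) := by
      have e : Lc F ln u t p.k₀ (Prm.sy κ) γ v (Prm.sc κ) ω =
          Lc F ln u t p.k₀ (Prm.sy κ) γ v (Prm.sc κ) ωu :=
        Lc_of_ln (hDD ωu ω hCu hω) (hll ωu ω hCu hω)
      have hu' := hu
      unfold UnC H422.Un at hu'
      push Not at hu'
      rw [e]
      exact hu'.2.le
    exact pay_big (i' := i) hμ hx0t hγP hγs hw1 (by omega) (hNR' ω hω) (hNL' ω hω) hτ0 hX hU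
  -- the typical flags pay a little
  have hsmall : ∀ ω, C ω → t + P₁ ≤ F.T' ω → ¬ UnC F ln p μ u γ v s x0 τ₁ t ((κ, i), ω) →
      SmallC F ln p μ u γ s t ((κ, i), ω) := by
    intro ω hω hTω hUω
    have d1 := hUU ω ωu hω hCu (hUX ω hUω) (hUX ωu hu)
    have d2 : 1 / 2 ^ (g₀ + 1) ≤ |xi F u t ω - xi F u t ωm| := by
      have d3 : |xi F u t ωu - xi F u t ωm| ≤ |xi F u t ωu - xi F u t ω| +
          |xi F u t ω - xi F u t ωm| := abs_sub_le _ _ _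
      rw [p1] at d1
      rw [p2]
      linarith
    exact pay_small (i' := i) hμ hγP hγs hwm (hDD ωm ω hCm hω) (hll ωm ω hCm hω) hr.le
      (hNR' ωm hCm) (hNL' ωm hCm) hTm (by omega) d2 n2'
  right; right
  refine ⟨F.D u (t + 1) ωm, F.D u (t + 1) ωu, ?_, ?_, ?_⟩
  · intro a h1 h2 h3
    obtain ⟨ω, rfl, hω⟩ := toC a h1 h2 h3
    have e1 := side_cases (F := F) (u := u) (t := t) ω
    have e2 := side_cases (F := F) (u := u) (t := t) ωm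
    have e3 := side_cases (F := F) (u := u) (t := t) ωu
    have e4 := hDD ω ωm hω hCm
    have e5 := hDD ω ωu hω hCu
    show F.D u (t + 1) ω = _ ∨ F.D u (t + 1) ω = _
    omega
  · intro a h1 h2 h3 h4
    obtain ⟨ω, rfl, hω⟩ := toC a h1 h2 h3
    by_cases hn : Ng ω
    · exact Or.inl hn
    right
    obtain ⟨t1, c1 | c1⟩ := hN ω hω hn
    · exact hbig ω hω t1 c1
    · exfalso
      apply hmu
      have e1 : F.D u (t + s) ω = F.D u (t + s) ωu := by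
        rw [hUX ω c1, hUX ωu hu]
        exact hx0t _ _ (hDD ωu ω hCu hω)
      have e2 := F.D_det_le u (by omega : t + 1 ≤ t + s) _ _ e1
      rw [← e2]
      exact h4.symm
  · intro a h1 h2 h3 _
    obtain ⟨ω, rfl, hω⟩ := toC a h1 h2 h3
    by_cases hn : Ng ω
    · exact Or.inl hn
    right
    obtain ⟨t1, c1 | c1⟩ := hN ω hω hn
    · have h5 := hbig ω hω t1 c1
      unfold BigC at h5
      unfold SmallC
      refine h5.trans (mul_le_mul_of_nonneg_right (by linarith) (Pr_nonneg hμ _ _))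
    · exact hsmall ω hω t1 c1

end tri

end Vale.Agent.P065.H700.SG
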